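import Vale.Agent.P195.Kun

/-! A ten-dimensional algebra. -/

namespace Vale.Agent.P195

/-- coordinates with respect to the basis `e, x, y, w, u, v, t, j, f, n` -/
@[ext] structure CA {k : Type} [Field k] (q : k) : Type where
  e : k
  x : k
  y : k
  w : k
  u : k
  v : k
  t : k
  j : k
  f : k
  n : k

namespace CA

variable {k : Type} [Field k] {q : k}

/-- the tautological equivalence -/
def equiv : CA q ≃ (Fin 10 → k) where
  toFun a := ![a.e, a.x, a.y, a.w, a.u, a.v, a.t, a.j, a.f, a.n]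
  invFun p := ⟨p 0, p 1, p 2, p 3, p 4, p 5, p 6, p 7, p 8, p 9⟩
  left_inv _ := rfl
  right_inv p := by funext i; fin_cases i <;> rfl

instance : AddCommGroup (CA q) := equiv.addCommGroup
instance : Module k (CA q) := equiv.module k
instance : Mul (CA q) := ⟨fun a b =>
  { e := a.e * b.e
    x := a.e * b.x + a.x * b.e + a.u * b.t
    y := a.e * b.y + a.y * b.e + a.u * b.t
    w := a.e * b.w + a.w * b.e + a.y * b.x - q * a.x * b.y + a.u * b.j + a.v * b.t
    u := a.e * b.u + a.u * b.f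
    v := a.e * b.v + a.v * b.f + a.y * b.u - q * a.x * b.u + (1 - q) * a.u * b.n
    t := a.f * b.t + a.t * b.e
    j := a.f * b.j + a.j * b.e + a.t * b.x - q * a.t * b.y + (1 - q) * a.n * b.t
    f := a.f * b.f
    n := a.f * b.n + a.n * b.f + a.t * b.u }⟩
instance : One (CA q) := ⟨⟨1, 0, 0, 0, 0, 0, 0, 0, 1, 0⟩⟩

@[simp] lemma add_e (a b : CA q) : (a + b).e = a.e + b.e := rfl
@[simp] lemma sub_e (a b : CA q) : (a - b).e = a.e - b.e := rfl
@[simp] lemma zero_e : (0 : CA q).e = 0 := rfl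
@[simp] lemma one_e : (1 : CA q).e = 1 := rfl
@[simp] lemma smul_e (c : k) (a : CA q) : (c • a).e = c * a.e := rfl
@[simp] lemma mul_e (a b : CA q) :
    (a * b).e = a.e * b.e := rfl
@[simp] lemma add_x (a b : CA q) : (a + b).x = a.x + b.x := rfl
@[simp] lemma sub_x (a b : CA q) : (a - b).x = a.x - b.x := rfl
@[simp] lemma zero_x : (0 : CA q).x = 0 := rfl
@[simp] lemma one_x : (1 : CA q).x = 0 := rfl
@[simp] lemma smul_x (c : k) (a : CA q) : (c • a).x = c * a.x := rfl
@[simp] lemma mul_x (a b : CA q) :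
    (a * b).x = a.e * b.x + a.x * b.e + a.u * b.t := rfl
@[simp] lemma add_y (a b : CA q) : (a + b).y = a.y + b.y := rfl
@[simp] lemma sub_y (a b : CA q) : (a - b).y = a.y - b.y := rfl
@[simp] lemma zero_y : (0 : CA q).y = 0 := rfl
@[simp] lemma one_y : (1 : CA q).y = 0 := rfl
@[simp] lemma smul_y (c : k) (a : CA q) : (c • a).y = c * a.y := rfl
@[simp] lemma mul_y (a b : CA q) :
    (a * b).y = a.e * b.y + a.y * b.e + a.u * b.t := rfl
@[simp] lemma add_w (a b : CA q) : (a + b).w = a.w + b.w := rfl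
@[simp] lemma sub_w (a b : CA q) : (a - b).w = a.w - b.w := rfl
@[simp] lemma zero_w : (0 : CA q).w = 0 := rfl
@[simp] lemma one_w : (1 : CA q).w = 0 := rfl
@[simp] lemma smul_w (c : k) (a : CA q) : (c • a).w = c * a.w := rfl
@[simp] lemma mul_w (a b : CA q) :
    (a * b).w = a.e * b.w + a.w * b.e + a.y * b.x - q * a.x * b.y + a.u * b.j + a.v * b.t := rfl
@[simp] lemma add_u (a b : CA q) : (a + b).u = a.u + b.u := rfl
@[simp] lemma sub_u (a b : CA q) : (a - b).u = a.u - b.u := rfl
@[simp] lemma zero_u : (0 : CA q).u = 0 := rfl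
@[simp] lemma one_u : (1 : CA q).u = 0 := rfl
@[simp] lemma smul_u (c : k) (a : CA q) : (c • a).u = c * a.u := rfl
@[simp] lemma mul_u (a b : CA q) :
    (a * b).u = a.e * b.u + a.u * b.f := rfl
@[simp] lemma add_v (a b : CA q) : (a + b).v = a.v + b.v := rfl
@[simp] lemma sub_v (a b : CA q) : (a - b).v = a.v - b.v := rfl
@[simp] lemma zero_v : (0 : CA q).v = 0 := rfl
@[simp] lemma one_v : (1 : CA q).v = 0 := rfl
@[simp] lemma smul_v (c : k) (a : CA q) : (c • a).v = c * a.v := rfl
@[simp] lemma mul_v (a b : CA q) :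
    (a * b).v = a.e * b.v + a.v * b.f + a.y * b.u - q * a.x * b.u + (1 - q) * a.u * b.n := rfl
@[simp] lemma add_t (a b : CA q) : (a + b).t = a.t + b.t := rfl
@[simp] lemma sub_t (a b : CA q) : (a - b).t = a.t - b.t := rfl
@[simp] lemma zero_t : (0 : CA q).t = 0 := rfl
@[simp] lemma one_t : (1 : CA q).t = 0 := rfl
@[simp] lemma smul_t (c : k) (a : CA q) : (c • a).t = c * a.t := rfl
@[simp] lemma mul_t (a b : CA q) :
    (a * b).t = a.f * b.t + a.t * b.e := rfl
@[simp] lemma add_j (a b : CA q) : (a + b).j = a.j + b.j := rfl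
@[simp] lemma sub_j (a b : CA q) : (a - b).j = a.j - b.j := rfl
@[simp] lemma zero_j : (0 : CA q).j = 0 := rfl
@[simp] lemma one_j : (1 : CA q).j = 0 := rfl
@[simp] lemma smul_j (c : k) (a : CA q) : (c • a).j = c * a.j := rfl
@[simp] lemma mul_j (a b : CA q) :
    (a * b).j = a.f * b.j + a.j * b.e + a.t * b.x - q * a.t * b.y + (1 - q) * a.n * b.t := rfl
@[simp] lemma add_f (a b : CA q) : (a + b).f = a.f + b.f := rfl
@[simp] lemma sub_f (a b : CA q) : (a - b).f = a.f - b.f := rfl
@[simp] lemma zero_f : (0 : CA q).f = 0 := rfl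
@[simp] lemma one_f : (1 : CA q).f = 1 := rfl
@[simp] lemma smul_f (c : k) (a : CA q) : (c • a).f = c * a.f := rfl
@[simp] lemma mul_f (a b : CA q) :
    (a * b).f = a.f * b.f := rfl
@[simp] lemma add_n (a b : CA q) : (a + b).n = a.n + b.n := rfl
@[simp] lemma sub_n (a b : CA q) : (a - b).n = a.n - b.n := rfl
@[simp] lemma zero_n : (0 : CA q).n = 0 := rfl
@[simp] lemma one_n : (1 : CA q).n = 0 := rfl
@[simp] lemma smul_n (c : k) (a : CA q) : (c • a).n = c * a.n := rfl
@[simp] lemma mul_n (a b : CA q) :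
    (a * b).n = a.f * b.n + a.n * b.f + a.t * b.u := rfl

instance : Ring (CA q) :=
  { (inferInstance : AddCommGroup (CA q)) with
    mul := (· * ·)
    one := 1
    mul_assoc := fun a b c => by ext <;> simp <;> ring
    one_mul := fun a => by ext <;> simp
    mul_one := fun a => by ext <;> simp
    zero_mul := fun a => by ext <;> simp
    mul_zero := fun a => by ext <;> simp
    left_distrib := fun a b c => by ext <;> simp <;> ring
    right_distrib := fun a b c => by ext <;> simp <;> ring }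

instance : Algebra k (CA q) :=
  Algebra.ofModule (fun c a b => by ext <;> simp <;> ring) (fun c a b => by ext <;> simp <;> ring)

/-- the tautological linear equivalence -/
def lequiv : CA q ≃ₗ[k] (Fin 10 → k) := equiv.linearEquiv k

instance : FiniteDimensional k (CA q) := lequiv.symm.finiteDimensional

lemma lequiv_apply (a : CA q) :
    lequiv a = ![a.e, a.x, a.y, a.w, a.u, a.v, a.t, a.j, a.f, a.n] := rfl

lemma lequiv_symm_apply (p : Fin 10 → k) :
    (lequiv (q := q)).symm p = ⟨p 0, p 1, p 2, p 3, p 4, p 5, p 6, p 7, p 8, p 9⟩ := rfl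

lemma trace_eq (a : CA q) :
    LinearMap.trace k (CA q) (LinearMap.mulLeft k a) = 6 * a.e + 4 * a.f := by
  rw [LinearMap.trace_eq_matrix_trace k (Module.Basis.ofEquivFun lequiv)]
  simp only [Matrix.trace, Matrix.diag, LinearMap.toMatrix_apply, Module.Basis.ofEquivFun_repr_apply,
    Module.Basis.coe_ofEquivFun, LinearMap.mulLeft_apply, lequiv_apply, lequiv_symm_apply]
  simp [Fin.sum_univ_succ, Pi.single_apply]
  ring

/-- the character -/
def χ : CA q →ₐ[k] k where
  toFun a := a.f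
  map_one' := rfl
  map_mul' _ _ := rfl
  map_zero' := rfl
  map_add' _ _ := rfl
  commutes' a := by simp [Algebra.algebraMap_eq_smul_one]

@[simp] lemma χ_apply (a : CA q) : χ a = a.f := rfl

/-- idempotents -/
def ε : ℕ → CA q
  | 0 => ⟨0, 0, 0, 0, 0, 0, 0, 0, 1, 0⟩
  | _ + 1 => ⟨1, 0, 0, 0, 0, 0, 0, 0, 0, 0⟩

/-- differentials -/
def d : ℕ → CA q
  | 0 => ⟨0, 0, 0, 0, 1, 0, 0, 0, 0, 0⟩
  | i + 1 => ⟨0, 1, q ^ (i + 1), 0, 0, 0, 0, 0, 0, 0⟩

/-- contraction of the resolution -/
def h : ℕ → CA q →ₗ[k] CA q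
  | 0 =>
    { toFun := fun c => ⟨c.u, 0, c.v, 0, 0, 0, c.n, 0, 0, 0⟩
      map_add' := fun a b => by ext <;> simp
      map_smul' := fun a b => by ext <;> simp }
  | i + 1 =>
    { toFun := fun c => ⟨c.x, 0, c.w, 0, 0, 0, c.j / (1 - q ^ (i + 2)), 0, 0, 0⟩
      map_add' := fun a b => by ext <;> simp; ring
      map_smul' := fun a b => by ext <;> simp; ring }

/-- contraction of the dual complex -/
def g : ℕ → CA q →ₗ[k] CA q
  | 0 =>
    { toFun := fun c => ⟨0, 0, 0, 0, 0, 0, c.x, c.w, c.u, c.v / (1 - q)⟩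
      map_add' := fun a b => by ext <;> simp; ring
      map_smul' := fun a b => by ext <;> simp; ring }
  | i + 1 =>
    { toFun := fun c => ⟨c.x, 0, -c.w / q, 0, c.v / (q ^ (i + 1) - q), 0, 0, 0, 0, 0⟩
      map_add' := fun a b => by ext <;> simp <;> ring
      map_smul' := fun a b => by ext <;> simp <;> ring }

/-- the coefficient of `v` -/
def lam : CA q →ₗ[k] k := ⟨⟨fun c => c.v, fun _ _ => rfl⟩, fun _ _ => rfl⟩

@[simp] lemma lam_apply (a : CA q) : lam a = a.v := rfl

/-- the algebra as a base datum -/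
noncomputable def base (two : (2 : k) = 0) (h0 : q ≠ 0) (h1 : ∀ n : ℕ, 1 ≤ n → q ^ n ≠ 1) :
    Base k (CA q) where
  ε := ε
  d := d
  idem := by rintro (_ | i) <;> ext <;> simp [ε]
  d_left := by rintro (_ | i) <;> ext <;> simp [ε, d]
  d_right := by rintro (_ | i) <;> ext <;> simp [ε, d]
  dd := by rintro (_ | i) <;> ext <;> simp [d]; ring
  χ := χ
  χ_zero := rfl
  χ_succ _ := rfl
  h := h
  h0 c := by ext <;> simp [h, d, ε]
  hS := by
    have h2 : ∀ i : ℕ, 1 - q ^ (i + 1) ≠ 0 := fun i => sub_ne_zero.2 (h1 _ (by omega)).symm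
    rintro (_ | i) c
    · have := h2 1
      ext <;> simp [h, d, ε] <;> field_simp <;> ring
    · have := h2 (i + 1)
      have := h2 (i + 2)
      ext <;> simp [h, d, ε] <;> field_simp <;> ring
  g := g
  lam := lam
  v := ⟨0, 0, 0, 0, 0, 1, 0, 0, 0, 0⟩
  g0 c := by
    have : 1 - q ≠ 0 := sub_ne_zero.2 (by simpa using (h1 1 le_rfl).symm)
    ext <;> simp [g, d, ε]; field_simp
  gS := by
    have h3 : 1 - q ≠ 0 := sub_ne_zero.2 (by simpa using (h1 1 le_rfl).symm)
    have h2 : ∀ i : ℕ, q ^ (i + 2) - q ≠ 0 := fun i hi => by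
      have : q * (q ^ (i + 1) - 1) = 0 := by linear_combination hi
      exact h1 (i + 1) (by omega) (sub_eq_zero.1 ((mul_eq_zero.1 this).resolve_left h0))
    rintro (_ | _ | i) c
    · ext <;> simp [g, d, ε] <;> field_simp <;> ring
    · have h4 : q - 1 ≠ 0 := sub_ne_zero.2 (by simpa using h1 1 le_rfl)
      ext <;> simp [g, d, ε] <;> field_simp <;> ring
    · have := h2 i
      have := h2 (i + 1)
      ext <;> simp [g, d, ε] <;> field_simp <;> ring
  ε_v := by ext <;> simp [ε]
  d_v := by ext <;> simp [d]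
  lam_d c := by simp [d]
  lam_v c := by simp
  tr c := by rw [trace_eq]; linear_combination (3 * c.e + 2 * c.f) * two
  two := two

end CA

/-- the ground field -/
abbrev KK : Type := RatFunc (ZMod 2)

lemma KK_two : (2 : KK) = 0 := by
  rw [← map_ofNat (algebraMap (ZMod 2) KK) 2]
  exact (congrArg _ (by decide)).trans (map_zero _)

lemma KK_pow (n : ℕ) (hn : 1 ≤ n) : (RatFunc.X : KK) ^ n ≠ 1 := by
  intro h
  rw [← RatFunc.algebraMap_X, ← map_pow, ← map_one (algebraMap (Polynomial (ZMod 2)) KK)] at h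
  have := congrArg Polynomial.natDegree (RatFunc.algebraMap_injective _ h)
  simp at this
  omega

/-- the concrete input of the construction -/
noncomputable def theSetup :
    Setup KK (TensorProduct KK (CA (RatFunc.X : KK)) (CA (RatFunc.X : KK))) (ℕ × ℕ) :=
  (CA.base KK_two RatFunc.X_ne_zero KK_pow).setup RatFunc.X RatFunc.X_ne_zero KK_pow

end Vale.Agent.P195
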