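import Vale.Agent.P195.TQ
import Vale.Agent.P195.Lam

/-! The algebra and the complex giving the counterexample. -/

namespace Vale.Agent.P195

open Finsupp MulOpposite Dat TT Lam

attribute [-simp] Finsupp.single_mul

namespace Setup

variable {k R ι : Type} [Field k] [Ring R] [Algebra k R] [FiniteDimensional k R]
  (σ : Setup k R ι)

/-- the inclusion of `R` in the trivial extension -/
def inlAlg : R →ₐ[k] TT k R where
  toFun := inl
  map_one' := rfl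
  map_mul' a b := (inl_mul_inl a b).symm
  map_zero' := rfl
  map_add' a b := by ext1 <;> simp
  commutes' a := by ext1 <;> simp [Algebra.algebraMap_eq_smul_one]

omit [FiniteDimensional k R] in
@[simp] lemma inlAlg_apply (r : R) : (inlAlg r : TT k R) = inl r := rfl

/-- the gluing data -/
noncomputable def glue : Glue k R (TT k R) (Hm k R k × LL k R) where
  j := inlAlg
  h := hA σ.H
  κ :=
    { toFun := fun t => (t.snd, σ.κL t.fst)
      map_add' := fun a b => by simp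
      map_smul' := fun a b => by simp [κL_k] }
  h_j r := hA_inl _ r
  κ_left r t := by simp [← map_smul]
  κ_right r t := by simp [← κL_op_smul]

@[simp] lemma glue_j (r : R) : σ.glue.j r = inl r := rfl
@[simp] lemma glue_h (t : TT k R) : σ.glue.h t = hA σ.H t := rfl
@[simp] lemma glue_κ (t : TT k R) : σ.glue.κ t = (t.snd, σ.κL t.fst) := rfl

/-- the algebra -/
abbrev Λ : Type := Lam σ.glue

/-- push-forward -/
noncomputable abbrev Q11 : Dat σ.Λ (ℕ × ι) := σ.Q.map φ11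
/-- push-forward -/
noncomputable abbrev Q22 : Dat σ.Λ (ℕ × ι) := σ.Q.map φ22
/-- push-forward -/
noncomputable abbrev P33 : Dat σ.Λ ι := σ.P.map φ33

/-- entries of the first part of the complex -/
noncomputable def en : ℕ → ℕ → TT k R →+ σ.Λ
  | 0, 0 => (φ00 : R →ₙ+* σ.Λ).toAddMonoidHom.comp fstA
  | 0, _ + 1 => 0
  | _ + 1, 0 => φ10
  | _ + 1, _ + 1 => (φ11 : TT k R →ₙ+* σ.Λ).toAddMonoidHom

@[simp] lemma en00 (t : TT k R) : σ.en 0 0 t = φ00 t.fst := rfl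
@[simp] lemma en0s (j : ℕ) (t : TT k R) : σ.en 0 (j + 1) t = 0 := rfl
@[simp] lemma ens0 (j : ℕ) (t : TT k R) : σ.en (j + 1) 0 t = φ10 t := rfl
@[simp] lemma enss (j j' : ℕ) (t : TT k R) : σ.en (j + 1) (j' + 1) t = φ11 t := rfl
@[simp] lemma en10 (t : TT k R) : σ.en 1 0 t = φ10 t := rfl
@[simp] lemma en1s (j' : ℕ) (t : TT k R) : σ.en 1 (j' + 1) t = φ11 t := rfl

omit [FiniteDimensional k R] in
@[simp] lemma DQ00 (i i' : ι) : σ.DQ (0, i) (0, i') = inl (σ.P.D i i') := by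
  ext1 <;> simp [fst_DQ, snd_DQ]
omit [FiniteDimensional k R] in
@[simp] lemma DQ0s (j : ℕ) (i i' : ι) : σ.DQ (0, i) (j + 1, i') = 0 := by
  ext1 <;> simp [fst_DQ, snd_DQ]
omit [FiniteDimensional k R] in
@[simp] lemma fst_DQs0 (j : ℕ) (i i' : ι) : (σ.DQ (j + 1, i) (0, i')).fst = 0 := by
  simp [fst_DQ]

lemma en_mul (a : ℕ) (y z : ℕ × ι) (t : TT k R) :
    σ.en a y.1 t * σ.en y.1 z.1 (σ.DQ y z) = σ.en a z.1 (t * σ.DQ y z) := by
  obtain ⟨_ | j, i⟩ := y <;> obtain ⟨_ | j', i'⟩ := z <;> rcases a with _ | a <;> ext1 <;> simp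

lemma en_mul_ε (a b : ℕ) (t : TT k R) (r : R) :
    σ.en a b t * σ.en b b (inl r) = σ.en a b (t * inl r) := by
  rcases a with _ | a <;> rcases b with _ | b <;> ext1 <;> simp

lemma φ11_en (b : ℕ) (s t : TT k R) : φ11 s * σ.en 1 b t = σ.en 1 b (s * t) := by
  rcases b with _ | b <;> ext1 <;> simp

/-- the first part of the complex -/
noncomputable def X1 : Dat σ.Λ (ℕ × ι) where
  deg := σ.Q.deg
  ε x := σ.en x.1 x.1 (σ.Q.ε x)
  D x := mapIdx (fun y => σ.en x.1 y.1) (σ.DQ x)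
  idem x := by rw [Q_ε, en_mul_ε, inl_mul_inl, σ.P.idem]
  D_deg x y h := σ.Q.D_deg x y fun h' => h (by rw [mapIdx_apply, ← Q_D, h', map_zero])
  D_left x y := by rw [mapIdx_apply, en_mul, ← Q_D, σ.Q.D_left]
  D_right x y := by rw [mapIdx_apply, Q_ε, en_mul_ε, ← Q_ε, ← Q_D, σ.Q.D_right]
  DD x := by
    have : ∀ v : ℕ × ι →₀ TT k R,
        linearCombination σ.Λ (fun x => mapIdx (fun y => σ.en x.1 y.1) (σ.DQ x))
          (mapIdx (fun y => σ.en x.1 y.1) v) =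
        mapIdx (fun y => σ.en x.1 y.1) (linearCombination _ σ.DQ v) := by
      intro v
      induction v using Finsupp.induction_linear with
      | zero => simp
      | add a b ha hb => simp only [map_add, ha, hb]
      | single y t => ext1 z; simp [en_mul]
    rw [this, ← Q_D, σ.Q.DD, map_zero]

@[simp] lemma X1_deg (x : ℕ × ι) : σ.X1.deg x = σ.Q.deg x := rfl
@[simp] lemma X1_ε (x : ℕ × ι) : σ.X1.ε x = σ.en x.1 x.1 (inl (σ.P.ε x.2)) := rfl
@[simp] lemma X1_D (x y : ℕ × ι) : σ.X1.D x y = σ.en x.1 y.1 (σ.DQ x y) := rfl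

lemma X1_e (n : ℤ) (x : ℕ × ι) : σ.X1.e n x = σ.en x.1 x.1 (σ.Q.e n x) := by
  by_cases h : σ.Q.deg x = n
  · rw [σ.Q.e_of_eq h, σ.X1.e_of_eq h]; rfl
  · rw [σ.Q.e_of_ne h, σ.X1.e_of_ne h, map_zero]

/-- the twisting element -/
noncomputable def ab (j : ℕ) : σ.Λ := φ21a 1 + φ21b (σ.H ^ j • 1)

lemma φ22_ab (j b : ℕ) (s t : TT k R) : φ22 s * (σ.ab j * σ.en 1 b t) =
    φ21a 1 * σ.en 1 b (s * t) + φ21b 1 * σ.en 1 b ((σ.H ^ j • hA σ.H s) * t) := by
  rcases b with _ | b <;> ext1 <;> simp [ab]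

lemma ab_en (j b : ℕ) (t : TT k R) : σ.ab j * σ.en 1 b t =
    φ21a 1 * σ.en 1 b t + φ21b 1 * σ.en 1 b (σ.H ^ j • t) := by
  rcases b with _ | b <;> ext1 <;> simp [ab]

omit [FiniteDimensional k R] in
lemma lc_diag {S α : Type} [Ring S] (c : α → S) (v : α →₀ S) (z : α) :
    linearCombination S (fun x => single x (c x)) v z = v z * c z := by
  classical
  induction v using Finsupp.induction_linear with
  | zero => simp
  | add a b ha hb => simp [ha, hb, add_mul]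
  | single y t => simp only [linearCombination_single, smul_single, single_apply]; split_ifs with h <;> simp [h]

lemma comm_aux (b : ℕ) (x z : ℕ × ι) :
    φ22 (σ.DQ x z) * (σ.ab z.1 * σ.en 1 b (σ.Q.ε z)) + σ.ab x.1 * σ.en 1 b (σ.DQ x z) = 0 := by
  rw [φ22_ab, h_DQ, smul_mul_assoc, ← Q_D, σ.Q.D_right, ab_en, σ.add_self]

/-- the first attaching map -/
noncomputable def F : Hom σ.X1 σ.Q22 where
  F x := single x (σ.ab x.1 * σ.en 1 x.1 (σ.Q.ε x))
  F_deg x y h := by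
    by_contra h'
    exact h (single_eq_of_ne fun h2 => h' (by rw [h2]; rfl))
  F_left x y := by
    rw [← smul_eq_mul, ← Finsupp.smul_apply, smul_single, smul_eq_mul, map_ε, φ22_ab, ab_en]
    simp [inl_mul_inl, σ.P.idem]
  F_right x y := by
    classical
    rw [single_apply]
    split_ifs with h
    · subst h
      rw [mul_assoc, X1_ε, en_mul_ε, Q_ε, inl_mul_inl, σ.P.idem]
    · simp
  comm x := by
    ext1 z
    rw [Finsupp.add_apply, lc_diag, linearCombination_single, Finsupp.smul_apply, smul_eq_mul,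
      mul_assoc, X1_D, en_mul, ← Q_D, σ.Q.D_left]
    exact σ.comm_aux _ x z

/-- the attaching map of the comparison cone -/
noncomputable def F' : Hom σ.Q11 σ.Q22 where
  F x := single x (σ.ab x.1 * φ11 (σ.Q.ε x))
  F_deg x y h := by
    by_contra h'
    exact h (single_eq_of_ne fun h2 => h' (by rw [h2]; rfl))
  F_left x y := by
    rw [← smul_eq_mul, ← Finsupp.smul_apply, smul_single, smul_eq_mul, map_ε, ← σ.en1s 0, φ22_ab,
      ab_en]
    simp [inl_mul_inl, σ.P.idem]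
  F_right x y := by
    classical
    rw [single_apply]
    split_ifs with h
    · subst h
      rw [mul_assoc, map_ε, ← map_mul, σ.Q.idem]
    · simp
  comm x := by
    ext1 z
    rw [Finsupp.add_apply, lc_diag, linearCombination_single, Finsupp.smul_apply, smul_eq_mul,
      mul_assoc, map_D, map_D, ← map_mul, σ.Q.D_left]
    exact σ.comm_aux 1 x z

lemma F_apply (x : ℕ × ι) : σ.F.F x = single x (σ.ab x.1 * σ.en 1 x.1 (σ.Q.ε x)) := rfl
lemma F'_apply (x : ℕ × ι) : σ.F'.F x = single x (σ.ab x.1 * φ11 (σ.Q.ε x)) := rfl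

/-- the second attaching map -/
noncomputable def G : Hom σ.F.cone σ.P33.shift where
  F i := single (Sum.inr (0, i)) (φ32 (inl (σ.P.ε i)))
  F_deg x y h := by
    by_contra h'
    exact h (single_eq_of_ne fun h2 => h' (by rw [h2]; simp))
  F_left x y := by
    rw [← smul_eq_mul, ← Finsupp.smul_apply, smul_single, smul_eq_mul]
    congr 2
    ext1 <;> simp [inl_mul_inl, σ.P.idem]
  F_right x y := by
    classical
    rw [single_apply]
    split_ifs with h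
    · subst h
      ext1 <;> simp [inl_mul_inl, σ.P.idem]
    · simp
  comm i := by
    classical
    have h1 : ∀ x : ι →₀ R, linearCombination σ.Λ
        (fun i => single (Sum.inr (0, i) : (ℕ × ι) ⊕ (ℕ × ι)) (φ32 (inl (σ.P.ε i)) : σ.Λ))
        (x.mapRange φ33 (map_zero _)) =
        sumElim 0 (cp 0 (mapIdx (fun i => φ32.comp (inlA.comp (AddMonoidHom.mulRight (σ.P.ε i))))
          x)) := by
      intro x
      induction x using Finsupp.induction_linear with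
      | zero => simp
      | add a b ha hb =>
        rw [mapRange_add (map_add _), map_add, ha, hb, ← sumElim_add, map_add, map_add, add_zero]
      | single y t =>
        simp only [mapRange_single, linearCombination_single, smul_single, mapIdx_single,
          cp_single, sumElim_zero_single]
        congr 1
        ext1 <;> simp [inl_mul_inl]
    refine (congrArg (· + _) (h1 (σ.P.D i))).trans ?_
    rw [linearCombination_single]
    ext1 (z | ⟨_ | j, i'⟩)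
    · simp only [Finsupp.add_apply, sumElim_inl, Finsupp.smul_apply, Hom.D_inr, F_apply,
        single_apply]
      split_ifs
      · ext1 <;> simp [ab, σ.add_self]
      · simp
    · ext1 <;> simp [sumElim_inr, σ.P.D_right, inl_mul_inl, σ.P.D_left, σ.add_self]
    · simp [sumElim_inr]

lemma G_apply (i : ι) : σ.G.F i = single (Sum.inr (0, i)) (φ32 (inl (σ.P.ε i))) := rfl

/-- indices of the complex -/
abbrev Idx (ι : Type) : Type := ((ℕ × ι) ⊕ (ℕ × ι)) ⊕ ι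

/-- the complex -/
noncomputable def PP : Dat σ.Λ (Idx ι) := σ.G.cone

/-- the comparison cone -/
noncomputable def XX : Dat σ.Λ ((ℕ × ι) ⊕ (ℕ × ι)) := σ.F'.cone

lemma PP_fin : σ.PP.FinDeg :=
  σ.G.finDeg (σ.F.finDeg σ.Q_fin σ.Q_fin) fun n => (σ.fin (n - 1)).subset fun i hi => by
    simp only [Set.mem_setOf_eq, shift_deg, map_deg] at hi ⊢; omega

lemma PP_nonneg : ∀ x, 0 ≤ σ.PP.deg x :=
  σ.G.nonneg (σ.F.nonneg σ.Q_nonneg σ.Q_nonneg) fun i => by
    have := σ.nonneg i; simp only [shift_deg, map_deg]; omega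

/-! ### decoding rows -/

/-- a family of entries depending on whether the copy is the bottom one -/
def fam {A B : Type} [AddCommGroup A] [AddCommGroup B] (f g : A →+ B) : ℕ × ι → A →+ B
  | (0, _) => f
  | (_ + 1, _) => g

omit [FiniteDimensional k R] in
@[simp] lemma fam0 {A B : Type} [AddCommGroup A] [AddCommGroup B] (f g : A →+ B) (i : ι) :
    fam f g (0, i) = f := rfl
omit [FiniteDimensional k R] in
@[simp] lemma fams {A B : Type} [AddCommGroup A] [AddCommGroup B] (f g : A →+ B) (j : ℕ) (i : ι) :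
    fam f g (j + 1, i) = g := rfl

/-- decoding -/
noncomputable def d0 : (ℕ × ι →₀ σ.Λ) →+ (ι →₀ R) :=
  pull (Prod.mk 0) (Prod.mk_right_injective 0) fun _ => π00
/-- decoding -/
noncomputable def dL : (ℕ × ι →₀ σ.Λ) →+ (ι →₀ LL k R) :=
  pull (Prod.mk 0) (Prod.mk_right_injective 0) fun _ => (AddMonoidHom.snd _ _).comp π30
/-- decoding -/
noncomputable def d1 : (ℕ × ι →₀ σ.Λ) →+ (ℕ × ι →₀ TT k R) := mapIdx (fam π10 π11)
/-- decoding -/
noncomputable def da : (ℕ × ι →₀ σ.Λ) →+ (ℕ × ι →₀ TT k R) := mapIdx (fam π20a π21a)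
/-- decoding -/
noncomputable def db : (ℕ × ι →₀ σ.Λ) →+ (ℕ × ι →₀ TT k R) := mapIdx (fam π20b π21b)
/-- decoding -/
noncomputable def dK : (ℕ × ι →₀ σ.Λ) →+ (ℕ × ι →₀ TT k R) :=
  mapIdx (fam (inrA.comp ((AddMonoidHom.fst _ _).comp π30)) π31)
/-- decoding -/
noncomputable def d2 : (ℕ × ι →₀ σ.Λ) →+ (ℕ × ι →₀ TT k R) := mapIdx fun _ => π22
/-- decoding -/
noncomputable def dc : (ℕ × ι →₀ σ.Λ) →+ (ℕ × ι →₀ TT k R) := mapIdx fun _ => π32
/-- decoding -/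
noncomputable def d3 : (ι →₀ σ.Λ) →+ (ι →₀ R) := mapIdx fun _ => π33

lemma d0_rd (v : ℕ × ι →₀ σ.Λ) : σ.d0 (σ.X1.rd v) = σ.P.rd (σ.d0 v) :=
  σ.X1.rd_pull σ.P _ _ _ (fun i j b => by simp) (by
    rintro ⟨_ | a, i⟩ h j b
    · exact absurd rfl (h i)
    · simp) v

lemma dL_rd (v : ℕ × ι →₀ σ.Λ) : σ.dL (σ.X1.rd v) = σ.P.rd (σ.dL v) :=
  σ.X1.rd_pull σ.P _ _ _ (fun i j b => by simp) (by
    rintro ⟨_ | a, i⟩ h j b
    · exact absurd rfl (h i)
    · simp) v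

lemma d1_rd (v : ℕ × ι →₀ σ.Λ) : σ.d1 (σ.X1.rd v) = σ.Q.rd (σ.d1 v) :=
  σ.X1.rd_mapIdx σ.Q _ (by rintro ⟨_ | a, i⟩ ⟨_ | a', i'⟩ b <;> simp) v
lemma da_rd (v : ℕ × ι →₀ σ.Λ) : σ.da (σ.X1.rd v) = σ.Q.rd (σ.da v) :=
  σ.X1.rd_mapIdx σ.Q _ (by rintro ⟨_ | a, i⟩ ⟨_ | a', i'⟩ b <;> simp) v
lemma db_rd (v : ℕ × ι →₀ σ.Λ) : σ.db (σ.X1.rd v) = σ.Q.rd (σ.db v) :=
  σ.X1.rd_mapIdx σ.Q _ (by rintro ⟨_ | a, i⟩ ⟨_ | a', i'⟩ b <;> simp) v
lemma dK_rd (v : ℕ × ι →₀ σ.Λ) : σ.dK (σ.X1.rd v) = σ.Q.rd (σ.dK v) :=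
  σ.X1.rd_mapIdx σ.Q _ (by rintro ⟨_ | a, i⟩ ⟨_ | a', i'⟩ b <;> ext1 <;> simp) v
lemma d2_rd (v : ℕ × ι →₀ σ.Λ) : σ.d2 (σ.Q22.rd v) = σ.Q.rd (σ.d2 v) :=
  σ.Q22.rd_mapIdx σ.Q _ (by simp) v
lemma dc_rd (v : ℕ × ι →₀ σ.Λ) : σ.dc (σ.Q22.rd v) = σ.Q.rd (σ.dc v) :=
  σ.Q22.rd_mapIdx σ.Q _ (by simp) v
lemma d3_rd (v : ι →₀ σ.Λ) : σ.d3 (σ.P33.shift.rd v) = σ.P.rd (σ.d3 v) :=
  σ.P33.rd_mapIdx σ.P _ (by simp) v

lemma F_row (v : ℕ × ι →₀ σ.Λ) (x : ℕ × ι) :
    σ.F.row v x = v x * (σ.ab x.1 * σ.en 1 x.1 (σ.Q.ε x)) := by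
  classical
  induction v using Finsupp.induction_linear with
  | zero => simp
  | add a b ha hb => simp only [map_add, Finsupp.add_apply, ha, hb, add_mul]
  | single y t =>
    simp only [Hom.row_single, rrow_apply, F_apply, single_apply]; split_ifs with h <;> simp [h]

lemma G_row_inl (v : ι →₀ σ.Λ) : lft (σ.G.row v) = 0 := by
  induction v using Finsupp.induction_linear with
  | zero => simp
  | add a b ha hb => simp only [map_add, ha, hb, add_zero]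
  | single y t => ext1; simp [G_apply]

lemma G_row_inr (v : ι →₀ σ.Λ) : rgt (σ.G.row v) =
    cp 0 (mapIdx (fun i => AddMonoidHom.mulRight (φ32 (inl (σ.P.ε i)))) v) := by
  induction v using Finsupp.induction_linear with
  | zero => simp
  | add a b ha hb => simp only [map_add, ha, hb]
  | single y t => simp [G_apply, rrow_self]

/-- the nine components of a row -/
@[ext] structure Cp (k R ι : Type) [Field k] [Ring R] [Algebra k R] where
  p0 : ι →₀ R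
  q1 : ℕ × ι →₀ TT k R
  qa : ℕ × ι →₀ TT k R
  qb : ℕ × ι →₀ TT k R
  qK : ℕ × ι →₀ TT k R
  l : ι →₀ LL k R
  q2 : ℕ × ι →₀ TT k R
  qc : ℕ × ι →₀ TT k R
  p3 : ι →₀ R

/-- decoding of a row -/
noncomputable def dec (v : Idx ι →₀ σ.Λ) : Cp k R ι :=
  ⟨σ.d0 (lft (lft v)), σ.d1 (lft (lft v)), σ.da (lft (lft v)), σ.db (lft (lft v)),
    σ.dK (lft (lft v)), σ.dL (lft (lft v)), σ.d2 (rgt (lft v)), σ.dc (rgt (lft v)), σ.d3 (rgt v)⟩

/-- homogeneity of the components -/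
structure Cp.IsRow (n : ℤ) (c : Cp k R ι) : Prop where
  p0 : σ.P.IsRow n c.p0
  q1 : σ.Q.IsRow n c.q1
  qa : σ.Q.IsRow n c.qa
  qb : σ.Q.IsRow n c.qb
  qK : σ.Q.IsRow n c.qK
  qK0 : pc 0 c.qK = 0
  l : σ.P.IsRow n c.l
  q2 : σ.Q.IsRow (n - 1) c.q2
  qc : σ.Q.IsRow (n - 1) c.qc
  p3 : σ.P.IsRow (n - 2) c.p3

/-- the differential on components -/
noncomputable def Cp.d (c : Cp k R ι) : Cp k R ι :=
  ⟨σ.P.rd c.p0, σ.Q.rd c.q1, σ.Q.rd c.qa + c.q2, σ.Q.rd c.qb + σ.Θ c.q2,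
    σ.Q.rd c.qK + (c.qc + σ.Θ c.qc), σ.P.rd c.l, σ.Q.rd c.q2, σ.Q.rd c.qc + il 0 c.p3,
    σ.P.rd c.p3⟩

lemma isRow_PP {n : ℤ} {v : Idx ι →₀ σ.Λ} : σ.PP.IsRow n v ↔ (σ.X1.IsRow n (lft (lft v)) ∧
    σ.Q22.IsRow (n - 1) (rgt (lft v))) ∧ σ.P33.IsRow (n - 2) (rgt v) := by
  rw [PP, Hom.isRow_iff', Hom.isRow_iff', shift_isRow, sub_sub]; rfl

lemma isRow_dec {n : ℤ} {v : Idx ι →₀ σ.Λ} (h : σ.PP.IsRow n v) : (σ.dec v).IsRow σ n := by
  obtain ⟨⟨h1, h2⟩, h3⟩ := σ.isRow_PP.1 h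
  refine ⟨h1.pull _ _ _ (by simp) (by simp), h1.mapIdx _ ?_ fun _ => rfl,
    h1.mapIdx _ ?_ fun _ => rfl, h1.mapIdx _ ?_ fun _ => rfl, h1.mapIdx _ ?_ fun _ => rfl,
    by ext1; simp [dec, dK], h1.pull _ _ _ (by simp) (by simp),
    h2.mapIdx _ (by simp) fun _ => rfl, h2.mapIdx _ (by simp) fun _ => rfl,
    h3.mapIdx _ (by simp) fun _ => rfl⟩
  all_goals rintro ⟨_ | a, i⟩ b <;> ext1 <;> simp

lemma dec_rd {n : ℤ} {v : Idx ι →₀ σ.Λ} (h : σ.PP.IsRow n v) :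
    σ.dec (σ.PP.rd v) = (σ.dec v).d σ := by
  have hr := σ.isRow_dec h
  have e1 : lft (lft (σ.PP.rd v)) = σ.X1.rd (lft (lft v)) + σ.F.row (rgt (lft v)) := by
    rw [PP, Hom.lft_rd, map_add, G_row_inl, add_zero, Hom.lft_rd]
  have e2 : rgt (lft (σ.PP.rd v)) = σ.Q22.rd (rgt (lft v)) +
      cp 0 (mapIdx (fun i => AddMonoidHom.mulRight (φ32 (inl (σ.P.ε i)))) (rgt v)) := by
    rw [PP, Hom.lft_rd, map_add, G_row_inr, Hom.rgt_rd]
  have e3 : rgt (σ.PP.rd v) = σ.P33.shift.rd (rgt v) := σ.G.rgt_rd v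
  have h2 : ∀ x, (rgt (lft v) x).x22 * inl (σ.P.ε x.2) = (rgt (lft v) x).x22 := hr.q2.ε_smul
  have hc : ∀ x, (rgt (lft v) x).x32 * inl (σ.P.ε x.2) = (rgt (lft v) x).x32 := hr.qc.ε_smul
  have hc' : ∀ x, hA σ.H (rgt (lft v) x).x32 * inl (σ.P.ε x.2) = hA σ.H (rgt (lft v) x).x32 :=
    fun x => by rw [← hA_inl σ.H, ← map_mul, hc]
  have h2' : ∀ x, hA σ.H (rgt (lft v) x).x22 * inl (σ.P.ε x.2) = hA σ.H (rgt (lft v) x).x22 :=
    fun x => by rw [← hA_inl σ.H, ← map_mul, h2]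
  have h3 : ∀ x, (rgt v x).x33 * σ.P.ε x = (rgt v x).x33 := hr.p3.ε_smul
  simp only [dec, Cp.d, e1, e2, e3, map_add, d0_rd, d1_rd, da_rd, db_rd, dK_rd, dL_rd, d2_rd,
    dc_rd, d3_rd]
  generalize rgt (lft v) = v2 at *
  generalize rgt v = v3 at *
  congr 1
  · rw [add_eq_left]; ext1 i; simp [d0, F_row, ab]
  · rw [add_eq_left]; ext1 ⟨_ | a, i⟩ <;> simp [d1, F_row, ab]
  · congr 1; ext1 ⟨_ | a, i⟩
    · simpa [da, d2, F_row, ab] using h2 (0, i)
    · simpa [da, d2, F_row, ab] using h2 (a + 1, i)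
  · congr 1; ext1 ⟨_ | a, i⟩
    · simpa [db, d2, F_row, ab, Θ_apply] using h2' (0, i)
    · simp [db, d2, F_row, ab, Θ_apply, h2' (a + 1, i)]
  · congr 1; ext1 ⟨_ | a, i⟩
    · have e1 := congrArg TT.snd (hc (0, i))
      have e2 := congrArg TT.snd (hc' (0, i))
      simp only [snd_mul, snd_inl, smul_zero, zero_add, fst_inl, snd_hA] at e1 e2
      ext1 <;> simp [dK, dc, F_row, ab, Θ_apply, σ.add_self, e1, e2]
    · simp [dK, dc, F_row, ab, Θ_apply, hc (a + 1, i), hc' (a + 1, i)]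
  · rw [add_eq_left]; ext1 i; simp [dL, F_row, ab, σ.add_self]
  · rw [add_eq_left]; ext1 ⟨_ | a, i⟩ <;> simp [d2]
  · congr 1; ext1 ⟨_ | a, i⟩ <;> simp [dc, d3, il_apply, inl_mul_inl, h3]

lemma dec_sub (v w : Idx ι →₀ σ.Λ) (h : σ.dec v = σ.dec w) : σ.dec (v - w) = σ.dec 0 := by
  simp only [dec, Cp.mk.injEq, map_sub, map_zero, sub_eq_zero] at h ⊢
  exact h

lemma dec_inj {n : ℤ} {v w : Idx ι →₀ σ.Λ} (hv : σ.PP.IsRow n v) (hw : σ.PP.IsRow n w)
    (h : σ.dec v = σ.dec w) : v = w := by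
  rw [← sub_eq_zero]
  have h0 := σ.dec_sub v w h
  have hu := hv.sub hw
  generalize v - w = u at *
  simp only [dec, Cp.mk.injEq, map_zero, Finsupp.ext_iff] at h0
  obtain ⟨h1, h2, h3, h4, h5, h6, h7, h8, h9⟩ := h0
  ext1 x
  rw [← hu.ε_smul x]
  rcases x with (⟨_ | a, i⟩ | x) | i
  · have e1 := h1 i
    have e2 := h2 (0, i)
    have e3 := h3 (0, i)
    have e4 := h4 (0, i)
    have e5 := congrArg TT.snd (h5 (0, i))
    have e6 := h6 i
    simp [d0, d1, da, db, dK, dL] at e1 e2 e3 e4 e5 e6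
    have e7 : (u (Sum.inl (Sum.inl (0, i)))).x30 = 0 := Prod.ext e5 e6
    ext1 <;> simp [PP, e1, e2, e3, e4, e7]
  · have e2 := h2 (a + 1, i)
    have e3 := h3 (a + 1, i)
    have e4 := h4 (a + 1, i)
    have e5 := h5 (a + 1, i)
    simp [d1, da, db, dK] at e2 e3 e4 e5
    ext1 <;> simp [PP, e2, e3, e4, e5]
  · have e2 := h7 x
    have e3 := h8 x
    simp [d2, dc] at e2 e3
    ext1 <;> simp [PP, e2, e3]
  · have e2 := h9 i
    simp [d3] at e2
    ext1 <;> simp [PP, e2]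

/-- encoding of components -/
noncomputable def enc (c : Cp k R ι) : Idx ι →₀ σ.Λ :=
  sumElim (sumElim
    (cp 0 (mapIdx (fun _ => (φ00 : R →ₙ+* σ.Λ).toAddMonoidHom) c.p0) +
      mapIdx (fam φ10 (φ11 : TT k R →ₙ+* σ.Λ).toAddMonoidHom) c.q1 +
      mapIdx (fam φ20a φ21a) c.qa + mapIdx (fam φ20b φ21b) c.qb +
      mapIdx (fam (φ30.comp ((AddMonoidHom.inl _ _).comp sndA)) φ31) c.qK +
      cp 0 (mapIdx (fun _ => φ30.comp (AddMonoidHom.inr _ _)) c.l))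
    (mapIdx (fun _ => (φ22 : TT k R →ₙ+* σ.Λ).toAddMonoidHom) c.q2 + mapIdx (fun _ => φ32) c.qc))
    (mapIdx (fun _ => (φ33 : R →ₙ+* σ.Λ).toAddMonoidHom) c.p3)

lemma dec_enc {c : Cp k R ι} (h : pc 0 c.qK = 0) : σ.dec (σ.enc c) = c := by
  have h' : ∀ i, (c.qK (0, i)).fst = 0 := fun i => DFunLike.congr_fun h i
  simp only [dec, enc, lft_sumElim, rgt_sumElim]
  ext1
  · ext1 i; simp [d0]
  · ext1 ⟨_ | a, i⟩ <;> simp [d1]
  · ext1 ⟨_ | a, i⟩ <;> simp [da]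
  · ext1 ⟨_ | a, i⟩ <;> simp [db]
  · ext1 ⟨_ | a, i⟩
    · ext1 <;> simp [dK, h']
    · simp [dK]
  · ext1 i; simp [dL]
  · ext1 x; simp [d2]
  · ext1 x; simp [dc]
  · ext1 x; simp [d3]

lemma isRow_enc {n : ℤ} {c : Cp k R ι} (h : c.IsRow σ n) : σ.PP.IsRow n (σ.enc c) := by
  refine isRow_of ?_ ?_
  · rintro ((⟨_ | a, i⟩ | x) | i)
    · have e1 := h.p0.ε_smul i
      have e2 := h.q1.ε_smul (0, i)
      have e3 := h.qa.ε_smul (0, i)
      have e4 := h.qb.ε_smul (0, i)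
      have e5 := congrArg TT.snd (h.qK.ε_smul (0, i))
      have e6 := h.l.ε_smul i
      simp only [op_smul_eq_mul, Q_ε, snd_mul, snd_inl, smul_zero, zero_add, fst_inl]
        at e1 e2 e3 e4 e5 e6
      ext1 <;> simp [PP, enc, sumElim_inl, e1, e2, e3, e4, e5, e6]
    · have e2 := h.q1.ε_smul (a + 1, i)
      have e3 := h.qa.ε_smul (a + 1, i)
      have e4 := h.qb.ε_smul (a + 1, i)
      have e5 := h.qK.ε_smul (a + 1, i)
      simp only [op_smul_eq_mul, Q_ε] at e2 e3 e4 e5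
      ext1 <;> simp [PP, enc, sumElim_inl, e2, e3, e4, e5]
    · have e2 := h.q2.ε_smul x
      have e3 := h.qc.ε_smul x
      simp only [op_smul_eq_mul, Q_ε] at e2 e3
      ext1 <;> simp [PP, enc, sumElim_inl, sumElim_inr, e2, e3]
    · have e2 := h.p3.ε_smul i
      simp only [op_smul_eq_mul] at e2
      ext1 <;> simp [PP, enc, sumElim_inr, e2]
  · rintro ((⟨_ | a, i⟩ | x) | i) hi
    · have hi' : σ.P.deg i ≠ n := by simpa [PP] using hi
      simp [enc, sumElim_inl, h.p0.eq_zero hi', h.q1.eq_zero hi, h.qa.eq_zero hi, h.qb.eq_zero hi,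
        h.qK.eq_zero hi, h.l.eq_zero hi', σ.add_self]
    · simp [enc, sumElim_inl, h.q1.eq_zero hi, h.qa.eq_zero hi, h.qb.eq_zero hi, h.qK.eq_zero hi]
    · have hi' : σ.Q.deg x ≠ n - 1 := by
        simp only [PP, Hom.deg_inl, Hom.deg_inr, map_deg] at hi; omega
      simp [enc, sumElim_inl, sumElim_inr, h.q2.eq_zero hi', h.qc.eq_zero hi']
    · have hi' : σ.P.deg i ≠ n - 2 := by
        simp only [PP, Hom.deg_inr, map_deg, shift_deg] at hi; omega
      simp [enc, sumElim_inr, h.p3.eq_zero hi']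

end Setup

end Vale.Agent.P195
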