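import Vale.Agent.P195.BigRow

/-! Cohomology of the complex with values in the algebra and in the sixth syzygy. -/

namespace Vale.Agent.P195

open Finsupp MulOpposite Dat TT Lam

attribute [-simp] Finsupp.single_mul

namespace Dat

variable {S : Type} [Ring S] {ι ι' : Type} {Y Y' : Type} [AddCommGroup Y] [Module S Y]
  [AddCommGroup Y'] [Module S Y'] {X : Dat S ι}

lemma shift_van {n : ℤ} : X.shift.Van Y n ↔ X.Van Y (n - 1) := by
  simp only [Van, shift_isCol, shift_δ]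
lemma shift_cob {n : ℤ} {c : ι → Y} : X.shift.IsCob n c ↔ X.IsCob (n - 1) c := by
  simp only [IsCob, shift_isCol, shift_δ]
lemma shift_gen {k : Type} [SMul k Y] {n : ℤ} {c : ι → Y} :
    X.shift.Gen k n c ↔ X.Gen k (n - 1) c := by
  simp only [Gen, shift_isCol, shift_δ]

lemma δ_prod (a : ι → Y) (b : ι → Y') :
    X.δ (fun i => (a i, b i)) = fun i => (X.δ a i, X.δ b i) := by
  funext i
  have h1 := congrFun (X.δ_map (LinearMap.fst S Y Y') (fun i => (a i, b i))) i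
  have h2 := congrFun (X.δ_map (LinearMap.snd S Y Y') (fun i => (a i, b i))) i
  exact Prod.ext h1.symm h2.symm

lemma Gen.prod {k : Type} [Monoid k] [DistribMulAction k Y] [DistribMulAction k Y'] {n : ℤ}
    {c : ι → Y} (h : X.Gen k n c) (h' : X.Van Y' n) :
    X.Gen k n (fun i => ((c i, 0) : Y × Y')) := by
  refine ⟨fun i => Prod.ext (h.1 i) (smul_zero _), ?_, fun w hw hδ => ?_⟩
  · have := δ_prod (X := X) c (0 : ι → Y')
    rw [h.2.1, δ_zero] at this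
    exact this
  · have hw' : w = fun i => ((w i).1, (w i).2) := rfl
    rw [hw', δ_prod] at hδ
    obtain ⟨a, x, hx, hx'⟩ := h.2.2 (fun i => (w i).1) (hw.map (LinearMap.fst S Y Y'))
      (funext fun i => congrArg Prod.fst (congrFun hδ i))
    obtain ⟨y, hy, hy'⟩ := h' (fun i => (w i).2) (hw.map (LinearMap.snd S Y Y'))
      (funext fun i => congrArg Prod.snd (congrFun hδ i))
    refine ⟨a, fun i => (x i, y i), fun i => Prod.ext (hx i) (hy i), ?_⟩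
    rw [δ_prod]
    funext i
    exact Prod.ext (congrFun hx' i) (by simpa using (congrFun hy' i).symm)

lemma Gen.congr {k : Type} [SMul k Y] {n : ℤ} {c c' : ι → Y} (h : X.Gen k n c) (h' : c' = c) :
    X.Gen k n c' := h' ▸ h

lemma IsCob.map {n : ℤ} {c : ι → Y} (h : X.IsCob n c) (f : Y →ₗ[S] Y') :
    X.IsCob n (fun i => f (c i)) := by
  obtain ⟨w, hw, rfl⟩ := h
  exact ⟨_, hw.map f, δ_map X f w⟩

namespace Hom

variable {A : Dat S ι} {B : Dat S ι'} (f : Hom A B)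

lemma col_δ (a : ι → Y) : f.col (A.δ a) + B.δ (f.col a) = 0 := by
  have h3 := f.cone.δδ (Sum.elim a 0)
  rw [δ_elim, δ_zero, add_zero, δ_elim, elim_eq_zero] at h3
  exact h3.2

lemma isCol_col {n : ℤ} {a : ι → Y} (h : A.IsCol n a) : B.IsCol n (f.col a) := by
  have h1 : f.cone.IsCol n (Sum.elim a 0) := f.isCol_elim.2 ⟨h, IsCol.zero _⟩
  have h2 := h1.δ
  rw [δ_elim, δ_zero, add_zero, isCol_elim, add_sub_cancel_right] at h2
  exact h2.2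

variable {k : Type} [Field k] [Module k Y] [SMulCommClass k S Y]

lemma col_smul (c : k) (a : ι → Y) : f.col (c • a) = c • f.col a := by
  funext i; simp [col, linearCombination_apply, Finsupp.sum, Finset.smul_sum, smul_comm c]

lemma van_gen_surj {n : ℤ} (hA : A.Van Y n) {c : ι → Y} (hc : A.IsCol (n - 1) c) (hc' : A.δ c = 0)
    (hB : B.Gen k (n - 1) (f.col c)) : f.cone.Van Y n := by
  intro w hw hδ
  obtain ⟨a, b, rfl⟩ : ∃ a b, w = Sum.elim a b := ⟨_, _, (Sum.elim_comp_inl_inr w).symm⟩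
  rw [isCol_elim] at hw
  rw [δ_elim, elim_eq_zero] at hδ
  obtain ⟨a', ha', rfl⟩ := hA a hw.1 hδ.1
  obtain ⟨l, b', hb', hb''⟩ := hB.2.2 (b - f.col a') (hw.2.sub (f.isCol_col ha')) (by
    rw [δ_sub, eq_neg_of_add_eq_zero_right hδ.2, eq_neg_of_add_eq_zero_right (f.col_δ a'),
      sub_self])
  refine ⟨Sum.elim (a' + l • c) b', f.isCol_elim.2 ⟨ha'.add (hc.smul l), hb'⟩, ?_⟩
  rw [δ_elim, δ_add, δ_smul, hc', smul_zero, add_zero, col_add, col_smul, add_assoc, ← hb'']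
  simp

lemma van_gen_inj {n : ℤ} {c : ι → Y} (hA : A.Gen k n c) (hB : B.Van Y (n - 1))
    (hc : ¬ B.IsCob n (f.col c)) : f.cone.Van Y n := by
  intro w hw hδ
  obtain ⟨a, b, rfl⟩ : ∃ a b, w = Sum.elim a b := ⟨_, _, (Sum.elim_comp_inl_inr w).symm⟩
  rw [isCol_elim] at hw
  rw [δ_elim, elim_eq_zero] at hδ
  obtain ⟨l, a', ha', rfl⟩ := hA.2.2 a hw.1 hδ.1
  have h1 := hδ.2
  rw [col_add, col_smul, eq_neg_of_add_eq_zero_left (f.col_δ a')] at h1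
  obtain rfl : l = 0 := by
    by_contra hl
    refine hc ⟨l⁻¹ • (f.col a' - b), ((f.isCol_col ha').sub hw.2).smul _, ?_⟩
    rw [δ_smul, δ_sub, inv_smul_eq_iff₀ hl, ← sub_eq_zero, ← neg_eq_zero, ← h1]; abel
  rw [zero_smul, zero_add] at h1 ⊢
  obtain ⟨b', hb', hb''⟩ := hB (b - f.col a') (hw.2.sub (f.isCol_col ha')) (by
    rw [δ_sub, ← h1]; abel)
  exact ⟨Sum.elim a' b', f.isCol_elim.2 ⟨ha', hb'⟩, by rw [δ_elim, hb'']; simp⟩

end Hom

end Dat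

namespace Setup

variable {k R ι : Type} [Field k] [Ring R] [Algebra k R] [FiniteDimensional k R]
  (σ : Setup k R ι)

lemma van11 {n : ℤ} (hn : 1 ≤ n) : σ.Q11.Van σ.Λ n :=
  ((σ.van_Q hn).prod (σ.van_Q hn)).of_dec (π11.prod π10) (fun s y => by simp)
    (fun s y h => by
      simp only [AddMonoidHom.prod_apply, Prod.mk_eq_zero, π11_apply, π10_apply] at h
      ext1 <;> simp_all)
    fun y => ⟨φ11 y.1 + φ10 y.2, by simp⟩

lemma van22 {n : ℤ} (hn : 1 ≤ n) : σ.Q22.Van σ.Λ n := by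
  let h' : TT k R →+ TT k R := (hA σ.H⁻¹).toLinearMap.toAddMonoidHom
  have e1 : ∀ t : TT k R, hA σ.H⁻¹ (hA σ.H t) = t := hA_hA _ _ (inv_mul_cancel₀ σ.H_ne)
  have e2 : ∀ t : TT k R, hA σ.H (hA σ.H⁻¹ t) = t := hA_hA _ _ (mul_inv_cancel₀ σ.H_ne)
  have e3 : ∀ t : TT k R, hA σ.H⁻¹ t = 0 → t = 0 := fun t h => by rw [← e2 t, h, map_zero]
  refine ((σ.van_Q hn).prod ((σ.van_Q hn).prod ((σ.van_Q hn).prod
    ((σ.van_Q hn).prod (σ.van_Q hn))))).of_dec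
    (π22.prod (π21a.prod (π20a.prod ((h'.comp π21b).prod (h'.comp π20b)))))
    (fun s y => by simp [h', e1]) (fun s y h => ?_) fun y =>
      ⟨φ22 y.1 + φ21a y.2.1 + φ20a y.2.2.1 + φ21b (hA σ.H y.2.2.2.1) + φ20b (hA σ.H y.2.2.2.2),
        by simp [h', e1]⟩
  simp only [AddMonoidHom.prod_apply, Prod.mk_eq_zero, π22_apply, π21a_apply, π20a_apply] at h
  obtain ⟨h1, h2, h3, h4, h5⟩ := h
  have h6 := e3 _ h4
  have h7 := e3 _ h5
  exact Lam.ext (by simp) (by simp) h1 (by simp) (by simp) h2 h6 h3 h7 (by simp) (by simp)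
    (by simp)

lemma van33 {n : ℤ} (hn : 5 ≤ n) : σ.P33.Van σ.Λ n :=
  ((σ.van n (by omega)).prod ((σ.van_T (by omega) (by omega)).prod
    ((σ.van_T (by omega) (by omega)).prod
      ((σ.van_DR (by omega)).prod (σ.van_LL (by omega) (by omega)))))).of_dec
    (π33.prod (π32.prod (π31.prod π30))) (fun s y => by simp [inl_mul_eq_smul])
    (fun s y h => by
      simp only [AddMonoidHom.prod_apply, Prod.mk_eq_zero, π33_apply, π32_apply, π31_apply,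
        π30_apply] at h
      ext1 <;> simp_all)
    fun y => ⟨φ33 y.1 + φ32 y.2.1 + φ31 y.2.2.1 + φ30 y.2.2.2, by simp⟩

lemma van_XX {n : ℤ} (hn : 2 ≤ n) : σ.XX.Van σ.Λ n :=
  σ.F'.van (σ.van11 (by omega)) (σ.van22 (by omega))

/-- the first copy of `Q` in the second vertex -/
noncomputable def A : (ℕ × ι →₀ TT k R) →+ (Idx ι →₀ σ.Λ) where
  toFun q := σ.enc ⟨0, 0, q, 0, 0, 0, 0, 0, 0⟩
  map_zero' := by simp [enc]
  map_add' a b := by simp [enc, ← sumElim_add]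

lemma A_apply (q : ℕ × ι →₀ TT k R) : σ.A q = σ.enc ⟨0, 0, q, 0, 0, 0, 0, 0, 0⟩ := rfl

lemma dec_A (q : ℕ × ι →₀ TT k R) : σ.dec (σ.A q) = ⟨0, 0, q, 0, 0, 0, 0, 0, 0⟩ :=
  σ.dec_enc (map_zero _)

lemma A_smul (t : TT k R) (q : ℕ × ι →₀ TT k R) : σ.A (t • q) = (φ22 t : σ.Λ) • σ.A q := by
  ext1 ((⟨_ | a, i⟩ | x) | i) <;> ext1 <;> simp [A_apply, enc, sumElim_inl, sumElim_inr, Prod.ext_iff]

omit [FiniteDimensional k R] in
lemma isRow_qa {n : ℤ} {q : ℕ × ι →₀ TT k R} (h : σ.Q.IsRow n q) :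
    Cp.IsRow σ n ⟨0, 0, q, 0, 0, 0, 0, 0, 0⟩ :=
  ⟨IsRow.zero _, IsRow.zero _, h, IsRow.zero _, IsRow.zero _, map_zero _, IsRow.zero _,
    IsRow.zero _, IsRow.zero _, IsRow.zero _⟩

lemma isRow_A {n : ℤ} {q : ℕ × ι →₀ TT k R} (h : σ.Q.IsRow n q) : σ.PP.IsRow n (σ.A q) :=
  σ.isRow_enc (σ.isRow_qa h)

lemma rd_A {n : ℤ} {q : ℕ × ι →₀ TT k R} (h : σ.Q.IsRow (n + 1) q) :
    σ.PP.rd (σ.A q) = σ.A (σ.Q.rd q) := by
  rw [A_apply, σ.rd_enc (σ.isRow_qa h)]; simp [Cp.d, A_apply]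

omit [FiniteDimensional k R] in
lemma isRow_gen (a : ℤ) (x : ℕ × ι) : σ.Q.IsRow a (single x (σ.Q.e a x)) := by
  rw [IsRow, pr_single, op_smul_eq_mul, σ.Q.e_idem]

/-- lifts of the generators -/
noncomputable def bq (a : ℤ) (x : ℕ × ι) : σ.PP.Row σ.Λ σ.Λ a :=
  ⟨σ.A (single x (σ.Q.e a x)), σ.isRow_A (σ.isRow_gen a x)⟩

/-- the tautological cocycle -/
noncomputable def cq (a : ℤ) (x : ℕ × ι) : σ.PP.Bd σ.Λ σ.Λ a := σ.PP.toBd _ _ a (σ.bq (a + 1) x)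

lemma cq_coe (a : ℤ) (x : ℕ × ι) : (σ.cq a x).1 = σ.A (σ.Q.e (a + 1) x • σ.DQ x) := by
  rw [cq, toBd_coe, bq, σ.rd_A (σ.isRow_gen (a + 1) x), rd_single, rrow_self, Q_D]

lemma isCol_bq (a : ℤ) : σ.Q22.IsCol a (σ.bq a) := fun x => Subtype.ext (by
  rw [map_e, Submodule.coe_smul, bq, ← A_smul, smul_single, smul_eq_mul, σ.Q.e_idem])

lemma δ_bq (a : ℤ) (x : ℕ × ι) : (σ.Q22.δ (σ.bq a) x).1 = (σ.cq a x).1 := by
  have h1 := congrFun (σ.Q22.δ_map (σ.PP.Row σ.Λ σ.Λ a).subtype (σ.bq a)) x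
  have h2 := congrFun (σ.Q.δ_enc φ22 σ.A σ.A_smul fun x => single x (σ.Q.e a x)) x
  refine h1.symm.trans (h2.trans ?_)
  rw [cq_coe]
  congr 1
  ext1 y
  rw [δ, lc_diag, ← σ.Q.e_mul_D]; rfl

lemma bdX (t : ℕ) : ∀ a : ℤ, a = t → (∀ n, a + 3 ≤ n → σ.XX.Van (σ.PP.Bd σ.Λ σ.Λ a) n) ∧
    σ.XX.Gen k (a + 2) (Sum.elim 0 (σ.cq a)) := by
  have hb : ∀ a : ℤ, σ.XX.IsCol (a + 2 - 1) (Sum.elim 0 (σ.bq a)) := fun a =>
    σ.F'.isCol_elim.2 ⟨IsCol.zero _, by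
      rw [show a + 2 - 1 - 1 = a by ring]; exact σ.isCol_bq a⟩
  have hb' : ∀ a : ℤ, σ.XX.δ (Sum.elim 0 (σ.bq a)) = fun x =>
      Submodule.inclusion (Bd_le_Row (X := σ.PP) (B := σ.Λ) (S' := σ.Λ) a)
        (Sum.elim 0 (σ.cq a) x) := fun a => by
    rw [XX, Hom.δ_elim, δ_zero, Hom.col_zero, zero_add]
    funext x
    rcases x with x | x
    · rfl
    · exact Subtype.ext (σ.δ_bq a x)
  induction t with
  | zero =>
    intro a ha
    obtain rfl : a = 0 := by simpa using ha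
    refine ⟨fun n hn => σ.ses0.van₁ (van_Row σ.PP_fin _ (σ.van_XX (by omega)))
      (σ.van_K3 (by omega)), ?_⟩
    refine σ.ses0.gen₁ (fun _ _ => rfl) (fun c x => ?_) (van_Row σ.PP_fin _ (σ.van_XX le_rfl))
      (hb 0) (hb' 0) ?_
    · ext1 <;> simp [ev0, mul_add]
    · refine Gen.congr σ.gen_K3 (funext fun x => ?_)
      rcases x with x | ⟨j, i⟩
      · simp
      · simp only [Sum.elim_inr, ev0_eq, bq, dec_A, map_e]
        classical
        ext1 <;> simp [single_apply]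
        split_ifs with h
        · rw [h.1, h.2]
        · by_cases h' : σ.Q.deg (j, i) = 0
          · have h1 := σ.nonneg i
            simp only [Q_deg] at h'
            exact absurd ⟨by omega, σ.eq_i₀ i (by omega)⟩ h
          · simp [σ.Q.e_of_ne h']
  | succ t ih =>
    intro a ha
    obtain rfl : a = (t : ℤ) + 1 := by simpa using ha
    obtain ⟨h1, h2⟩ := ih t rfl
    have hs := σ.ses_bdX t (by omega)
    refine ⟨fun n hn => hs.van₁ (van_Row σ.PP_fin _ (σ.van_XX (by omega))) (h1 _ (by omega)), ?_⟩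
    refine hs.gen₁ (fun _ _ => rfl) (fun c x => Subtype.ext ?_)
      (van_Row σ.PP_fin _ (σ.van_XX (by omega))) (hb _) (hb' _) ?_
    · show σ.PP.rd (c • x.1) = c • σ.PP.rd x.1
      exact σ.PP.rd_smul c x.1
    · rw [show (t : ℤ) + 1 + 2 - 1 = t + 2 by ring]
      refine Gen.congr h2 (funext fun x => ?_)
      rcases x with x | x
      · simp
      · rfl

section Chase

variable {Y : Type} [AddCommGroup Y] [Module σ.Λ Y]

/-- restriction of cochains to the comparison cone -/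
noncomputable def res (a : ℕ × ι → Y) : ℕ × ι → Y := fun x => σ.en 1 x.1 1 • a x

lemma δ_res (a : ℕ × ι → Y) : σ.Q11.δ (σ.res a) = σ.res (σ.X1.δ a) := by
  funext x
  have h : ∀ v : ℕ × ι →₀ TT k R, (∀ y, σ.en 1 x.1 1 * σ.en x.1 y.1 (v y) = σ.en 1 y.1 (v y)) →
      linearCombination σ.Λ (σ.res a) (v.mapRange φ11 (map_zero _)) =
      σ.en 1 x.1 1 • linearCombination σ.Λ a (mapIdx (fun y => σ.en x.1 y.1) v) := by
    intro v hv
    rw [← v.sum_single, Finsupp.sum, mapRange_finset_sum, map_sum, map_sum, map_sum,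
      Finset.smul_sum]
    refine Finset.sum_congr rfl fun y _ => ?_
    simp [res, smul_smul, hv, φ11_en]
  exact h (σ.DQ x) fun y => by rw [en_mul, one_mul]

lemma col_res (a : ℕ × ι → Y) : σ.F'.col (σ.res a) = σ.F.col a := by
  funext x
  rw [col_F', col_F, res, smul_smul, mul_assoc, φ11_en, mul_one]

lemma e_res (n : ℤ) (x : ℕ × ι) : σ.Q11.e n x * σ.en 1 x.1 1 = σ.en 1 x.1 1 * σ.X1.e n x := by
  rw [map_e, φ11_en, X1_e, Q_e, en_mul_ε]; simp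

lemma isCol_res {n : ℤ} {a : ℕ × ι → Y} (h : σ.X1.IsCol n a) : σ.Q11.IsCol n (σ.res a) :=
  fun x => by rw [res, smul_smul, e_res, mul_smul, h x]

lemma δ11_zero (a : ℕ × ι → Y) (i : ι) :
    σ.Q11.δ a (0, i) = (σ.P.D i).sum fun j s => (φ11 (inl s) : σ.Λ) • a (0, j) := by
  rw [map_δ]
  show (il 0 (σ.P.D i)).sum _ = _
  induction σ.P.D i using Finsupp.induction_linear with
  | zero => simp
  | add x y hx hy =>
    have : ∀ s t : R, (inl (s + t) : TT k R) = inl s + inl t := fun s t => by ext1 <;> simp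
    rw [map_add, sum_add_index', sum_add_index', hx, hy] <;> simp [add_smul, this]
  | single j s => simp [il]

lemma δX1_zero (a : ℕ × ι → Y) (i : ι) :
    σ.X1.δ a (0, i) = (σ.P.D i).sum fun j s => (φ00 s : σ.Λ) • a (0, j) := by
  show linearCombination σ.Λ a (mapIdx (fun y => σ.en 0 y.1) (il 0 (σ.P.D i))) = _
  induction σ.P.D i using Finsupp.induction_linear with
  | zero => simp
  | add x y hx hy => rw [map_add, map_add, map_add, sum_add_index', hx, hy] <;> simp [add_smul]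
  | single j s => simp [il]

/-- the data splitting the first vertex of a module -/
structure Spl (Y K : Type) [AddCommGroup Y] [Module σ.Λ Y] [AddCommGroup K] [Module R K] where
  p : Y →+ K
  p_smul : ∀ r y, p ((φ11 (inl r) : σ.Λ) • y) = r • p y
  p_α : ∀ y, p ((φ10 1 : σ.Λ) • y) = 0
  ex : ∀ y, p y = 0 → ∃ y', (φ10 1 : σ.Λ) • y' = (φ11 1 : σ.Λ) • y
  surj : ∀ c, ∃ y, p y = c
  inj : ∀ y : Y, (φ10 1 : σ.Λ) • y = 0 → (φ00 1 : σ.Λ) • y = 0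

variable {K : Type} [AddCommGroup K] [Module R K] {σ}

lemma Spl.res_inj (s : σ.Spl Y K) {n : ℤ} {a : ℕ × ι → Y} (ha : σ.X1.IsCol n a)
    (h : σ.res a = 0) : a = 0 := by
  funext x
  have h1 := ha.ε_smul x
  have h2 := congrFun h x
  obtain ⟨_ | j, i⟩ := x
  · have h3 := s.inj _ h2
    rw [← h1, X1_ε, en00, ← mul_one (inl (σ.P.ε i) : TT k R).fst, map_mul, mul_smul, h3, smul_zero]
    rfl
  · rw [← h1, X1_ε, enss, ← mul_one (inl (σ.P.ε i) : TT k R), map_mul, mul_smul]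
    exact (congrArg _ h2).trans (smul_zero _)

lemma Spl.p_δ (s : σ.Spl Y K) (a : ℕ × ι → Y) :
    σ.P.δ (fun i => s.p (a (0, i))) = fun i => s.p (σ.Q11.δ a (0, i)) := by
  funext i
  rw [δ11_zero, δ_apply]; simp [Finsupp.sum, map_sum, s.p_smul]

lemma Spl.cob (s : σ.Spl Y K) {n : ℤ} (hK : σ.P.Van K (n - 1)) {a b : ℕ × ι → Y}
    (hw : σ.F.cone.IsCol n (Sum.elim a b)) (h : σ.XX.IsCob n (Sum.elim (σ.res a) b)) :
    σ.F.cone.IsCob n (Sum.elim a b) := by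
  obtain ⟨w', hw', h⟩ := h
  obtain ⟨a', b', rfl⟩ : ∃ a b, w' = Sum.elim a b := ⟨_, _, (Sum.elim_comp_inl_inr w').symm⟩
  rw [XX, Hom.isCol_elim] at hw'
  rw [Hom.isCol_elim] at hw
  rw [XX, Hom.δ_elim] at h
  have h1 : σ.Q11.δ a' = σ.res a := funext fun x => congrFun h (Sum.inl x)
  have h2 : σ.F'.col a' + σ.Q22.δ b' = b := funext fun x => congrFun h (Sum.inr x)
  have he : ∀ (m : ℤ) (i : ι), σ.Q11.e m (0, i) = φ11 (inl (σ.P.e m i)) := fun m i => by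
    rw [map_e, Q_e]; simp
  obtain ⟨z, hz, hz'⟩ := hK (fun i => s.p (a' (0, i)))
    (fun i => by rw [← s.p_smul, ← he, hw'.1 (0, i)])
    (by rw [s.p_δ, h1]; funext i; exact s.p_α _)
  choose y hy using fun i => s.surj (z i)
  let z' : ℕ × ι → Y := fun x => σ.Q11.e (n - 1 - 1) x • Nat.casesOn x.1 (y x.2) fun _ => 0
  have hz1 : σ.Q11.IsCol (n - 1 - 1) z' := isCol_proj _ _
  have hz2 : (fun i => s.p (z' (0, i))) = z := by
    funext i
    show s.p (σ.Q11.e (n - 1 - 1) (0, i) • y i) = z i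
    rw [he, s.p_smul, hy, hz i]
  have ha'' := hw'.1.sub hz1.δ'
  have h3 : ∀ i, s.p ((a' - σ.Q11.δ z') (0, i)) = 0 := fun i => by
    have := congrFun (s.p_δ z') i
    rw [hz2, hz'] at this
    rw [Pi.sub_apply, map_sub, ← this, sub_self]
  choose y0 hy0 using fun i => s.ex _ (h3 i)
  let a0 : ℕ × ι → Y := fun x =>
    σ.X1.e (n - 1) x • Nat.casesOn x.1 (y0 x.2) fun _ => (a' - σ.Q11.δ z') x
  have ha0 : σ.X1.IsCol (n - 1) a0 := isCol_proj _ _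
  have h4 : σ.res a0 = a' - σ.Q11.δ z' := by
    funext x
    rw [res, smul_smul, ← e_res, mul_smul]
    have : σ.en 1 x.1 1 • (Nat.casesOn x.1 (y0 x.2) fun _ => (a' - σ.Q11.δ z') x : Y) =
        (φ11 1 : σ.Λ) • (a' - σ.Q11.δ z') x := by
      obtain ⟨_ | j, i⟩ := x
      · exact hy0 i
      · rfl
    rw [this, smul_smul, map_e, ← map_mul, mul_one, ← map_e]
    exact ha'' x
  refine ⟨Sum.elim a0 (b' - σ.F'.col z'),
    σ.F.isCol_elim.2 ⟨ha0, hw'.2.sub (σ.F'.isCol_col hz1)⟩, ?_⟩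
  rw [Hom.δ_elim]
  congr 1
  · rw [← sub_eq_zero]
    refine s.res_inj (ha0.δ'.sub hw.1) ?_
    have : σ.res (σ.X1.δ a0 - a) = σ.res (σ.X1.δ a0) - σ.res a := by
      funext x; simp [res, smul_sub]
    rw [this, ← δ_res, h4, δ_sub, δδ, h1]; simp
  · rw [← col_res, h4, ← h2, δ_sub, sub_eq_add_neg a', Hom.col_add,
      eq_neg_of_add_eq_zero_right (σ.F'.col_δ z')]
    have := σ.F'.col_add (-σ.Q11.δ z') (σ.Q11.δ z')
    rw [neg_add_cancel, Hom.col_zero] at this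
    rw [eq_neg_of_add_eq_zero_left this.symm]; abel

lemma Spl.van (s : σ.Spl Y K) {n : ℤ} (hK : σ.P.Van K (n - 1)) (hX : σ.XX.Van Y n) :
    σ.F.cone.Van Y n := by
  intro w hw hδ
  obtain ⟨a, b, rfl⟩ : ∃ a b, w = Sum.elim a b := ⟨_, _, (Sum.elim_comp_inl_inr w).symm⟩
  refine s.cob hK hw (hX _ ?_ ?_)
  · rw [Hom.isCol_elim] at hw
    exact σ.F'.isCol_elim.2 ⟨σ.isCol_res hw.1, hw.2⟩
  · rw [Hom.δ_elim, Hom.elim_eq_zero] at hδ
    rw [XX, Hom.δ_elim, δ_res, col_res, hδ.1, hδ.2, Hom.elim_eq_zero]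
    exact ⟨by funext x; simp [res], rfl⟩

lemma Spl.gen (s : σ.Spl Y K) [Module k Y] [SMulCommClass k σ.Λ Y] {n : ℤ}
    (hK : σ.P.Van K (n - 1)) {c : ℕ × ι → Y} (hX : σ.XX.Gen k n (Sum.elim 0 c)) :
    σ.F.cone.Gen k n (Sum.elim 0 c) := by
  have hc : σ.F.cone.IsCol n (Sum.elim 0 c) :=
    σ.F.isCol_elim.2 ⟨IsCol.zero _, (σ.F'.isCol_elim.1 hX.1).2⟩
  refine ⟨hc, ?_, fun w hw hδ => ?_⟩
  · have := hX.2.1
    rw [XX, Hom.δ_elim, δ_zero, Hom.col_zero] at this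
    rwa [Hom.δ_elim, δ_zero, Hom.col_zero]
  obtain ⟨a, b, rfl⟩ : ∃ a b, w = Sum.elim a b := ⟨_, _, (Sum.elim_comp_inl_inr w).symm⟩
  have hw' := σ.F.isCol_elim.1 hw
  rw [Hom.δ_elim, Hom.elim_eq_zero] at hδ
  obtain ⟨l, w', h1, h2⟩ := hX.2.2 (Sum.elim (σ.res a) b)
    (σ.F'.isCol_elim.2 ⟨σ.isCol_res hw'.1, hw'.2⟩) (by
      rw [XX, Hom.δ_elim, δ_res, col_res, hδ.1, hδ.2, Hom.elim_eq_zero]
      exact ⟨by funext x; simp [res], rfl⟩)
  have e : ∀ a : ℕ × ι → Y, Sum.elim a (b - l • c) =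
      Sum.elim a b - l • Sum.elim (0 : ℕ × ι → Y) c := by
    intro a; funext x; rcases x with x | x <;> simp
  obtain ⟨y, hy, hy'⟩ := s.cob hK (a := a) (b := b - l • c) (by rw [e]; exact hw.sub (hc.smul l))
    ⟨w', h1, by rw [e, h2]; simp⟩
  exact ⟨l, y, hy, by rw [hy', e]; simp⟩

end Chase

/-- splitting for the regular module -/
noncomputable def splΛ : σ.Spl σ.Λ (TT k R × Hm k R k) where
  p := π11.prod (sndA.comp π10)
  p_smul r y := by simp [inl_mul_eq_smul]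
  p_α y := by simp
  ex y h := by
    simp only [AddMonoidHom.prod_apply, Prod.mk_eq_zero, π11_apply, AddMonoidHom.comp_apply,
      π10_apply, sndA_apply] at h
    refine ⟨φ00 y.x10.fst, ?_⟩
    ext1 <;> simp [h.1]
    ext1 <;> simp [h.2]
  surj c := ⟨φ11 c.1 + φ10 (inr c.2), by simp⟩
  inj y h := by
    have : y.x00 = 0 := by simpa using congrArg (fun z : σ.Λ => z.x10.fst) h
    ext1 <;> simp [this]

theorem van_PP_Λ {n : ℤ} (hn : 7 ≤ n) : σ.PP.Van σ.Λ n :=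
  σ.G.van (σ.splΛ.van ((σ.van_T (by omega) (by omega)).prod (σ.van_DR (by omega)))
    (σ.van_XX (by omega))) (shift_van.2 (σ.van33 (by omega)))

/-- the module -/
noncomputable abbrev Z : Submodule σ.Λ (Idx ι →₀ σ.Λ) := σ.PP.Bd σ.Λ σ.Λ 6

lemma Z_row (z : σ.Z) : σ.PP.IsRow 6 z.1 := (Bd_le_Cyc 6 z.2).1
lemma Z_dec (z : σ.Z) : (σ.dec z.1).IsRow σ 6 := σ.isRow_dec (σ.Z_row z)
lemma Z_d (z : σ.Z) : (σ.dec z.1).d σ = ⟨0, 0, 0, 0, 0, 0, 0, 0, 0⟩ :=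
  σ.d_dec (σ.Z_row z) (Bd_le_Cyc 6 z.2).2
lemma Z_ext {z z' : σ.Z} (h : σ.dec z.1 = σ.dec z'.1) : z = z' :=
  Subtype.ext (σ.dec_inj (σ.Z_row z) (σ.Z_row z') h)
lemma Z_exists {c : Cp k R ι} (h : c.IsRow σ 6) (hd : c.d σ = ⟨0, 0, 0, 0, 0, 0, 0, 0, 0⟩) :
    ∃ z : σ.Z, σ.dec z.1 = c := by
  refine ⟨⟨σ.enc c, σ.rowExact_PP (by norm_num) _ (σ.isRow_enc h) ?_⟩, σ.dec_enc h.qK0⟩
  rw [σ.rd_enc (n := 5) h, hd]; simp [enc]

/-- the acyclic part of the first vertex -/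
noncomputable def pZ : σ.Z →+ σ.KCyc 6 where
  toFun := fun z => ⟨cut (σ.dec z.1).q1, ⟨σ.isRow_cut (σ.Z_dec z).q1, pc_cut _⟩, by
    rw [rd_cut, show σ.Q.rd (σ.dec z.1).q1 = 0 from congrArg Cp.q1 (σ.Z_d z), map_zero]⟩
  map_zero' := Subtype.ext (by simp [dec])
  map_add' := fun a b => Subtype.ext (by simp [dec])

lemma pZ_coe (z : σ.Z) : (σ.pZ z).1 = cut (σ.dec z.1).q1 := rfl

lemma pZ_smul (r : R) (y : σ.Z) : σ.pZ ((φ11 (inl r) : σ.Λ) • y) = r • σ.pZ y :=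
  Subtype.ext (by
    rw [Submodule.coe_smul, pZ_coe, pZ_coe, Submodule.coe_smul, dec_φ11, ← map_smul]
    congr 1
    ext1; simp [inl_mul_eq_smul])

lemma pZ_α (y : σ.Z) : σ.pZ ((φ10 1 : σ.Λ) • y) = 0 := Subtype.ext (by
    rw [pZ_coe, Submodule.coe_smul, dec_φ10]; simp [cut_apply, pc_il])

lemma pZ_ex (y : σ.Z) (h : σ.pZ y = 0) : ∃ y', (φ10 1 : σ.Λ) • y' = (φ11 1 : σ.Λ) • y := by
  have h1 : cut (σ.dec y.1).q1 = 0 := by rw [← pZ_coe, h]; rfl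
  obtain ⟨z, hz⟩ := σ.Z_exists (c := ⟨pc 0 (σ.dec y.1).q1, 0, 0, 0, 0, 0, 0, 0, 0⟩)
    ⟨(σ.Z_dec y).q1.pc0, IsRow.zero _, IsRow.zero _, IsRow.zero _, IsRow.zero _, map_zero _,
      IsRow.zero _, IsRow.zero _, IsRow.zero _, IsRow.zero _⟩ (by
      simp [Cp.d, ← pc_rd, show σ.Q.rd (σ.dec y.1).q1 = 0 from congrArg Cp.q1 (σ.Z_d y)])
  refine ⟨z, σ.Z_ext ?_⟩
  rw [Submodule.coe_smul, Submodule.coe_smul, dec_φ10, dec_φ11, hz, one_smul,
    ← sub_eq_zero.1 h1]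

lemma pZ_surj (c : σ.KCyc 6) : ∃ y, σ.pZ y = c := by
  obtain ⟨z, hz⟩ := σ.Z_exists (c := ⟨0, c.1, 0, 0, 0, 0, 0, 0, 0⟩)
    ⟨IsRow.zero _, c.2.1.1, IsRow.zero _, IsRow.zero _, IsRow.zero _, map_zero _,
      IsRow.zero _, IsRow.zero _, IsRow.zero _, IsRow.zero _⟩ (by simp [Cp.d, c.2.2])
  refine ⟨z, Subtype.ext ?_⟩
  rw [pZ_coe, hz, cut_apply]
  have : pc 0 c.1 = 0 := c.2.1.2
  simp [this]

lemma α_inj (y : σ.Z) (h : (φ10 1 : σ.Λ) • y = 0) : (φ00 1 : σ.Λ) • y = 0 := by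
  have h1 : σ.dec ((φ10 1 : σ.Λ) • y.1) = σ.dec 0 := by
    rw [← Submodule.coe_smul, h, Submodule.coe_zero]
  rw [dec_φ10, dec_zero] at h1
  have h2 := congrArg (pc 0) (congrArg Cp.q1 h1)
  simp only [pc_il, if_true, map_zero] at h2
  refine σ.Z_ext ?_
  rw [Submodule.coe_smul, dec_φ00, Submodule.coe_zero, dec_zero, h2, smul_zero]

/-- splitting for the syzygy -/
noncomputable def splZ : σ.Spl σ.Z (σ.KCyc 6) :=
  ⟨σ.pZ, σ.pZ_smul, σ.pZ_α, σ.pZ_ex, σ.pZ_surj, σ.α_inj⟩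

/-- decoding the last vertex of the syzygy -/
noncomputable def dec3 : σ.Z →+ σ.P.Cyc (LL k R) R 6 × (σ.KRow 6 × σ.P.Row R R 5) where
  toFun z := (⟨(σ.dec z.1).l, (σ.Z_dec z).l, congrArg Cp.l (σ.Z_d z)⟩,
    ⟨(σ.dec z.1).qK, (σ.Z_dec z).qK, (σ.Z_dec z).qK0⟩, ⟨pc 0 (σ.dec z.1).qc, (σ.Z_dec z).qc.pc0⟩)
  map_zero' := Prod.ext (Subtype.ext (by simp [dec]))
    (Prod.ext (Subtype.ext (by simp [dec])) (Subtype.ext (by simp [dec])))
  map_add' a b := Prod.ext (Subtype.ext (by simp [dec]))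
    (Prod.ext (Subtype.ext (by simp [dec])) (Subtype.ext (by simp [dec])))

lemma dec3_ext {z : σ.Z} {y : σ.P.Cyc (LL k R) R 6 × (σ.KRow 6 × σ.P.Row R R 5)} :
    σ.dec3 z = y ↔ (σ.dec z.1).l = y.1.1 ∧ (σ.dec z.1).qK = y.2.1.1 ∧
      pc 0 (σ.dec z.1).qc = y.2.2.1 := by
  simp only [Prod.ext_iff, Subtype.ext_iff]; rfl

lemma dec3_smul (s : R) (z : σ.Z) : σ.dec3 ((φ33 s : σ.Λ) • z) = s • σ.dec3 z := by
  rw [dec3_ext, Submodule.coe_smul, dec_φ33]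
  exact ⟨rfl, rfl, pc_smulR _ _ _⟩

lemma dec3_smulk (s : k) (z : σ.Z) : σ.dec3 (s • z) = s • σ.dec3 z := by
  rw [dec3_ext]
  refine ⟨?_, ?_, ?_⟩
  · show σ.dL (lft (lft (s • z.1))) = s • σ.dL (lft (lft z.1))
    ext1; simp [dL]
  · show σ.dK (lft (lft (s • z.1))) = s • σ.dK (lft (lft z.1))
    ext1 ⟨_ | a, i⟩ <;> ext1 <;> simp [dK]
  · show pc 0 (σ.dc (rgt (lft (s • z.1)))) = s • pc 0 (σ.dc (rgt (lft z.1)))
    ext1; simp [dc]

lemma dec3_inj (s : R) (z : σ.Z) (h : σ.dec3 ((φ33 s : σ.Λ) • z) = 0) :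
    (φ33 s : σ.Λ) • z = 0 := by
  rw [dec3_ext] at h
  have hd := σ.Z_d ((φ33 s : σ.Λ) • z)
  refine σ.Z_ext ?_
  rw [Submodule.coe_smul, dec_φ33] at h hd ⊢
  simp only [Cp.d, Cp.mk.injEq] at hd
  obtain ⟨-, -, -, -, z5, -, -, z8, -⟩ := hd
  obtain ⟨h1, h2, h3⟩ := h
  simp only [Prod.fst_zero, Prod.snd_zero, Submodule.coe_zero] at h1 h2 h3
  rw [h2, map_zero, zero_add] at z5
  have h4 := σ.one_add_Θ_inj h3 z5
  rw [h4, map_zero, zero_add] at z8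
  have h5 := congrArg (pc 0) z8
  rw [pc_il, map_zero] at h5
  rw [Submodule.coe_zero, dec_zero, h1, h2, h4, show s • (σ.dec z.1).p3 = 0 by simpa using h5]

lemma dec3_surj (y : σ.P.Cyc (LL k R) R 6 × (σ.KRow 6 × σ.P.Row R R 5)) :
    ∃ z, σ.dec3 z = y := by
  obtain ⟨l, κ, p⟩ := y
  have h0 : pc 0 (σ.Q.rd κ.1) = 0 := by rw [pc_rd, κ.2.2, map_zero]
  obtain ⟨c, hc, hc0, hc'⟩ := σ.one_add_Θ_surj (IsRow.rd (n := 5) κ.2.1) h0
  have hdc : σ.Q.rd c = 0 := σ.one_add_Θ_inj (by rw [pc_rd, hc0, map_zero])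
    (by rw [← rd_Θ, ← map_add, hc', rd_rd])
  obtain ⟨z, hz⟩ := σ.Z_exists (c := ⟨0, 0, 0, 0, κ.1, l.1, 0, il 0 p.1 + c, σ.P.rd p.1⟩)
    ⟨IsRow.zero _, IsRow.zero _, IsRow.zero _, IsRow.zero _, κ.2.1, κ.2.2, l.2.1, IsRow.zero _,
      (σ.isRow_il p.2).add hc, IsRow.rd (n := 4) p.2⟩ (by
      simp only [Cp.d, map_zero, add_zero, map_add, Θ_il, rd_il, hdc, rd_rd, l.2.2, σ.add_self,
        ← hc', Cp.mk.injEq, true_and, and_true]
      rw [← σ.add_self (c + σ.Θ c + il 0 p.1)]; abel)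
  exact ⟨z, σ.dec3_ext.2 (by simp [hz, pc_il, hc0])⟩

lemma van33Z {n : ℤ} (hn : 6 ≤ n) (h7 : n ≠ 7) : σ.P33.Van σ.Z n :=
  ((σ.van_YL (by omega) h7).prod ((σ.van_KRow 6 (by omega) (by omega)).prod
    (van_Row σ.fin 5 (σ.van n (by omega))))).of_dec σ.dec3 σ.dec3_smul σ.dec3_inj σ.dec3_surj

lemma col_G {Y : Type} [AddCommGroup Y] [Module σ.Λ Y] (a : (ℕ × ι) ⊕ (ℕ × ι) → Y) (i : ι) :
    σ.G.col a i = (φ32 (inl (σ.P.ε i)) : σ.Λ) • a (Sum.inr (0, i)) := by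
  simp [Hom.col, G_apply]

lemma dec3_col (i : ι) : σ.dec3 (σ.G.col (Sum.elim 0 (σ.cq 6)) i) = (σ.κu i, 0) := by
  rw [dec3_ext, col_G, Submodule.coe_smul, Sum.elim_inr, cq_coe, dec_φ32, dec_A]
  have : σ.P.ε i • (σ.Q.e (6 + 1) (0, i) • σ.DQ (0, i)) = il 0 (σ.taut 6 i).1 := by
    rw [taut_coe]
    ext1 ⟨_ | a, j⟩
    · ext1 <;> simp [Q_e, il_apply, ← mul_assoc, σ.P.ε_mul_e]
    · simp [il_apply]
  simp only [add_zero, this]
  refine ⟨?_, ?_, by simp⟩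
  · rw [pc_il]; rfl
  · simp [cut_apply, pc_il]

lemma gen012 : σ.F.cone.Gen k 8 (Sum.elim 0 (σ.cq 6)) :=
  σ.splZ.gen (σ.van_KCyc6 (by norm_num)) (σ.bdX 6 6 rfl).2

lemma van012 {n : ℤ} (hn : 9 ≤ n) : σ.F.cone.Van σ.Z n :=
  σ.splZ.van (σ.van_KCyc6 (by omega)) ((σ.bdX 6 6 rfl).1 n (by omega))

theorem van_PP_Z {n : ℤ} (hn : 8 ≤ n) : σ.PP.Van σ.Z n := by
  rcases lt_trichotomy n 9 with h | h | h
  · obtain rfl : n = 8 := by omega
    refine σ.G.van_gen_inj σ.gen012 (shift_van.2 (σ.van33Z (by norm_num) (by norm_num))) ?_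
    intro h
    have := ((shift_cob.1 h).dec σ.dec3 σ.dec3_smul).map (LinearMap.fst _ _ _)
    simp only [dec3_col] at this
    exact σ.not_cob_κu this
  · subst h
    refine σ.G.van_gen_surj (k := k) (σ.van012 le_rfl) σ.gen012.1 σ.gen012.2.1 (shift_gen.2 ?_)
    refine Gen.of_dec (shift_isCol _ |>.1 (σ.G.isCol_col σ.gen012.1)) ?_ σ.dec3 ?_ σ.dec3_smulk
      σ.dec3_smul σ.dec3_inj σ.dec3_surj
    · have := σ.G.col_δ (Sum.elim 0 (σ.cq 6))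
      rwa [σ.gen012.2.1, Hom.col_zero, zero_add] at this
    · simp only [dec3_col]
      exact σ.gen_κu.prod ((σ.van_KRow 6 (by norm_num) (by norm_num)).prod
        (van_Row σ.fin 5 (σ.van _ (by norm_num))))
  · exact σ.G.van (σ.van012 (by omega)) (shift_van.2 (σ.van33Z (by omega) (by omega)))

/-- the tautological cocycle of the complex -/
noncomputable def tautZ (x : Idx ι) : σ.Z :=
  σ.PP.toBd _ _ 6 ⟨single x (σ.PP.e (6 + 1) x), by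
    rw [mem_Row, IsRow, pr_single, op_smul_eq_mul, σ.PP.e_idem]⟩

lemma tautZ_coe (x : Idx ι) : (σ.tautZ x).1 = σ.PP.e 7 x • σ.PP.D x := by
  rw [tautZ, toBd_coe, rd_single, rrow_self]; rfl

theorem not_van_PP_Z : ¬ σ.PP.Van σ.Z 7 := by
  intro h
  obtain ⟨w, hw, hw'⟩ := h σ.tautZ (fun x => Subtype.ext (by
    rw [Submodule.coe_smul, tautZ_coe, smul_smul, σ.PP.e_idem])) (by
    funext x
    apply Subtype.ext
    have := congrFun (σ.PP.δ_map σ.Z.subtype σ.tautZ) x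
    simp only [Submodule.subtype_apply, tautZ_coe] at this
    rw [← this, ← e_smul_δ]
    have h2 : σ.PP.δ σ.PP.D x = 0 := σ.PP.DD x
    rw [h2]; simp)
  let p : σ.Z →+ σ.P.Cyc R R 6 :=
    { toFun := fun z => ⟨(σ.dec z.1).p0, (σ.Z_dec z).p0, congrArg Cp.p0 (σ.Z_d z)⟩
      map_zero' := Subtype.ext (by simp [dec])
      map_add' := fun a b => Subtype.ext (by simp [dec]) }
  have hp : ∀ r z, p ((φ00 r : σ.Λ) • z) = r • p z := fun r z =>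
    Subtype.ext (congrArg Cp.p0 (σ.dec_φ00 r z.1))
  have he : ∀ (m : ℤ) (i : ι), σ.PP.e m (Sum.inl (Sum.inl (0, i))) = φ00 (σ.P.e m i) :=
    fun m i => by rw [PP, Hom.e_inl, Hom.e_inl, X1_e, Q_e]; simp
  have : σ.P.IsCob 7 (σ.taut 6) := by
    refine ⟨fun i => p (w (Sum.inl (Sum.inl (0, i)))), fun i => by rw [← hp, ← he, hw _], ?_⟩
    funext i
    have h1 : σ.X1.δ ((w ∘ Sum.inl) ∘ Sum.inl) (0, i) = σ.tautZ (Sum.inl (Sum.inl (0, i))) := by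
      rw [← σ.F.δ_inl, ← σ.G.δ_inl, ← hw']; rfl
    have h2 : p (σ.tautZ (Sum.inl (Sum.inl (0, i)))) = σ.taut 6 i := by
      apply Subtype.ext
      show (σ.dec (σ.tautZ _).1).p0 = _
      rw [tautZ_coe, he, dec_φ00, taut_coe]
      ext1 j
      simp [dec, d0, PP, sumElim_inl]
    rw [← h2, ← h1, δX1_zero, δ_apply]
    simp [Finsupp.sum, map_sum, hp]
  exact σ.not_cob_κu (this.map _)

end Setup

end Vale.Agent.P195
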