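import Vale.Agent.P195.Big

/-! Exactness of the complex and the comparison cone. -/

namespace Vale.Agent.P195

open Finsupp MulOpposite Dat TT Lam

attribute [-simp] Finsupp.single_mul

namespace Setup

variable {k R ι : Type} [Field k] [Ring R] [Algebra k R] [FiniteDimensional k R]
  (σ : Setup k R ι)

lemma dec_zero : σ.dec 0 = ⟨0, 0, 0, 0, 0, 0, 0, 0, 0⟩ := by simp [dec]

lemma dec_φ00 (r : R) (v : Idx ι →₀ σ.Λ) :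
    σ.dec ((φ00 r : σ.Λ) • v) = ⟨r • (σ.dec v).p0, 0, 0, 0, 0, 0, 0, 0, 0⟩ := by
  simp only [dec]
  congr 1 <;> first
    | (ext1 ⟨_ | a, i⟩ <;> simp [d1, da, db, dK, d2, dc])
    | (ext1 i; simp [d0, dL, d3])

lemma dec_φ11 (t : TT k R) (v : Idx ι →₀ σ.Λ) :
    σ.dec ((φ11 t : σ.Λ) • v) = ⟨0, t • (σ.dec v).q1, 0, 0, 0, 0, 0, 0, 0⟩ := by
  simp only [dec]
  congr 1 <;> first
    | (ext1 ⟨_ | a, i⟩ <;> simp [d1, da, db, dK, d2, dc])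
    | (ext1 i; simp [d0, dL, d3])

lemma dec_φ22 (t : TT k R) (v : Idx ι →₀ σ.Λ) :
    σ.dec ((φ22 t : σ.Λ) • v) =
      ⟨0, 0, t • (σ.dec v).qa, hA σ.H t • (σ.dec v).qb, 0, 0, t • (σ.dec v).q2, 0, 0⟩ := by
  simp only [dec]
  congr 1 <;> first
    | (ext1 ⟨_ | a, i⟩ <;> simp [d1, da, db, dK, d2, dc])
    | (ext1 i; simp [d0, dL, d3])

lemma dec_φ33 (r : R) (v : Idx ι →₀ σ.Λ) :
    σ.dec ((φ33 r : σ.Λ) • v) =
      ⟨0, 0, 0, 0, r • (σ.dec v).qK, r • (σ.dec v).l, 0, r • (σ.dec v).qc, r • (σ.dec v).p3⟩ := by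
  simp only [dec]
  congr 1 <;> first
    | (ext1 ⟨_ | a, i⟩ <;> ext1 <;> simp [d1, da, db, dK, d2, dc])
    | (ext1 i; simp [d0, dL, d3])

lemma dec_φ10 (v : Idx ι →₀ σ.Λ) :
    σ.dec ((φ10 1 : σ.Λ) • v) = ⟨0, il 0 (σ.dec v).p0, 0, 0, 0, 0, 0, 0, 0⟩ := by
  simp only [dec]
  congr 1 <;> first
    | (ext1 ⟨_ | a, i⟩ <;> simp [d0, d1, da, db, dK, d2, dc, il_apply])
    | (ext1 i; simp [d0, dL, d3])

lemma dec_φ32 (r : R) (v : Idx ι →₀ σ.Λ) :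
    σ.dec ((φ32 (inl r) : σ.Λ) • v) =
      ⟨0, 0, 0, 0, cut (r • ((σ.dec v).qa + (σ.dec v).qb)),
        (pc 0 (r • ((σ.dec v).qa + (σ.dec v).qb))).mapRange σ.κL (map_zero _), 0,
        r • (σ.dec v).q2, 0⟩ := by
  simp only [dec]
  congr 1 <;> first
    | (ext1 ⟨_ | a, i⟩ <;> ext1 <;> simp [d1, da, db, dK, d2, dc, cut_apply, il_apply, mul_add])
    | (ext1 i; simp [d0, dL, d3, da, db, mul_add])

omit [FiniteDimensional k R] in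
lemma Cp.IsRow.d {n : ℤ} {c : Cp k R ι} (h : c.IsRow σ (n + 1)) : (c.d σ).IsRow σ n := by
  have h2 := h.q2
  have hc := h.qc
  have h3 := h.p3
  rw [add_sub_cancel_right] at h2 hc
  rw [show n + 1 - 2 = n - 1 by ring] at h3
  exact ⟨h.p0.rd, h.q1.rd, h.qa.rd.add h2, h.qb.rd.add (σ.isRow_Θ h2),
    h.qK.rd.add (hc.add (σ.isRow_Θ hc)), by
      show pc 0 (σ.Q.rd c.qK + (c.qc + σ.Θ c.qc)) = 0
      rw [map_add, pc_one_add_Θ, pc_rd, h.qK0]; simp, h.l.rd, h2.rd', hc.rd'.add (σ.isRow_il h3),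
    by have := h3.rd'; rwa [show n - 1 - 1 = n - 2 by ring] at this⟩

lemma rd_enc {n : ℤ} {c : Cp k R ι} (h : c.IsRow σ (n + 1)) :
    σ.PP.rd (σ.enc c) = σ.enc (c.d σ) :=
  σ.dec_inj (σ.isRow_enc h).rd (σ.isRow_enc (h.d σ)) (by
    rw [σ.dec_rd (σ.isRow_enc h), σ.dec_enc h.qK0, σ.dec_enc (h.d σ).qK0])

lemma d_dec {n : ℤ} {v : Idx ι →₀ σ.Λ} (hv : σ.PP.IsRow n v) (hd : σ.PP.rd v = 0) :
    (σ.dec v).d σ = ⟨0, 0, 0, 0, 0, 0, 0, 0, 0⟩ := by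
  rw [← σ.dec_rd hv, hd, dec_zero]

omit [FiniteDimensional k R] in
include σ in
lemma eq_of_add {Y : Type} [AddCommGroup Y] [Module k Y] {x y : Y} (h : x + y = 0) : x = y := by
  rw [eq_neg_of_add_eq_zero_left h, neg_eq_iff_add_eq_zero, σ.add_self]

lemma exact_core {n : ℤ} {v : Idx ι →₀ σ.Λ} (hv : σ.PP.IsRow n v) (hd : σ.PP.rd v = 0)
    (h0 : ∃ w, σ.P.IsRow (n + 1) w ∧ σ.P.rd w = (σ.dec v).p0)
    (h1 : ∃ w, σ.Q.IsRow (n + 1) w ∧ σ.Q.rd w = (σ.dec v).q1)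
    (h2 : ∃ w, σ.Q.IsRow n w ∧ σ.Q.rd w = (σ.dec v).q2 ∧
      (∃ w', σ.Q.IsRow (n + 1) w' ∧ σ.Q.rd w' = (σ.dec v).qa + w) ∧
      (∃ w', σ.Q.IsRow (n + 1) w' ∧ σ.Q.rd w' = (σ.dec v).qb + σ.Θ w))
    (hL : ∃ w, σ.P.IsRow (n + 1) w ∧ σ.P.rd w = (σ.dec v).l) :
    ∃ w, σ.PP.IsRow (n + 1) w ∧ σ.PP.rd w = v := by
  obtain ⟨p0, hp0, hp0'⟩ := h0
  obtain ⟨q1, hq1, hq1'⟩ := h1
  obtain ⟨q2, hq2, hq2', ⟨qa, hqa, hqa'⟩, qb, hqb, hqb'⟩ := h2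
  obtain ⟨l, hl, hl'⟩ := hL
  have hr := σ.isRow_dec hv
  have hz := σ.d_dec hv hd
  simp only [Cp.d, Cp.mk.injEq] at hz
  obtain ⟨-, -, -, -, z5, -, -, z8, -⟩ := hz
  obtain ⟨c, hc, hc0, hc'⟩ := σ.one_add_Θ_surj hr.qK hr.qK0
  have hrow : Cp.IsRow σ (n + 1) ⟨p0, q1, qa, qb, 0, l, q2, c, pc 0 (σ.dec v).qc⟩ :=
    ⟨hp0, hq1, hqa, hqb, IsRow.zero _, map_zero _, hl, by rwa [add_sub_cancel_right],
      by rwa [add_sub_cancel_right], by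
        rw [show n + 1 - 2 = n - 1 by ring]; exact hr.qc.pc0⟩
  refine ⟨_, σ.isRow_enc hrow, σ.dec_inj (σ.isRow_enc hrow).rd hv ?_⟩
  rw [σ.dec_rd (σ.isRow_enc hrow), σ.dec_enc hrow.qK0]
  ext1 <;> simp only [Cp.d]
  · exact hp0'
  · exact hq1'
  · rw [hqa', add_assoc, σ.add_self, add_zero]
  · rw [hqb', add_assoc, σ.add_self, add_zero]
  · rw [map_zero, zero_add, hc']
  · exact hl'
  · exact hq2'
  · have : σ.Q.rd c - cut (σ.dec v).qc = 0 := by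
      refine σ.one_add_Θ_inj (by rw [map_sub, pc_cut, pc_rd, hc0]; simp) ?_
      have e1 : σ.Q.rd c + σ.Θ (σ.Q.rd c) = σ.Q.rd (σ.dec v).qK := by
        rw [← rd_Θ, ← map_add, hc']
      have e2 := σ.add_self (il (k := k) 0 (pc 0 (σ.dec v).qc))
      rw [σ.eq_of_add z5] at e1
      rw [cut_apply, map_sub, map_sub, Θ_il]
      rw [← sub_eq_zero] at e1
      rw [← e1, ← add_zero (_ - (_ + _)), ← e2]; abel
    rw [sub_eq_zero.1 this, cut_apply]; simp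
  · rw [← pc_rd, σ.eq_of_add z8, pc_il]; simp

omit [FiniteDimensional k R] in
lemma χ_rd (p : ι →₀ R) (i : ι) : σ.χ (σ.P.rd p i) = 0 := by
  induction p using Finsupp.induction_linear with
  | zero => simp
  | add a b ha hb => simp [ha, hb]
  | single j b => simp [σ.χ_D]

omit [FiniteDimensional k R] in
lemma χ_rdQ (p : ℕ × ι →₀ TT k R) (x : ℕ × ι) : σ.χ (σ.Q.rd p x).fst = 0 := by
  obtain ⟨j, i⟩ := x
  rw [← pc_apply, pc_rd, χ_rd]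

lemma exact_PP {n : ℤ} (hn : 1 ≤ n) {v : Idx ι →₀ σ.Λ} (hv : σ.PP.IsRow n v)
    (hd : σ.PP.rd v = 0) (hL : ∃ w, σ.P.IsRow (n + 1) w ∧ σ.P.rd w = (σ.dec v).l) :
    ∃ w, σ.PP.IsRow (n + 1) w ∧ σ.PP.rd w = v := by
  have hr := σ.isRow_dec hv
  have hz := σ.d_dec hv hd
  simp only [Cp.d, Cp.mk.injEq] at hz
  obtain ⟨z1, z2, z3, z4, -, -, z7, -, -⟩ := hz
  refine σ.exact_core hv hd (σ.rowExact n hn _ hr.p0 z1) (σ.exact_Q hn _ hr.q1 z2) ?_ hL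
  obtain ⟨w, hw, hw'⟩ : ∃ w, σ.Q.IsRow n w ∧ σ.Q.rd w = (σ.dec v).q2 := by
    rcases eq_or_lt_of_le hn with h | h
    · subst h
      exact σ.exact_Q₀ hr.q2 (by rw [← σ.eq_of_add z3, χ_rdQ])
    · have := σ.exact_Q (n := n - 1) (by omega) _ hr.q2 z7
      rwa [sub_add_cancel] at this
  exact ⟨w, hw, hw', σ.exact_Q hn _ (hr.qa.add hw) (by rw [map_add, hw', z3]),
    σ.exact_Q hn _ (hr.qb.add (σ.isRow_Θ hw)) (by rw [map_add, rd_Θ, hw', z4])⟩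

lemma rowExact_PP {n : ℤ} (hn : 5 ≤ n) : σ.PP.RowExact σ.Λ n := by
  intro v hv hd
  refine σ.exact_PP (by omega) hv hd (σ.exact_L (by omega) _ (σ.isRow_dec hv).l ?_)
  exact congrArg Cp.l (σ.d_dec hv hd)

lemma exact_PP₀ {v : Idx ι →₀ σ.Λ} (hv : σ.PP.IsRow 0 v)
    (h0 : σ.χ ((σ.dec v).p0 σ.i₀) = 0) (h1 : σ.χ ((σ.dec v).q1 (0, σ.i₀)).fst = 0)
    (h2 : σ.χ ((σ.dec v).qa (0, σ.i₀)).fst + σ.χ ((σ.dec v).qb (0, σ.i₀)).fst = 0) :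
    ∃ w, σ.PP.IsRow (0 + 1) w ∧ σ.PP.rd w = v := by
  have hd : σ.PP.rd v = 0 := hv.rd'.eq_zero_of_neg σ.PP_nonneg (by norm_num)
  have hr := σ.isRow_dec hv
  refine σ.exact_core hv hd (σ.rowExact₀ _ hr.p0 h0) (σ.exact_Q₀ hr.q1 h1) ?_
    (σ.exact_L (by norm_num) _ hr.l (congrArg Cp.l (σ.d_dec hv hd)))
  let w : ℕ × ι →₀ TT k R :=
    il 0 (σ.χ ((σ.dec v).qa (0, σ.i₀)).fst • single σ.i₀ (σ.P.ε σ.i₀))
  have hw : σ.Q.IsRow 0 w := σ.isRow_il ((isRow_single σ.deg_i₀ (by simp [σ.P.idem])).smul _)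
  have hw' : σ.χ (w (0, σ.i₀)).fst = σ.χ ((σ.dec v).qa (0, σ.i₀)).fst := by
    simp [w, il_apply, σ.χ_i₀]
  refine ⟨w, hw, ?_, σ.exact_Q₀ (hr.qa.add hw) ?_, σ.exact_Q₀ (hr.qb.add (σ.isRow_Θ hw)) ?_⟩
  · rw [hw.rd'.eq_zero_of_neg σ.Q_nonneg (by norm_num),
      hr.q2.eq_zero_of_neg σ.Q_nonneg (by norm_num)]
  · rw [Finsupp.add_apply, fst_add, map_add, hw', σ.add_self]
  · rw [Θ_il, Finsupp.add_apply, fst_add, map_add, hw', add_comm, h2]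

/-! ### the homology in degree zero -/

/-- a three-dimensional module -/
@[ext] structure K3 (σ : Setup k R ι) : Type where
  a0 : k
  a1 : k
  a2 : k

namespace K3
variable {σ}
omit [FiniteDimensional k R]
/-- the tautological equivalence -/
def equiv : K3 σ ≃ k × k × k :=
  ⟨fun t => (t.a0, t.a1, t.a2), fun p => ⟨p.1, p.2.1, p.2.2⟩, fun _ => rfl, fun _ => rfl⟩
instance : AddCommGroup (K3 σ) := equiv.addCommGroup
instance : Module k (K3 σ) := equiv.module k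
@[simp] lemma add_a0 (a b : K3 σ) : (a + b).a0 = a.a0 + b.a0 := rfl
@[simp] lemma add_a1 (a b : K3 σ) : (a + b).a1 = a.a1 + b.a1 := rfl
@[simp] lemma add_a2 (a b : K3 σ) : (a + b).a2 = a.a2 + b.a2 := rfl
@[simp] lemma zero_a0 : (0 : K3 σ).a0 = 0 := rfl
@[simp] lemma zero_a1 : (0 : K3 σ).a1 = 0 := rfl
@[simp] lemma zero_a2 : (0 : K3 σ).a2 = 0 := rfl
@[simp] lemma smul_a0 (c : k) (b : K3 σ) : (c • b).a0 = c * b.a0 := rfl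
@[simp] lemma smul_a1 (c : k) (b : K3 σ) : (c • b).a1 = c * b.a1 := rfl
@[simp] lemma smul_a2 (c : k) (b : K3 σ) : (c • b).a2 = c * b.a2 := rfl
end K3

noncomputable instance : SMul σ.Λ (K3 σ) := ⟨fun x a =>
  ⟨σ.χ x.x00 * a.a0, σ.χ x.x10.fst * a.a0 + σ.χ x.x11.fst * a.a1,
    (σ.χ x.x20a.fst + σ.χ x.x20b.fst) * a.a0 + (σ.χ x.x21a.fst + σ.χ x.x21b.fst) * a.a1 +
      σ.χ x.x22.fst * a.a2⟩⟩

@[simp] lemma act_a0 (x : σ.Λ) (a : K3 σ) : (x • a).a0 = σ.χ x.x00 * a.a0 := rfl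
@[simp] lemma act_a1 (x : σ.Λ) (a : K3 σ) :
    (x • a).a1 = σ.χ x.x10.fst * a.a0 + σ.χ x.x11.fst * a.a1 := rfl
@[simp] lemma act_a2 (x : σ.Λ) (a : K3 σ) : (x • a).a2 =
    (σ.χ x.x20a.fst + σ.χ x.x20b.fst) * a.a0 + (σ.χ x.x21a.fst + σ.χ x.x21b.fst) * a.a1 +
      σ.χ x.x22.fst * a.a2 := rfl

noncomputable instance : Module σ.Λ (K3 σ) where
  one_smul a := by ext1 <;> simp
  mul_smul x y a := by ext1 <;> simp <;> ring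
  smul_zero a := by ext1 <;> simp
  smul_add x a b := by ext1 <;> simp <;> ring
  add_smul x y a := by ext1 <;> simp <;> ring
  zero_smul a := by ext1 <;> simp

instance : SMulCommClass k σ.Λ (K3 σ) := ⟨fun c x a => by ext1 <;> simp <;> ring⟩

/-- the augmentation -/
noncomputable def ev0 : σ.PP.Row σ.Λ σ.Λ 0 →ₗ[σ.Λ] K3 σ where
  toFun v := v.1 (Sum.inl (Sum.inl (0, σ.i₀))) • (⟨1, 0, 0⟩ : K3 σ)
  map_add' a b := by simp [add_smul]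
  map_smul' a b := by simp [mul_smul]

lemma ev0_eq (v : σ.PP.Row σ.Λ σ.Λ 0) : σ.ev0 v = ⟨σ.χ ((σ.dec v.1).p0 σ.i₀),
    σ.χ ((σ.dec v.1).q1 (0, σ.i₀)).fst,
    σ.χ ((σ.dec v.1).qa (0, σ.i₀)).fst + σ.χ ((σ.dec v.1).qb (0, σ.i₀)).fst⟩ := by
  ext1 <;> simp [ev0, dec, d0, d1, da, db]

lemma ses0 : σ.XX.SES (Submodule.inclusion (Bd_le_Row (X := σ.PP) (B := σ.Λ) (S' := σ.Λ) 0))
    σ.ev0 where
  inj := Submodule.inclusion_injective _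
  comp a := by
    obtain ⟨a, w, hw, rfl⟩ := a
    rw [ev0_eq]
    simp only [Submodule.coe_inclusion, σ.dec_rd hw, Cp.d]
    ext1 <;> simp [χ_rd, χ_rdQ, Θ_apply, σ.add_self]
  ex _ b _ h := by
    rw [ev0_eq] at h
    exact ⟨⟨b.1, σ.exact_PP₀ b.2 (congrArg K3.a0 h) (congrArg K3.a1 h) (congrArg K3.a2 h)⟩, rfl⟩
  surj _ c _ := by
    refine ⟨⟨single (Sum.inl (Sum.inl (0, σ.i₀))) (c.a0 • φ00 (σ.P.ε σ.i₀) +
      c.a1 • φ10 (inl (σ.P.ε σ.i₀)) + c.a2 • φ20a (inl (σ.P.ε σ.i₀))), isRow_single ?_ ?_⟩, ?_⟩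
    · simp [PP, σ.deg_i₀]
    · ext1 <;> simp [PP, σ.P.idem, inl_mul_inl]
    · ext1 <;> simp [ev0, σ.χ_i₀]

lemma ses_bdX (a : ℤ) (ha : 0 ≤ a) :
    σ.XX.SES (Submodule.inclusion (Bd_le_Row (X := σ.PP) (B := σ.Λ) (S' := σ.Λ) (a + 1)))
      (σ.PP.toBd σ.Λ σ.Λ a) := by
  refine σ.PP.ses_bd a fun x v hx hv hd => σ.exact_PP (by omega) hv hd ⟨0, IsRow.zero _, ?_⟩
  rw [map_zero, ← hx]
  rcases x with x | x
  · exact (congrArg Cp.l (σ.dec_φ11 _ v)).symm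
  · exact (congrArg Cp.l (σ.dec_φ22 _ v)).symm

lemma col_F' {Y : Type} [AddCommGroup Y] [Module σ.Λ Y] (a : ℕ × ι → Y) (x : ℕ × ι) :
    σ.F'.col a x = (σ.ab x.1 * φ11 (σ.Q.ε x)) • a x := by
  simp [Hom.col, F'_apply]

lemma col_F {Y : Type} [AddCommGroup Y] [Module σ.Λ Y] (a : ℕ × ι → Y) (x : ℕ × ι) :
    σ.F.col a x = (σ.ab x.1 * σ.en 1 x.1 (σ.Q.ε x)) • a x := by
  simp [Hom.col, F_apply]

omit [FiniteDimensional k R] in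
lemma χ_DQ (x y : ℕ × ι) : σ.χ (σ.DQ x y).fst = 0 := by
  obtain ⟨j, i⟩ := x
  obtain ⟨j', i'⟩ := y
  rw [fst_DQ]; split_ifs <;> simp [χ_D]

lemma δ11_K3 (a : ℕ × ι → K3 σ) : σ.Q11.δ a = 0 := by
  funext x
  rw [map_δ, Finsupp.sum]
  refine Finset.sum_eq_zero fun y _ => ?_
  ext1 <;> simp [χ_DQ]

lemma δ22_K3 (a : ℕ × ι → K3 σ) : σ.Q22.δ a = 0 := by
  funext x
  rw [map_δ, Finsupp.sum]
  refine Finset.sum_eq_zero fun y _ => ?_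
  ext1 <;> simp [χ_DQ]

omit [FiniteDimensional k R] in
lemma χ_Qe {n : ℤ} (hn : n ≠ 0) (i : ι) : σ.χ (σ.Q.e n (0, i)).fst = 0 := by
  rw [Q_e, fst_inl]; exact σ.χ_e (Or.inl (by simpa using hn))

omit [FiniteDimensional k R] in
lemma χ_e_ε (n : ℤ) (x : ℕ × ι) :
    σ.χ (σ.P.ε x.2) * σ.χ (σ.Q.e n x).fst = σ.χ (σ.Q.e n x).fst := by
  rw [← map_mul]; exact congrArg (fun t => σ.χ t.fst) (σ.Q.ε_mul_e n x)

lemma K3_left {n : ℤ} (hn : n ≠ 0) {a : ℕ × ι → K3 σ} (ha : σ.Q11.IsCol n a)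
    (h : σ.F'.col a = 0) : a = 0 := by
  funext x
  have h1 := ha x
  have h2 := congrArg K3.a2 (congrFun h x)
  rw [col_F'] at h2
  rw [map_e] at h1
  have h3 := congrArg K3.a1 h1
  simp [ab] at h2 h3
  have h4 : (a x).a1 = 0 := by
    obtain ⟨_ | j, i⟩ := x
    · rw [← h3, σ.χ_Qe hn, zero_mul]
    · rcases h2 with h2 | h2
      · rw [← h3, ← σ.χ_e_ε]
        have : (1 + σ.H ^ (j + 1)) * σ.χ (σ.P.ε i) = 0 := by linear_combination h2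
        rw [(mul_eq_zero.1 this).resolve_left (σ.one_add_ne j)]; simp
      · exact h2
  rw [← h1]
  ext1 <;> simp [h4]

lemma van_K3 {n : ℤ} (hn : 2 ≤ n) : σ.XX.Van (K3 σ) n := by
  intro w hw hδ
  obtain ⟨a, b, rfl⟩ : ∃ a b, w = Sum.elim a b := ⟨_, _, (Sum.elim_comp_inl_inr w).symm⟩
  rw [XX, Hom.isCol_elim] at hw
  rw [XX, Hom.δ_elim, Hom.elim_eq_zero, δ22_K3, add_zero] at hδ
  obtain rfl := σ.K3_left (by omega) hw.1 hδ.2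
  have hb : ∀ x, σ.χ (σ.Q.e (n - 1) x).fst * (b x).a2 = (b x).a2 := fun x => by
    have := congrArg K3.a2 (hw.2 x)
    rw [map_e] at this
    simpa using this
  refine ⟨Sum.elim (fun x => ⟨0, (1 + σ.H ^ x.1)⁻¹ * (b x).a2, 0⟩) 0,
    σ.F'.isCol_elim.2 ⟨fun x => ?_, IsCol.zero _⟩, ?_⟩
  · rw [map_e]
    ext1 <;> simp
    rw [mul_left_comm, hb]
  · rw [XX, Hom.δ_elim, δ11_K3, δ_zero, add_zero]
    congr 1
    funext x
    rw [col_F', ← hw.2 x, map_e]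
    ext1 <;> simp [ab]
    obtain ⟨_ | j, i⟩ := x
    · simp [σ.χ_Qe (show n - 1 ≠ 0 by omega)]
    · have h1 := mul_inv_cancel₀ (σ.one_add_ne j)
      have h2 := σ.χ_e_ε (n - 1) (j + 1, i)
      simp only at h2 ⊢
      linear_combination (σ.χ (σ.P.ε i) * σ.χ (σ.Q.e (n - 1) (j + 1, i)).fst * (b (j + 1, i)).a2) *
        h1 + (b (j + 1, i)).a2 * h2

lemma gen_K3 : σ.XX.Gen k 1
    (Sum.elim 0 fun x => σ.Q22.e 0 x • (⟨0, 0, 1⟩ : K3 σ)) := by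
  refine ⟨σ.F'.isCol_elim.2 ⟨IsCol.zero _, isCol_proj _ _⟩, ?_, fun w hw hδ => ?_⟩
  · rw [XX, Hom.δ_elim, δ11_K3, δ22_K3]; simp [Hom.elim_eq_zero]
  obtain ⟨a, b, rfl⟩ : ∃ a b, w = Sum.elim a b := ⟨_, _, (Sum.elim_comp_inl_inr w).symm⟩
  rw [XX, Hom.isCol_elim] at hw
  rw [XX, Hom.δ_elim, Hom.elim_eq_zero, δ22_K3, add_zero] at hδ
  obtain rfl := σ.K3_left (by omega) hw.1 hδ.2
  refine ⟨(b (0, σ.i₀)).a2, 0, IsCol.zero _, ?_⟩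
  rw [δ_zero, add_zero]
  funext x
  rcases x with x | ⟨j, i⟩
  · simp
  · simp only [Sum.elim_inr, Pi.smul_apply]
    rw [← hw.2 (j, i), map_e, map_e, sub_self]
    ext1 <;> simp
    by_cases h : σ.Q.deg (j, i) = 0
    · have h1 := σ.nonneg i
      simp only [Q_deg] at h
      obtain rfl : j = 0 := by omega
      obtain rfl := σ.eq_i₀ i (by omega)
      exact mul_comm _ _
    · simp [σ.Q.e_of_ne h]

end Setup

end Vale.Agent.P195
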