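import Vale.Agent.P195.Dual

/-! Cones, shifts and decoding maps. -/

namespace Vale.Agent.P195

open Finsupp MulOpposite

attribute [-simp] Finsupp.single_mul

section Pull

variable {ι ι' B B' : Type} [AddCommGroup B] [AddCommGroup B']

/-- restrict a row along an injection of indices and apply additive maps to the entries -/
noncomputable def pull (g : ι' → ι) (hg : Function.Injective g) (f : ι' → B →+ B') :
    (ι →₀ B) →+ (ι' →₀ B') where
  toFun v := Finsupp.ofSupportFinite (fun i => f i (v (g i)))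
    ((v.support.finite_toSet.preimage hg.injOn).subset fun i hi => by
      simp only [Set.mem_preimage, Finset.mem_coe, mem_support_iff]
      intro h
      exact hi (by simp [h]))
  map_zero' := by ext; simp [ofSupportFinite_coe]
  map_add' a b := by ext; simp [ofSupportFinite_coe]

@[simp] lemma pull_apply (g : ι' → ι) (hg : Function.Injective g) (f : ι' → B →+ B')
    (v : ι →₀ B) (i : ι') : pull g hg f v i = f i (v (g i)) := rfl

lemma pull_single (g : ι' → ι) (hg : Function.Injective g) (f : ι' → B →+ B') (i : ι') (b : B) :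
    pull g hg f (single (g i) b) = single i (f i b) := by
  classical
  ext j
  simp only [pull_apply, single_apply, hg.eq_iff]
  split_ifs with h
  · rw [h]
  · simp

lemma pull_single_of_ne (g : ι' → ι) (hg : Function.Injective g) (f : ι' → B →+ B') {i : ι}
    (hi : ∀ j, g j ≠ i) (b : B) : pull g hg f (single i b) = 0 := by
  ext j
  simp [single_eq_of_ne (hi j)]

/-- apply index dependent additive maps to the entries -/
noncomputable def mapIdx (f : ι → B →+ B') : (ι →₀ B) →+ (ι →₀ B') :=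
  pull id Function.injective_id f

@[simp] lemma mapIdx_apply (f : ι → B →+ B') (v : ι →₀ B) (i : ι) : mapIdx f v i = f i (v i) := rfl

@[simp] lemma mapIdx_single (f : ι → B →+ B') (i : ι) (b : B) :
    mapIdx f (single i b) = single i (f i b) := pull_single id _ f i b

/-- left component -/
noncomputable def lft : (ι ⊕ ι' →₀ B) →+ (ι →₀ B) :=
  pull Sum.inl Sum.inl_injective fun _ => AddMonoidHom.id B

/-- right component -/
noncomputable def rgt : (ι ⊕ ι' →₀ B) →+ (ι' →₀ B) :=
  pull Sum.inr Sum.inr_injective fun _ => AddMonoidHom.id B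

@[simp] lemma lft_apply (v : ι ⊕ ι' →₀ B) (i : ι) : lft v i = v (Sum.inl i) := rfl
@[simp] lemma rgt_apply (v : ι ⊕ ι' →₀ B) (i : ι') : rgt v i = v (Sum.inr i) := rfl
@[simp] lemma lft_sumElim (a : ι →₀ B) (b : ι' →₀ B) : lft (sumElim a b) = a := by ext; rfl
@[simp] lemma rgt_sumElim (a : ι →₀ B) (b : ι' →₀ B) : rgt (sumElim a b) = b := by ext; rfl
@[simp] lemma lft_inl (i : ι) (b : B) : lft (single (Sum.inl i : ι ⊕ ι') b) = single i b :=
  pull_single _ _ _ i b
@[simp] lemma lft_inr (i : ι') (b : B) : lft (single (Sum.inr i : ι ⊕ ι') b) = 0 :=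
  pull_single_of_ne _ _ _ (by simp) b
@[simp] lemma rgt_inr (i : ι') (b : B) : rgt (single (Sum.inr i : ι ⊕ ι') b) = single i b :=
  pull_single _ _ _ i b
@[simp] lemma rgt_inl (i : ι) (b : B) : rgt (single (Sum.inl i : ι ⊕ ι') b) = 0 :=
  pull_single_of_ne _ _ _ (by simp) b

lemma ext_lr {v w : ι ⊕ ι' →₀ B} (h1 : lft v = lft w) (h2 : rgt v = rgt w) : v = w := by
  ext (i | i)
  · exact DFunLike.congr_fun h1 i
  · exact DFunLike.congr_fun h2 i

/-- the `j`-th copy -/
noncomputable def cp (j : ℕ) : (ι →₀ B) →+ (ℕ × ι →₀ B) where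
  toFun a := (single j a).uncurry
  map_zero' := by ext ⟨j', i⟩; simp
  map_add' a b := by ext ⟨j', i⟩; simp

/-- the component in the `j`-th copy -/
noncomputable def dn (j : ℕ) : (ℕ × ι →₀ B) →+ (ι →₀ B) :=
  pull (Prod.mk j) (Prod.mk_right_injective j) fun _ => AddMonoidHom.id B

lemma cp_apply (j j' : ℕ) (a : ι →₀ B) (i : ι) : cp j a (j', i) = if j = j' then a i else 0 := by
  show (single j a) j' i = _
  rw [single_apply]; split_ifs <;> rfl

@[simp] lemma cp_same (j : ℕ) (a : ι →₀ B) (i : ι) : cp j a (j, i) = a i := by simp [cp_apply]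
@[simp] lemma cp_zero_succ (j : ℕ) (a : ι →₀ B) (i : ι) : cp 0 a (j + 1, i) = 0 := by
  simp [cp_apply]
@[simp] lemma cp_single (j : ℕ) (i : ι) (b : B) : cp j (single i b) = single (j, i) b :=
  uncurry_single j i b
@[simp] lemma dn_apply (j : ℕ) (v : ℕ × ι →₀ B) (i : ι) : dn j v i = v (j, i) := rfl
lemma dn_cp (j j' : ℕ) (a : ι →₀ B) : dn j' (cp j a) = if j = j' then a else 0 := by
  ext i; rw [dn_apply, cp_apply]; split_ifs <;> rfl
@[simp] lemma dn_cp_same (j : ℕ) (a : ι →₀ B) : dn j (cp j a) = a := by simp [dn_cp]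

lemma sum_cp_dn (N : ℕ) (v : ℕ × ι →₀ B) (h : ∀ j i, N ≤ j → v (j, i) = 0) :
    ∑ j ∈ Finset.range N, cp j (dn j v) = v := by
  ext ⟨j, i⟩
  simp only [Finsupp.finset_sum_apply, cp_apply, dn_apply]
  rw [Finset.sum_ite_eq']
  split_ifs with hj
  · rfl
  · exact (h j i (by simpa using hj)).symm

end Pull

namespace Dat

variable {S S' : Type} [Ring S] [Ring S'] {ι ι' : Type}

section PullRow

variable {B B' : Type} [AddCommGroup B] [Module Sᵐᵒᵖ B] [AddCommGroup B'] [Module S'ᵐᵒᵖ B']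
  (X : Dat S ι) (X' : Dat S' ι')

lemma rd_pull (g : ι' → ι) (hg : Function.Injective g) (f : ι' → B →+ B')
    (h1 : ∀ i j b, f j (op (X.D (g i) (g j)) • b) = op (X'.D i j) • f i b)
    (h2 : ∀ i, (∀ i', g i' ≠ i) → ∀ j b, f j (op (X.D i (g j)) • b) = 0) (v : ι →₀ B) :
    pull g hg f (X.rd v) = X'.rd (pull g hg f v) := by
  induction v using Finsupp.induction_linear with
  | zero => simp
  | add a b ha hb => simp [ha, hb]
  | single i b =>
    by_cases hi : ∃ i', g i' = i
    · obtain ⟨i', rfl⟩ := hi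
      rw [pull_single]; ext j; simp [h1]
    · push Not at hi
      rw [pull_single_of_ne _ _ _ hi]; ext j; simp [h2 i hi]

variable {X X'} in
lemma IsRow.pull {n n' : ℤ} {v : ι →₀ B} (hv : X.IsRow n v) (g : ι' → ι)
    (hg : Function.Injective g) (f : ι' → B →+ B')
    (hε : ∀ i b, f i (op (X.ε (g i)) • b) = op (X'.ε i) • f i b)
    (hdeg : ∀ i, X.deg (g i) = n → X'.deg i = n') : X'.IsRow n' (pull g hg f v) :=
  isRow_of (fun i => by rw [pull_apply, ← hε, hv.ε_smul])
    fun i hi => by rw [pull_apply, hv.eq_zero fun h => hi (hdeg i h), map_zero]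

lemma rd_mapIdx (X' : Dat S' ι) (f : ι → B →+ B')
    (h1 : ∀ i j b, f j (op (X.D i j) • b) = op (X'.D i j) • f i b) (v : ι →₀ B) :
    mapIdx f (X.rd v) = X'.rd (mapIdx f v) :=
  X.rd_pull X' id _ f h1 (fun i hi => absurd rfl (hi i)) v

variable {X} in
lemma IsRow.mapIdx {X' : Dat S' ι} {n : ℤ} {v : ι →₀ B} (hv : X.IsRow n v) (f : ι → B →+ B')
    (hε : ∀ i b, f i (op (X.ε i) • b) = op (X'.ε i) • f i b)
    (hdeg : ∀ i, X'.deg i = X.deg i) : X'.IsRow n (mapIdx f v) :=
  hv.pull id _ f hε fun i hi => (hdeg i).trans hi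

end PullRow

section Transfer

variable {X : Dat S ι} {φ : S →ₙ+* S'} {Y Y' : Type} [AddCommGroup Y] [Module S' Y]
  [AddCommGroup Y'] [Module S Y']

lemma cob_of_dec {n : ℤ} (dec : Y →+ Y') (hdec : ∀ s y, dec (φ s • y) = s • dec y)
    (inj : ∀ s y, dec (φ s • y) = 0 → φ s • y = 0) (surj : ∀ y', ∃ y, dec y = y')
    {w : ι → Y} (hw : (X.map φ).IsCol n w) (h : X.IsCob n (fun i => dec (w i))) :
    (X.map φ).IsCob n w := by
  obtain ⟨w', hw', h'⟩ := h
  choose y hy using fun i => surj (w' i)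
  have hc := isCol_proj (X := X.map φ) (n - 1) y
  refine ⟨_, hc, ?_⟩
  have h1 : (fun i => dec ((X.map φ).e (n - 1) i • y i)) = w' := by
    funext i; rw [map_e, hdec, hy, hw' i]
  funext i
  have h2 := congrFun (δ_dec X φ dec hdec (fun i => (X.map φ).e (n - 1) i • y i)) i
  rw [h1, h'] at h2
  have h3 := (hc.δ'.sub hw) i
  rw [map_e] at h3
  have h4 := inj (X.e n i) _ (by rw [h3, Pi.sub_apply, map_sub, ← h2, sub_self])
  rw [h3] at h4
  exact sub_eq_zero.1 h4

lemma Van.of_dec {n : ℤ} (h : X.Van Y' n) (dec : Y →+ Y')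
    (hdec : ∀ s y, dec (φ s • y) = s • dec y)
    (inj : ∀ s y, dec (φ s • y) = 0 → φ s • y = 0) (surj : ∀ y', ∃ y, dec y = y') :
    (X.map φ).Van Y n := fun w hw hδ =>
  cob_of_dec dec hdec inj surj hw
    (h _ (hw.dec dec hdec) (by rw [δ_dec X φ dec hdec, hδ]; funext i; simp))

lemma Gen.of_dec {k : Type} [Monoid k] [DistribMulAction k Y] [SMulCommClass k S' Y] [SMul k Y']
    {n : ℤ} {c : ι → Y} (hc : (X.map φ).IsCol n c) (hδ : (X.map φ).δ c = 0) (dec : Y →+ Y')
    (h : X.Gen k n (fun i => dec (c i))) (hk : ∀ (a : k) y, dec (a • y) = a • dec y)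
    (hdec : ∀ s y, dec (φ s • y) = s • dec y)
    (inj : ∀ s y, dec (φ s • y) = 0 → φ s • y = 0) (surj : ∀ y', ∃ y, dec y = y') :
    (X.map φ).Gen k n c := by
  refine ⟨hc, hδ, fun w hw hw' => ?_⟩
  obtain ⟨a, w', h1, h2⟩ := h.2.2 _ (hw.dec dec hdec)
    (by rw [δ_dec X φ dec hdec, hw']; funext i; simp)
  obtain ⟨y, hy, hy'⟩ := cob_of_dec dec hdec inj surj (hw.sub (hc.smul a)) ⟨w', h1, by
    funext i
    have := congrFun h2 i
    simp only [Pi.add_apply, Pi.smul_apply] at this
    simp [this, hk]⟩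
  exact ⟨a, y, hy, by rw [hy']; simp⟩

end Transfer

/-- shift of the degrees by one -/
def shift (X : Dat S ι) : Dat S ι :=
  { X with deg := fun i => X.deg i + 1, D_deg := fun i j h => by rw [X.D_deg i j h] }

section Shift
variable (X : Dat S ι)
@[simp] lemma shift_deg (i : ι) : X.shift.deg i = X.deg i + 1 := rfl
@[simp] lemma shift_ε (i : ι) : X.shift.ε i = X.ε i := rfl
@[simp] lemma shift_D : X.shift.D = X.D := rfl
lemma shift_e (n : ℤ) (i : ι) : X.shift.e n i = X.e (n - 1) i := by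
  by_cases h : X.deg i = n - 1
  · rw [X.e_of_eq h, X.shift.e_of_eq (by simp [h])]; rfl
  · rw [X.e_of_ne h, X.shift.e_of_ne (by simp; omega)]
variable {Y : Type} [AddCommGroup Y] [Module S Y]
lemma shift_δ (w : ι → Y) : X.shift.δ w = X.δ w := rfl
lemma shift_isCol {n : ℤ} {w : ι → Y} : X.shift.IsCol n w ↔ X.IsCol (n - 1) w := by
  simp [IsCol, shift_e]
variable {B : Type} [AddCommGroup B] [Module Sᵐᵒᵖ B]
lemma shift_rd (v : ι →₀ B) : X.shift.rd v = X.rd v := rfl
lemma shift_isRow {n : ℤ} {v : ι →₀ B} : X.shift.IsRow n v ↔ X.IsRow (n - 1) v := by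
  simp [isRow_iff, shift_e]
end Shift

/-- a homogeneous map of complexes, anticommuting with the differentials -/
structure Hom (A : Dat S ι) (B : Dat S ι') where
  F : ι' → ι →₀ S
  F_deg : ∀ j i, F j i ≠ 0 → B.deg j = A.deg i
  F_left : ∀ j i, B.ε j * F j i = F j i
  F_right : ∀ j i, F j i * A.ε i = F j i
  comm : ∀ j, linearCombination S F (B.D j) + linearCombination S A.D (F j) = 0

namespace Hom

variable {A : Dat S ι} {B : Dat S ι'} (f : Hom A B)

/-- the mapping cone -/
noncomputable def cone : Dat S (ι ⊕ ι') where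
  deg := Sum.elim A.deg fun j => B.deg j + 1
  ε := Sum.elim A.ε B.ε
  D := Sum.elim (fun i => sumElim (A.D i) 0) fun j => sumElim (f.F j) (B.D j)
  idem := by rintro (i | i); exacts [A.idem i, B.idem i]
  D_deg := by
    rintro (i | i) (j | j) h
    · exact A.D_deg i j h
    · exact absurd rfl h
    · exact congrArg (· + 1) (f.F_deg i j h)
    · exact congrArg (· + 1) (B.D_deg i j h)
  D_left := by
    rintro (i | i) (j | j)
    exacts [A.D_left i j, mul_zero _, f.F_left i j, B.D_left i j]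
  D_right := by
    rintro (i | i) (j | j)
    exacts [A.D_right i j, zero_mul _, f.F_right i j, B.D_right i j]
  DD := by
    have key : ∀ x : ι ⊕ ι' →₀ S, linearCombination S
        (Sum.elim (fun i => sumElim (A.D i) 0) fun j => sumElim (f.F j) (B.D j)) x =
        sumElim (linearCombination S A.D (lft x) + linearCombination S f.F (rgt x))
          (linearCombination S B.D (rgt x)) := by
      intro x
      induction x using Finsupp.induction_linear with
      | zero => simp
      | add a b ha hb =>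
        rw [map_add, ha, hb, ← sumElim_add]; simp only [map_add]; congr 1; abel
      | single i b => rcases i with i | i <;> ext (j | j) <;> simp
    rintro (i | i)
    · rw [key]; simp [A.DD]
    · rw [key]; simp only [Sum.elim_inr, lft_sumElim, rgt_sumElim, B.DD]
      rw [add_comm, f.comm]; simp

@[simp] lemma deg_inl (i : ι) : f.cone.deg (Sum.inl i) = A.deg i := rfl
@[simp] lemma deg_inr (i : ι') : f.cone.deg (Sum.inr i) = B.deg i + 1 := rfl
@[simp] lemma ε_inl (i : ι) : f.cone.ε (Sum.inl i) = A.ε i := rfl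
@[simp] lemma ε_inr (i : ι') : f.cone.ε (Sum.inr i) = B.ε i := rfl
@[simp] lemma D_inl (i : ι) : f.cone.D (Sum.inl i) = sumElim (A.D i) 0 := rfl
@[simp] lemma D_inr (i : ι') : f.cone.D (Sum.inr i) = sumElim (f.F i) (B.D i) := rfl
lemma e_inl (n : ℤ) (i : ι) : f.cone.e n (Sum.inl i) = A.e n i := rfl
lemma e_inr (n : ℤ) (i : ι') : f.cone.e n (Sum.inr i) = B.e (n - 1) i := B.shift_e n i

lemma finDeg (hA : A.FinDeg) (hB : B.FinDeg) : f.cone.FinDeg := fun n =>
  (((hA n).image Sum.inl).union ((hB (n - 1)).image Sum.inr)).subset (by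
    rintro (i | i) h
    · exact Or.inl ⟨i, h, rfl⟩
    · refine Or.inr ⟨i, ?_, rfl⟩
      simp only [Set.mem_setOf_eq, deg_inr] at h ⊢; omega)

lemma nonneg (hA : ∀ i, 0 ≤ A.deg i) (hB : ∀ i, 0 ≤ B.deg i) : ∀ i, 0 ≤ f.cone.deg i := by
  rintro (i | i)
  · exact hA i
  · have := hB i; simp only [deg_inr]; omega

section Col

variable {Y : Type} [AddCommGroup Y] [Module S Y]

/-- the map induced on cochains -/
noncomputable def col (a : ι → Y) : ι' → Y := fun j => linearCombination S a (f.F j)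

lemma lc_sum (w : ι ⊕ ι' → Y) (x : ι ⊕ ι' →₀ S) : linearCombination S w x =
    linearCombination S (w ∘ Sum.inl) (lft x) + linearCombination S (w ∘ Sum.inr) (rgt x) := by
  induction x using Finsupp.induction_linear with
  | zero => simp
  | add a b ha hb => simp only [map_add, ha, hb]; abel
  | single i b => rcases i with i | i <;> simp

lemma δ_inl (w : ι ⊕ ι' → Y) : f.cone.δ w ∘ Sum.inl = A.δ (w ∘ Sum.inl) := by
  funext i; simp [δ, lc_sum]

lemma δ_inr (w : ι ⊕ ι' → Y) :
    f.cone.δ w ∘ Sum.inr = f.col (w ∘ Sum.inl) + B.δ (w ∘ Sum.inr) := by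
  funext i; simp [δ, lc_sum, col]

lemma δ_elim (a : ι → Y) (b : ι' → Y) :
    f.cone.δ (Sum.elim a b) = Sum.elim (A.δ a) (f.col a + B.δ b) := by
  funext i
  rcases i with i | i
  · exact congrFun (f.δ_inl (Sum.elim a b)) i
  · exact congrFun (f.δ_inr (Sum.elim a b)) i

lemma isCol_elim {n : ℤ} {a : ι → Y} {b : ι' → Y} :
    f.cone.IsCol n (Sum.elim a b) ↔ A.IsCol n a ∧ B.IsCol (n - 1) b := by
  simp [IsCol, e_inl, e_inr]

lemma col_add (a a' : ι → Y) : f.col (a + a') = f.col a + f.col a' := by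
  funext i; simp [col, linearCombination_apply, smul_add, Finsupp.sum, Finset.sum_add_distrib]

@[simp] lemma col_zero : f.col (0 : ι → Y) = 0 := by
  funext i; simp [col, linearCombination_apply]

lemma elim_eq_zero {a : ι → Y} {b : ι' → Y} : Sum.elim a b = 0 ↔ a = 0 ∧ b = 0 := by
  simp [funext_iff]

lemma van {n : ℤ} (hA : A.Van Y n) (hB : B.Van Y (n - 1)) : f.cone.Van Y n := by
  intro w hw hδ
  obtain ⟨a, b, rfl⟩ : ∃ a b, w = Sum.elim a b := ⟨_, _, (Sum.elim_comp_inl_inr w).symm⟩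
  rw [isCol_elim] at hw
  have hδ' := hδ
  rw [δ_elim, elim_eq_zero] at hδ
  obtain ⟨a', ha', rfl⟩ := hA a hw.1 hδ.1
  have h1 : f.cone.IsCol (n - 1) (Sum.elim a' 0) := f.isCol_elim.2 ⟨ha', IsCol.zero _⟩
  have h2 := h1.δ'
  have h3 := f.cone.δδ (Sum.elim a' 0)
  rw [δ_elim, δ_zero, add_zero] at h2 h3
  rw [δ_elim, elim_eq_zero] at h3
  obtain ⟨b', hb', hb''⟩ := hB (b - f.col a') (hw.2.sub (f.isCol_elim.1 h2).2) (by
    rw [δ_sub, eq_neg_of_add_eq_zero_right hδ.2, eq_neg_of_add_eq_zero_right h3.2, sub_self])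
  exact ⟨Sum.elim a' b', f.isCol_elim.2 ⟨ha', hb'⟩, by rw [δ_elim, hb'']; simp⟩

end Col

section Row

variable {M : Type} [AddCommGroup M] [Module Sᵐᵒᵖ M]

/-- the map induced on rows -/
noncomputable def row : (ι' →₀ M) →+ (ι →₀ M) := liftAddHom fun i => rrow (f.F i)

@[simp] lemma row_single (i : ι') (b : M) : f.row (single i b) = rrow (f.F i) b := by simp [row]

lemma lft_rd (v : ι ⊕ ι' →₀ M) : lft (f.cone.rd v) = A.rd (lft v) + f.row (rgt v) := by
  induction v using Finsupp.induction_linear with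
  | zero => simp
  | add a b ha hb => simp only [map_add, ha, hb]; abel
  | single i b => rcases i with i | i <;> ext j <;> simp

lemma rgt_rd (v : ι ⊕ ι' →₀ M) : rgt (f.cone.rd v) = B.rd (rgt v) := by
  induction v using Finsupp.induction_linear with
  | zero => simp
  | add a b ha hb => simp only [map_add, ha, hb]
  | single i b => rcases i with i | i <;> ext j <;> simp

lemma isRow_iff' {n : ℤ} {v : ι ⊕ ι' →₀ M} :
    f.cone.IsRow n v ↔ A.IsRow n (lft v) ∧ B.IsRow (n - 1) (rgt v) := by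
  simp [isRow_iff, e_inl, e_inr]

end Row

end Hom

end Dat

end Vale.Agent.P195
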