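import Mathlib

/-! Matrix presentation of complexes of finitely generated projective modules. -/

namespace Vale.Agent.P195

open Finsupp MulOpposite

/-- A complex of projectives `⊕ S ε i`, presented by a homogeneous matrix. -/
structure Dat (S : Type) [Ring S] (ι : Type) where
  deg : ι → ℤ
  ε : ι → S
  D : ι → ι →₀ S
  idem : ∀ i, ε i * ε i = ε i
  D_deg : ∀ i j, D i j ≠ 0 → deg i = deg j + 1
  D_left : ∀ i j, ε i * D i j = D i j
  D_right : ∀ i j, D i j * ε j = D i j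
  DD : ∀ i, linearCombination S D (D i) = 0

namespace Dat

variable {S : Type} [Ring S] {ι : Type} (X : Dat S ι)

/-- degree `n` idempotent -/
noncomputable def e (n : ℤ) (i : ι) : S := if X.deg i = n then X.ε i else 0

lemma e_of_eq {n : ℤ} {i : ι} (h : X.deg i = n) : X.e n i = X.ε i := by simp [e, h]
lemma e_of_ne {n : ℤ} {i : ι} (h : X.deg i ≠ n) : X.e n i = 0 := by simp [e, h]
lemma e_idem (n : ℤ) (i : ι) : X.e n i * X.e n i = X.e n i := by
  unfold e; split_ifs <;> simp [X.idem]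
lemma e_mul_D (n : ℤ) (i j : ι) : X.e (n + 1) i * X.D i j = X.D i j * X.e n j := by
  by_cases h : X.D i j = 0
  · simp [h]
  · have := X.D_deg i j h
    by_cases h2 : X.deg j = n
    · rw [X.e_of_eq h2, X.e_of_eq (by omega), X.D_left, X.D_right]
    · rw [X.e_of_ne h2, X.e_of_ne (by omega)]; simp
lemma ε_mul_e (n : ℤ) (i : ι) : X.ε i * X.e n i = X.e n i := by
  unfold e; split_ifs <;> simp [X.idem]
lemma e_mul_ε (n : ℤ) (i : ι) : X.e n i * X.ε i = X.e n i := by
  unfold e; split_ifs <;> simp [X.idem]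

section Col

variable {Y : Type} [AddCommGroup Y] [Module S Y]

/-- cochains of degree `n` -/
def IsCol (n : ℤ) (w : ι → Y) : Prop := ∀ i, X.e n i • w i = w i

/-- the coboundary -/
noncomputable def δ (w : ι → Y) : ι → Y := fun i => linearCombination S w (X.D i)

lemma δ_apply (w : ι → Y) (i : ι) : X.δ w i = (X.D i).sum fun j s => s • w j := by
  simp [δ, linearCombination_apply]

lemma δ_add (w w' : ι → Y) : X.δ (w + w') = X.δ w + X.δ w' := by
  funext i; simp [δ_apply, smul_add, Finsupp.sum, Finset.sum_add_distrib]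
lemma δ_neg (w : ι → Y) : X.δ (-w) = - X.δ w := by
  funext i; simp [δ_apply, Finsupp.sum]
lemma δ_sub (w w' : ι → Y) : X.δ (w - w') = X.δ w - X.δ w' := by
  rw [sub_eq_add_neg, δ_add, δ_neg, sub_eq_add_neg]
@[simp] lemma δ_zero : X.δ (0 : ι → Y) = 0 := by
  funext i; simp [δ_apply]

lemma δ_smul {k : Type} [Monoid k] [DistribMulAction k Y] [SMulCommClass k S Y] (c : k)
    (w : ι → Y) : X.δ (c • w) = c • X.δ w := by
  funext i; simp [δ_apply, Finsupp.sum, Finset.smul_sum, smul_comm c]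

lemma δδ (w : ι → Y) : X.δ (X.δ w) = 0 := by
  funext i
  have h : linearCombination S (X.δ w) = (linearCombination S w).comp (linearCombination S X.D) := by
    ext j; simp [δ]
  show linearCombination S (X.δ w) (X.D i) = 0
  rw [h, LinearMap.comp_apply, X.DD, map_zero]

variable {X}

lemma IsCol.zero (n : ℤ) : X.IsCol n (0 : ι → Y) := fun i => by simp
lemma IsCol.add {n : ℤ} {w w' : ι → Y} (h : X.IsCol n w) (h' : X.IsCol n w') :
    X.IsCol n (w + w') := fun i => by simp [smul_add, h i, h' i]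
lemma IsCol.neg {n : ℤ} {w : ι → Y} (h : X.IsCol n w) : X.IsCol n (-w) := fun i => by
  simp [h i]
lemma IsCol.sub {n : ℤ} {w w' : ι → Y} (h : X.IsCol n w) (h' : X.IsCol n w') :
    X.IsCol n (w - w') := fun i => by simp [smul_sub, h i, h' i]
lemma IsCol.smul {k : Type} [Monoid k] [DistribMulAction k Y] [SMulCommClass k S Y] {n : ℤ}
    {w : ι → Y} (h : X.IsCol n w) (c : k) : X.IsCol n (c • w) := fun i => by
  simp [← smul_comm c, h i]
lemma IsCol.eq_zero {n : ℤ} {w : ι → Y} (h : X.IsCol n w) {i : ι} (hi : X.deg i ≠ n) :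
    w i = 0 := by rw [← h i, X.e_of_ne hi, zero_smul]
lemma IsCol.ε_smul {n : ℤ} {w : ι → Y} (h : X.IsCol n w) (i : ι) : X.ε i • w i = w i := by
  rw [← h i, smul_smul, X.ε_mul_e]
lemma isCol_of {n : ℤ} {w : ι → Y} (h1 : ∀ i, X.ε i • w i = w i)
    (h2 : ∀ i, X.deg i ≠ n → w i = 0) : X.IsCol n w := fun i => by
  by_cases h : X.deg i = n
  · rw [X.e_of_eq h, h1]
  · rw [h2 i h, smul_zero]
lemma isCol_proj (n : ℤ) (w : ι → Y) : X.IsCol n (fun i => X.e n i • w i) := fun i => by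
  simp [smul_smul, X.e_idem]

lemma e_smul_δ (n : ℤ) (w : ι → Y) (i : ι) :
    X.e (n + 1) i • X.δ w i = X.δ (fun j => X.e n j • w j) i := by
  simp [δ_apply, Finsupp.sum, Finset.smul_sum, smul_smul, X.e_mul_D]

lemma IsCol.δ {n : ℤ} {w : ι → Y} (h : X.IsCol n w) : X.IsCol (n + 1) (X.δ w) := fun i => by
  rw [e_smul_δ]; congr 1; funext j; exact h j
lemma IsCol.δ' {n : ℤ} {w : ι → Y} (h : X.IsCol (n - 1) w) : X.IsCol n (X.δ w) := by
  have := h.δ; rwa [sub_add_cancel] at this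

variable (X)

variable {Y' : Type} [AddCommGroup Y'] [Module S Y']

lemma δ_map (f : Y →ₗ[S] Y') (w : ι → Y) : X.δ (fun i => f (w i)) = fun i => f (X.δ w i) := by
  funext i; simp [δ_apply, Finsupp.sum, map_sum]

variable {X}
lemma IsCol.map {n : ℤ} {w : ι → Y} (h : X.IsCol n w) (f : Y →ₗ[S] Y') :
    X.IsCol n (fun i => f (w i)) := fun i => by rw [← map_smul, h i]

variable (X Y)
/-- vanishing of cohomology in degree `n` -/
def Van (n : ℤ) : Prop :=
  ∀ w : ι → Y, X.IsCol n w → X.δ w = 0 → ∃ w' : ι → Y, X.IsCol (n - 1) w' ∧ X.δ w' = w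

variable {Y}
/-- the cohomology in degree `n` is spanned by the class of `c` -/
def Gen (k : Type) [SMul k Y] (n : ℤ) (c : ι → Y) : Prop :=
  X.IsCol n c ∧ X.δ c = 0 ∧ ∀ w : ι → Y, X.IsCol n w → X.δ w = 0 →
    ∃ (a : k) (w' : ι → Y), X.IsCol (n - 1) w' ∧ w = a • c + X.δ w'

/-- `c` is a coboundary -/
def IsCob (n : ℤ) (c : ι → Y) : Prop := ∃ w' : ι → Y, X.IsCol (n - 1) w' ∧ X.δ w' = c

variable {X}

lemma Van.retract {n : ℤ} (h : X.Van Y' n) (f : Y →ₗ[S] Y') (g : Y' →ₗ[S] Y)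
    (hgf : ∀ y, g (f y) = y) : X.Van Y n := by
  intro w hw hδ
  obtain ⟨w', hw', h'⟩ := h (fun i => f (w i)) (hw.map f) (by rw [δ_map, hδ]; funext i; simp)
  refine ⟨fun i => g (w' i), hw'.map g, ?_⟩
  rw [δ_map, h']; funext i; simp [hgf]

lemma Van.sub_retract {n : ℤ} (h : X.Van Y' n) (W : Submodule S Y) (f : Y →ₗ[S] Y')
    (g : Y' →ₗ[S] Y) (hg : ∀ y, g y ∈ W) (hgf : ∀ y ∈ W, g (f y) = y) : X.Van W n :=
  h.retract (f.comp W.subtype) (g.codRestrict W hg) fun y => Subtype.ext (hgf y.1 y.2)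

lemma Van.pi {n : ℤ} {σ : Type} {Z : σ → Type} [∀ s, AddCommGroup (Z s)] [∀ s, Module S (Z s)]
    (h : ∀ s, X.Van (Z s) n) : X.Van (∀ s, Z s) n := by
  intro w hw hδ
  have := fun s => h s (fun i => w i s) (hw.map (LinearMap.proj s))
    (by have := X.δ_map (LinearMap.proj (R := S) (φ := Z) s) w
        simp only [LinearMap.coe_proj, Function.eval] at this
        rw [this, hδ]; rfl)
  choose w' hw' h' using this
  refine ⟨fun i s => w' s i, fun i => by funext s; exact hw' s i, ?_⟩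
  funext i s
  have := congrFun (X.δ_map (LinearMap.proj (R := S) (φ := Z) s) (fun i s => w' s i)) i
  simp only [LinearMap.coe_proj, Function.eval] at this
  rw [← this]; exact congrFun (h' s) i

lemma Van.prod {n : ℤ} (h : X.Van Y n) (h' : X.Van Y' n) : X.Van (Y × Y') n := by
  intro w hw hδ
  obtain ⟨a, ha, ha'⟩ := h (fun i => (w i).1) (hw.map (LinearMap.fst S Y Y'))
    (by have := X.δ_map (LinearMap.fst S Y Y') w
        simp only [LinearMap.coe_fst] at this
        rw [this, hδ]; rfl)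
  obtain ⟨b, hb, hb'⟩ := h' (fun i => (w i).2) (hw.map (LinearMap.snd S Y Y'))
    (by have := X.δ_map (LinearMap.snd S Y Y') w
        simp only [LinearMap.coe_snd] at this
        rw [this, hδ]; rfl)
  refine ⟨fun i => (a i, b i), fun i => Prod.ext (ha i) (hb i), ?_⟩
  funext i
  have h1 := congrFun (X.δ_map (LinearMap.fst S Y Y') (fun i => (a i, b i))) i
  have h2 := congrFun (X.δ_map (LinearMap.snd S Y Y') (fun i => (a i, b i))) i
  simp only [LinearMap.coe_fst, LinearMap.coe_snd] at h1 h2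
  exact Prod.ext (by rw [← h1]; exact congrFun ha' i) (by rw [← h2]; exact congrFun hb' i)

end Col

section SES

variable {A B C : Type} [AddCommGroup A] [Module S A] [AddCommGroup B] [Module S B]
  [AddCommGroup C] [Module S C]

/-- a sequence that is short exact on the parts seen by the idempotents of `X` -/
structure SES (f : A →ₗ[S] B) (g : B →ₗ[S] C) : Prop where
  inj : Function.Injective f
  comp : ∀ a, g (f a) = 0
  ex : ∀ i b, X.ε i • b = b → g b = 0 → ∃ a, f a = b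
  surj : ∀ i c, X.ε i • c = c → ∃ b, g b = c

variable {X} {f : A →ₗ[S] B} {g : B →ₗ[S] C}

lemma SES.lift (h : X.SES f g) {n : ℤ} {c : ι → C} (hc : X.IsCol n c) :
    ∃ b : ι → B, X.IsCol n b ∧ (fun i => g (b i)) = c := by
  choose b hb using fun i => h.surj i (c i) (hc.ε_smul i)
  refine ⟨fun i => X.e n i • b i, isCol_proj n b, ?_⟩
  funext i; rw [map_smul, hb, hc i]

lemma SES.pull (h : X.SES f g) {n : ℤ} {b : ι → B} (hb : X.IsCol n b)
    (hg : (fun i => g (b i)) = 0) : ∃ a : ι → A, X.IsCol n a ∧ (fun i => f (a i)) = b := by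
  choose a ha using fun i => h.ex i (b i) (hb.ε_smul i) (congrFun hg i)
  refine ⟨a, fun i => h.inj ?_, funext ha⟩
  rw [map_smul, ha, hb i]

lemma SES.δ_inj (h : X.SES f g) {a a' : ι → A} (ha : X.δ (fun i => f (a i)) = fun i => f (a' i)) :
    X.δ a = a' := by
  rw [δ_map] at ha
  funext i; exact h.inj (congrFun ha i)

/-- injectivity of `H^n A → H^n B` -/
lemma SES.cob_of_cob (h : X.SES f g) {n : ℤ} (hC : X.Van C (n - 1)) {w : ι → A}
    (hb : X.IsCob n (fun i => f (w i))) : X.IsCob n w := by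
  obtain ⟨b, hb, hb'⟩ := hb
  obtain ⟨c, hc, hc'⟩ := hC (fun i => g (b i)) (hb.map g)
    (by rw [δ_map, hb']; funext i; simp [h.comp])
  obtain ⟨b', hb1, rfl⟩ := h.lift hc
  obtain ⟨a, ha, ha'⟩ := h.pull (hb.sub hb1.δ') (by
    funext i; rw [δ_map] at hc'; have := congrFun hc' i; simp [this])
  exact ⟨a, ha, h.δ_inj (by rw [ha', δ_sub, δδ, hb', sub_zero])⟩

lemma SES.van₁ (h : X.SES f g) {n : ℤ} (hB : X.Van B n) (hC : X.Van C (n - 1)) : X.Van A n := by
  intro w hw hδ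
  exact h.cob_of_cob hC (hB _ (hw.map f) (by rw [δ_map, hδ]; funext i; simp))

lemma SES.van₂ (h : X.SES f g) {n : ℤ} (hA : X.Van A n) (hC : X.Van C n) : X.Van B n := by
  intro w hw hδ
  obtain ⟨c, hc, hc'⟩ := hC (fun i => g (w i)) (hw.map g) (by rw [δ_map, hδ]; funext i; simp)
  obtain ⟨b', hb1, rfl⟩ := h.lift hc
  obtain ⟨a, ha, ha'⟩ := h.pull (hw.sub hb1.δ') (by
    funext i; rw [δ_map] at hc'; have := congrFun hc' i; simp [this])
  obtain ⟨a', ha1, ha2⟩ := hA a ha (h.δ_inj (by rw [ha', δ_sub, δδ, hδ, sub_zero]; funext i; simp))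
  refine ⟨b' + fun i => f (a' i), hb1.add (ha1.map f), ?_⟩
  rw [δ_add, δ_map, ha2, ha']; simp

variable {k : Type} [Field k] [Module k A] [Module k B] [Module k C]
  [SMulCommClass k S A] [SMulCommClass k S B] [SMulCommClass k S C]

/-- transport of a generator along the connecting map -/
lemma SES.gen₁ (h : X.SES f g) (hf : ∀ (a : k) x, f (a • x) = a • f x)
    (hg : ∀ (a : k) x, g (a • x) = a • g x) {n : ℤ} (hB : X.Van B n) {b₀ : ι → B} {a₀ : ι → A}
    (hb₀ : X.IsCol (n - 1) b₀) (ha₀ : X.δ b₀ = fun i => f (a₀ i))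
    (hC : X.Gen k (n - 1) (fun i => g (b₀ i))) : X.Gen k n a₀ := by
  have hcol : X.IsCol n a₀ := fun i => h.inj (by
    have := hb₀.δ' i; rw [ha₀] at this; rw [map_smul]; exact this)
  refine ⟨hcol, h.δ_inj (by rw [← ha₀, δδ]; funext i; simp), ?_⟩
  intro w hw hδ
  obtain ⟨b, hb, hb'⟩ := hB _ (hw.map f) (by rw [δ_map, hδ]; funext i; simp)
  obtain ⟨a, c, hc, hc'⟩ := hC.2.2 (fun i => g (b i)) (hb.map g)
    (by rw [δ_map, hb']; funext i; simp [h.comp])
  obtain ⟨b', hb1, rfl⟩ := h.lift hc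
  obtain ⟨x, hx, hx'⟩ := h.pull ((hb.sub (hb₀.smul a)).sub hb1.δ') (by
    funext i; rw [δ_map] at hc'; have := congrFun hc' i
    simp only [Pi.add_apply, Pi.smul_apply] at this
    simp [this, hg])
  refine ⟨a, x, hx, ?_⟩
  have : X.δ x = w - a • a₀ := h.δ_inj (by
    rw [hx', δ_sub, δ_sub, δδ, hb', δ_smul, ha₀]; funext i; simp [hf])
  rw [this]; simp

lemma SES.exists_gen₁ (h : X.SES f g) (hf : ∀ (a : k) x, f (a • x) = a • f x)
    (hg : ∀ (a : k) x, g (a • x) = a • g x) {n : ℤ} (hB : X.Van B n)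
    (hC : ∃ c : ι → C, X.Gen k (n - 1) c) : ∃ a : ι → A, X.Gen k n a := by
  obtain ⟨c, hc⟩ := hC
  obtain ⟨b, hb, rfl⟩ := h.lift hc.1
  obtain ⟨a, -, ha'⟩ := h.pull hb.δ' (by rw [← δ_map]; exact hc.2.1)
  exact ⟨a, h.gen₁ hf hg hB hb ha'.symm hc⟩

omit [Module k B] [Module k C] [SMulCommClass k S B] [SMulCommClass k S C] in
/-- a nonzero class generates a cohomology group of dimension at most one -/
lemma Gen.of_not_cob {n : ℤ} {c c' : ι → A} (hc : X.Gen k n c) (h1 : X.IsCol n c')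
    (h2 : X.δ c' = 0) (h3 : ¬ X.IsCob n c') : X.Gen k n c' := by
  refine ⟨h1, h2, fun w hw hδ => ?_⟩
  obtain ⟨a, x, hx, hx'⟩ := hc.2.2 c' h1 h2
  obtain ⟨b, y, hy, hy'⟩ := hc.2.2 w hw hδ
  have ha : a ≠ 0 := by
    rintro rfl
    exact h3 ⟨x, hx, by rw [hx']; simp⟩
  refine ⟨b / a, y - (b / a) • x, hy.sub (hx.smul _), ?_⟩
  rw [δ_sub, δ_smul, hy', hx', smul_add, smul_smul, div_mul_cancel₀ _ ha]; abel

omit [Module k C] [SMulCommClass k S C] in
lemma SES.exists_gen_sub (h : X.SES f g) (hf : ∀ (a : k) x, f (a • x) = a • f x)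
    {n : ℤ} (hC : X.Van C (n - 1)) (hB : ∃ b : ι → B, X.Gen k n b) :
    ∃ a : ι → A, X.Gen k n a := by
  obtain ⟨b, hb⟩ := hB
  by_cases hA : ∃ a : ι → A, X.IsCol n a ∧ X.δ a = 0 ∧ ¬ X.IsCob n a
  · obtain ⟨a, ha, ha', ha''⟩ := hA
    have hb' : X.Gen k n (fun i => f (a i)) := hb.of_not_cob (ha.map f)
      (by rw [δ_map, ha']; funext i; simp) (fun hh => ha'' (h.cob_of_cob hC hh))
    refine ⟨a, ha, ha', fun w hw hδ => ?_⟩
    obtain ⟨c, y, hy, hy'⟩ := hb'.2.2 _ (hw.map f) (by rw [δ_map, hδ]; funext i; simp)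
    obtain ⟨x, hx, hx'⟩ := h.cob_of_cob hC (w := w - c • a) ⟨y, hy, by
      funext i; have := congrFun hy' i
      simp only [Pi.add_apply, Pi.smul_apply] at this
      simp [this, hf]⟩
    exact ⟨c, x, hx, by rw [hx']; simp⟩
  · push Not at hA
    refine ⟨0, IsCol.zero n, X.δ_zero, fun w hw hδ => ?_⟩
    obtain ⟨x, hx, hx'⟩ := hA w hw hδ
    exact ⟨0, x, hx, by rw [hx']; simp⟩

end SES

end Dat

end Vale.Agent.P195
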