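import Vale.Agent.P195.Row

/-! Linear maps out of an algebra as bimodules, and duality between rows and cochains. -/

namespace Vale.Agent.P195

open Finsupp MulOpposite

attribute [-simp] Finsupp.single_mul

/-- `k`-linear maps `S → V` -/
@[ext] structure Hm (k S V : Type) [Field k] [Ring S] [Algebra k S] [AddCommGroup V]
    [Module k V] where
  lin : S →ₗ[k] V

namespace Hm

variable {k S V : Type} [Field k] [Ring S] [Algebra k S] [AddCommGroup V] [Module k V]

/-- the tautological equivalence -/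
def equiv : Hm k S V ≃ (S →ₗ[k] V) := ⟨lin, mk, fun _ => rfl, fun _ => rfl⟩

instance : AddCommGroup (Hm k S V) := equiv.addCommGroup
instance : Module k (Hm k S V) := equiv.module k

@[simp] lemma lin_add (a b : Hm k S V) : (a + b).lin = a.lin + b.lin := rfl
@[simp] lemma lin_zero : (0 : Hm k S V).lin = 0 := rfl
@[simp] lemma lin_neg (a : Hm k S V) : (-a).lin = -a.lin := rfl
@[simp] lemma lin_sub (a b : Hm k S V) : (a - b).lin = a.lin - b.lin := rfl
@[simp] lemma lin_smul (c : k) (a : Hm k S V) : (c • a).lin = c • a.lin := rfl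

/-- the tautological linear equivalence -/
def lequiv : Hm k S V ≃ₗ[k] (S →ₗ[k] V) :=
  { equiv with map_add' := fun _ _ => rfl, map_smul' := fun _ _ => rfl }

lemma lin_sum {α : Type} (s : Finset α) (f : α → Hm k S V) :
    (∑ a ∈ s, f a).lin = ∑ a ∈ s, (f a).lin := map_sum (lequiv (k := k) (S := S) (V := V)) f s

instance [FiniteDimensional k S] [FiniteDimensional k V] : FiniteDimensional k (Hm k S V) :=
  lequiv.symm.finiteDimensional

instance : SMul Sᵐᵒᵖ (Hm k S V) := ⟨fun r F => ⟨F.lin ∘ₗ LinearMap.mulLeft k r.unop⟩⟩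
@[simp] lemma lin_op_smul (r : Sᵐᵒᵖ) (F : Hm k S V) (x : S) :
    (r • F).lin x = F.lin (r.unop * x) := rfl

instance : Module Sᵐᵒᵖ (Hm k S V) where
  one_smul F := by ext; simp
  mul_smul a b F := by ext; simp [mul_assoc]
  smul_zero a := by ext; simp
  smul_add a F G := by ext; simp
  add_smul a b F := by ext; simp [add_mul]
  zero_smul F := by ext; simp

instance : SMulCommClass k Sᵐᵒᵖ (Hm k S V) := ⟨fun a b F => by ext; simp⟩
instance : IsScalarTower k Sᵐᵒᵖ (Hm k S V) := ⟨fun a b F => by ext; simp⟩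

instance : SMul S (Hm k S k) := ⟨fun r F => ⟨F.lin ∘ₗ LinearMap.mulRight k r⟩⟩
@[simp] lemma lin_smul_dual (r : S) (F : Hm k S k) (x : S) : (r • F).lin x = F.lin (x * r) := rfl

instance : Module S (Hm k S k) where
  one_smul F := by ext; simp
  mul_smul a b F := by ext; simp [mul_assoc]
  smul_zero a := by ext; simp
  smul_add a F G := by ext; simp
  add_smul a b F := by ext; simp [mul_add]
  zero_smul F := by ext; simp

instance : SMulCommClass S Sᵐᵒᵖ (Hm k S k) := ⟨fun a b F => by ext; simp [mul_assoc]⟩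
instance : SMulCommClass k S (Hm k S k) := ⟨fun a b F => by ext; simp⟩
instance : SMulCommClass S k (Hm k S k) := ⟨fun a b F => by ext; simp⟩
instance : IsScalarTower k S (Hm k S k) := ⟨fun a b F => by ext; simp⟩

instance : SMul S (Hm k S S) := ⟨fun r F => ⟨LinearMap.mulLeft k r ∘ₗ F.lin⟩⟩
@[simp] lemma lin_smul_end (r : S) (F : Hm k S S) (x : S) : (r • F).lin x = r * F.lin x := rfl

instance : Module S (Hm k S S) where
  one_smul F := by ext; simp
  mul_smul a b F := by ext; simp [mul_assoc]
  smul_zero a := by ext; simp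
  smul_add a F G := by ext; simp [mul_add]
  add_smul a b F := by ext; simp [add_mul]
  zero_smul F := by ext; simp

instance : SMulCommClass S Sᵐᵒᵖ (Hm k S S) := ⟨fun a b F => by ext; simp⟩
instance : SMulCommClass k S (Hm k S S) := ⟨fun a b F => by ext; simp⟩
instance : SMulCommClass S k (Hm k S S) := ⟨fun a b F => by ext; simp⟩
instance : IsScalarTower k S (Hm k S S) := ⟨fun a b F => by ext; simp⟩

end Hm

lemma exists_factor {k U V W : Type} [Field k] [AddCommGroup U] [Module k U] [AddCommGroup V]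
    [Module k V] [AddCommGroup W] [Module k W] (f : U →ₗ[k] V) (g : U →ₗ[k] W)
    (h : ∀ u, f u = 0 → g u = 0) : ∃ g' : V →ₗ[k] W, ∀ u, g' (f u) = g u := by
  have h' : LinearMap.ker f ≤ LinearMap.ker g := h
  obtain ⟨g', hg'⟩ := LinearMap.exists_extend
    (((LinearMap.ker f).liftQ g h') ∘ₗ f.quotKerEquivRange.symm.toLinearMap)
  refine ⟨g', fun u => ?_⟩
  have := LinearMap.congr_fun hg' ⟨f u, LinearMap.mem_range_self f u⟩
  simp only [LinearMap.comp_apply, Submodule.subtype_apply, LinearEquiv.coe_coe] at this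
  rw [this, LinearMap.quotKerEquivRange_symm_apply_image]; rfl

namespace Dat

variable {k S : Type} [Field k] [Ring S] [Algebra k S] {ι : Type} (X : Dat S ι)

/-- the dual of the regular module is acyclic where the row complex is exact -/
lemma van_dual {n : ℤ} (h : X.RowExact S n) : X.Van (Hm k S k) n := by
  intro w hw hδ
  let ev : Hm k S k →ₗ[k] k := (LinearMap.applyₗ (1 : S)) ∘ₗ Hm.lequiv.toLinearMap
  let Ψ : (ι →₀ S) →ₗ[k] k := ev ∘ₗ (linearCombination S w).restrictScalars k
  obtain ⟨Ψ', hΨ'⟩ := exists_factor (X.rdL S k ∘ₗ X.prL S k n) (Ψ ∘ₗ X.prL S k n) (by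
    intro u hu
    obtain ⟨u', -, hu'⟩ := h _ (X.isRow_pr n u) hu
    simp only [LinearMap.comp_apply, prL_apply, Ψ, LinearMap.restrictScalars_apply]
    rw [← hu', lc_rd, hδ]; simp)
  let w' : ι → Hm k S k := fun i =>
    ⟨Ψ' ∘ₗ (Finsupp.lsingle i) ∘ₗ LinearMap.mulRight k (X.e (n - 1) i)⟩
  have hw' : X.IsCol (n - 1) w' := fun i => by
    ext x; simp [w', mul_assoc, X.e_idem]
  refine ⟨w', hw', ?_⟩
  funext i
  by_cases hi : X.deg i = n
  · ext x
    have h1 := hΨ' (single i x)
    simp only [LinearMap.comp_apply, prL_apply, rdL_apply, pr_single, rd_single, rrow_self,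
      op_smul_eq_mul, Ψ, LinearMap.restrictScalars_apply, linearCombination_single, mul_smul,
      hw i] at h1
    have h2 : ev (x • w i) = (w i).lin x := by simp [ev, Hm.lequiv, Hm.equiv]
    rw [← h2, ← h1, X.e_of_eq hi, ε_smul_D, δ_apply, Finsupp.sum, Hm.lin_sum]
    have h3 : x • X.D i = ∑ j ∈ (X.D i).support, single j (x * X.D i j * X.e (n - 1) j) := by
      conv_lhs => rw [← (X.D i).sum_single, Finsupp.sum, Finset.smul_sum]
      refine Finset.sum_congr rfl fun j _ => ?_
      rw [smul_single, smul_eq_mul, mul_assoc, ← X.e_mul_D, sub_add_cancel, X.e_of_eq hi,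
        X.D_left]
    rw [h3, map_sum]; simp [w']
  · rw [hw.eq_zero hi, hw'.δ'.eq_zero hi]

variable {V : Type} [AddCommGroup V] [Module k V]

/-- pairing of a row of linear maps with a cochain -/
noncomputable def pair : (ι →₀ Hm k S V) →ₗ[k] ((ι → S) →ₗ[k] V) :=
  Finsupp.lsum k fun i => (LinearMap.lcomp k V (LinearMap.proj i)) ∘ₗ Hm.lequiv.toLinearMap

@[simp] lemma pair_single (i : ι) (F : Hm k S V) (w : ι → S) :
    pair (single i F) w = F.lin (w i) := by simp [pair, Hm.lequiv, Hm.equiv]

lemma pair_rrow (x : ι →₀ S) (F : Hm k S V) (w : ι → S) :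
    pair (rrow x F) w = F.lin (linearCombination S w x) := by
  induction x using Finsupp.induction_linear with
  | zero => have : rrow (0 : ι →₀ S) F = 0 := by ext; simp
            simp [this]
  | add x y hx hy =>
    have : rrow (x + y) F = rrow x F + rrow y F := by ext; simp [add_mul]
    simp [this, hx, hy]
  | single j s =>
    have : rrow (single j s) F = single j (op s • F) := by
      classical
      ext i; simp only [rrow_apply, single_apply]; split_ifs <;> simp
    simp [this]

lemma pair_rd (v : ι →₀ Hm k S V) (w : ι → S) : pair (X.rd v) w = pair v (X.δ w) := by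
  induction v using Finsupp.induction_linear with
  | zero => simp
  | add a b ha hb => simp [ha, hb]
  | single j b => simp [pair_rrow, δ]

lemma pair_pr (n : ℤ) (v : ι →₀ Hm k S V) (w : ι → S) :
    pair (X.pr n v) w = pair v (fun i => X.e n i • w i) := by
  induction v using Finsupp.induction_linear with
  | zero => simp
  | add a b ha hb => simp [ha, hb]
  | single j b => simp

lemma pair_smul_end (r : S) (v : ι →₀ Hm k S S) (w : ι → S) :
    pair (r • v) w = r * pair v w := by
  induction v using Finsupp.induction_linear with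
  | zero => simp
  | add a b ha hb => simp [ha, hb, mul_add]
  | single j b => simp

lemma pair_smul_dual (r : S) (v : ι →₀ Hm k S k) (w : ι → S) :
    pair (r • v) w = pair v (fun i => w i * r) := by
  induction v using Finsupp.induction_linear with
  | zero => simp
  | add a b ha hb => simp [ha, hb]
  | single j b => simp

open Classical in
/-- the row of degree `n` attached to a linear map on cochains -/
noncomputable def rowOf (h : X.FinDeg) (n : ℤ) : ((ι → S) →ₗ[k] V) →ₗ[k] (ι →₀ Hm k S V) :=
  ∑ i ∈ h.fib n, Finsupp.lsingle i ∘ₗ Hm.lequiv.symm.toLinearMap ∘ₗ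
    LinearMap.lcomp k V (LinearMap.single k (fun _ => S) i ∘ₗ LinearMap.mulLeft k (X.ε i))

open Classical in
lemma rowOf_apply (h : X.FinDeg) (n : ℤ) (Ψ : (ι → S) →ₗ[k] V) (i : ι) (x : S) :
    (X.rowOf h n Ψ i).lin x = Ψ (Pi.single i (X.e n i * x)) := by
  simp only [rowOf, LinearMap.sum_apply, LinearMap.comp_apply, lsingle_apply,
    Finsupp.finset_sum_apply, single_apply]
  rw [Finset.sum_ite_eq']
  split_ifs with hi
  · rw [X.e_of_eq (by simpa using hi)]; rfl
  · rw [X.e_of_ne (by simpa using hi)]; simp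

lemma isRow_rowOf (h : X.FinDeg) (n : ℤ) (Ψ : (ι → S) →ₗ[k] V) : X.IsRow n (X.rowOf h n Ψ) :=
  X.isRow_iff.2 fun i => by ext x; simp [rowOf_apply, ← mul_assoc, X.e_idem]

lemma rowOf_pair (h : X.FinDeg) {n : ℤ} {v : ι →₀ Hm k S V} (hv : X.IsRow n v) :
    X.rowOf h n (pair v) = v := by
  classical
  ext i x
  rw [rowOf_apply, ← X.isRow_iff.1 hv i]
  clear hv
  induction v using Finsupp.induction_linear with
  | zero => simp
  | add a b ha hb => simp [ha, hb]
  | single j b =>
    by_cases hij : j = i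
    · subst hij; simp
    · simp [Pi.single_apply, hij]

lemma pair_rowOf (h : X.FinDeg) (n : ℤ) (Ψ : (ι → S) →ₗ[k] V) (w : ι → S) :
    pair (X.rowOf h n Ψ) w = Ψ (fun i => X.e n i • w i) := by
  classical
  rw [IsRow.eq_sum h (X.isRow_rowOf h n Ψ), map_sum, LinearMap.sum_apply]
  simp only [pair_single, rowOf_apply]
  rw [← map_sum]
  congr 1
  funext j
  simp only [Finset.sum_apply, Pi.single_apply]
  rw [Finset.sum_ite_eq]
  split_ifs with hj
  · rfl
  · rw [X.e_of_ne (by simpa using hj)]; simp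

variable {X} in
lemma IsRow.eq_of_pair (h : X.FinDeg) {n : ℤ} {v v' : ι →₀ Hm k S V} (hv : X.IsRow n v)
    (hv' : X.IsRow n v') (hp : ∀ w, X.IsCol n w → pair v w = pair v' w) : v = v' := by
  rw [← X.rowOf_pair h hv, ← X.rowOf_pair h hv']
  congr 1
  refine LinearMap.ext fun w => ?_
  rw [← hv, ← hv', pair_pr, pair_pr]
  exact hp _ (isCol_proj n w)

variable (k) in
/-- the coboundary as a linear map -/
noncomputable def δL : (ι → S) →ₗ[k] (ι → S) where
  toFun := X.δ
  map_add' := X.δ_add
  map_smul' := X.δ_smul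

variable (k) in
/-- projection onto cochains of degree `n` -/
noncomputable def cpr (n : ℤ) : (ι → S) →ₗ[k] (ι → S) where
  toFun w i := X.e n i • w i
  map_add' a b := by funext i; simp [mul_add]
  map_smul' a b := by funext i; simp

lemma exists_rd_of_pair (h : X.FinDeg) {n : ℤ} {v : ι →₀ Hm k S V} (hv : X.IsRow n v)
    (hp : ∀ w, X.IsCol n w → X.δ w = 0 → pair v w = 0) :
    ∃ u, X.IsRow (n + 1) u ∧ X.rd u = v := by
  obtain ⟨Ψ', hΨ'⟩ := exists_factor (X.δL k ∘ₗ X.cpr k n) (pair v ∘ₗ X.cpr k n)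
    (fun u hu => hp _ (isCol_proj n u) hu)
  refine ⟨_, X.isRow_rowOf h (n + 1) Ψ', IsRow.eq_of_pair h (X.isRow_rowOf h _ Ψ').rd hv ?_⟩
  intro w hw
  rw [pair_rd, pair_rowOf]
  have h1 := hΨ' w
  have h2 : X.cpr k n w = w := funext hw
  simp only [LinearMap.comp_apply, h2] at h1
  rw [← h1]; congr 1; exact funext hw.δ

lemma rowExact_Hm (h : X.FinDeg) {n : ℤ} (hS : X.Van S n) : X.RowExact (Hm k S V) n := by
  intro v hv hd
  refine X.exists_rd_of_pair h hv fun w hw hδ => ?_
  obtain ⟨w', -, rfl⟩ := hS w hw hδ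
  rw [← pair_rd, hd]; simp

/-- maps into `S` form an acyclic module where `S` is acyclic -/
lemma van_linearMap {n : ℤ} (hS : X.Van S n) (W : Type) [AddCommGroup W] [Module k W] :
    X.Van (W →ₗ[k] S) n := by
  let b := Module.Basis.ofVectorSpace k W
  refine (Van.pi (σ := Module.Basis.ofVectorSpaceIndex k W) (Z := fun _ => S)
    fun _ => hS).retract (b.constr S).symm.toLinearMap (b.constr S).toLinearMap ?_
  intro y; simp

end Dat

end Vale.Agent.P195
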