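import Vale.Agent.P195.Row

/-! From cochains to `Ext` groups and projective dimensions. -/

namespace Vale.Agent.P195

open Finsupp MulOpposite CategoryTheory Abelian

attribute [-simp] Finsupp.single_mul

namespace Dat

variable {S : Type} [Ring S] {ι : Type} (X : Dat S ι) {Y : Type} [AddCommGroup Y] [Module S Y]

/-- generators of the rows -/
noncomputable def gn (n : ℤ) (i : ι) : X.Row S S n :=
  ⟨single i (X.e n i), by rw [mem_Row, IsRow, pr_single, op_smul_eq_mul, X.e_idem]⟩

lemma lc_gn (n : ℤ) (u : X.Row S S n) : linearCombination S (X.gn n) u.1 = u := by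
  apply Subtype.ext
  have : ∀ v : ι →₀ S, (linearCombination S (X.gn n) v).1 = X.pr n v := by
    intro v
    induction v using Finsupp.induction_linear with
    | zero => simp
    | add a b ha hb => simp [ha, hb]
    | single i s => simp [gn]
  rw [this]; exact u.2

lemma isCol_gn (n : ℤ) : X.IsCol n (X.gn n) := fun i => Subtype.ext (by simp [gn, X.e_idem])

lemma lc_map {Y' : Type} [AddCommGroup Y'] [Module S Y'] (f : Y →ₗ[S] Y') (w : ι → Y)
    (v : ι →₀ S) : linearCombination S (fun i => f (w i)) v = f (linearCombination S w v) := by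
  induction v using Finsupp.induction_linear with
  | zero => simp
  | add a b ha hb => simp [ha, hb]
  | single i s => simp

lemma exists_extend {n : ℤ} (hV : X.Van Y (n + 1)) (f : X.Bd S S n →ₗ[S] Y) :
    ∃ g : X.Row S S n →ₗ[S] Y, g ∘ₗ Submodule.inclusion (Bd_le_Row n) = f := by
  let f' := f ∘ₗ X.toBd S S n
  obtain ⟨w, -, hw⟩ := hV (fun i => f' (X.gn (n + 1) i)) ((X.isCol_gn _).map f') (by
    rw [δ_map]
    funext i
    have : X.toBd S S n (X.δ (X.gn (n + 1)) i) = 0 := by
      apply Subtype.ext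
      have h1 := congrFun (X.δ_map ((X.rdL S S).domRestrict (X.Row S S (n + 1))) (X.gn (n + 1))) i
      refine h1.symm.trans ?_
      simp only [LinearMap.domRestrict_apply, gn, rdL_apply, rd_single, rrow_self]
      rw [← e_smul_δ]
      have h2 : X.δ X.D i = 0 := X.DD i
      rw [h2]; simp
    simp [f', this])
  refine ⟨linearCombination S w ∘ₗ (X.Row S S n).subtype, LinearMap.ext ?_⟩
  rintro ⟨b, u, hu, rfl⟩
  show linearCombination S w (X.rd u) = f' ⟨u, hu⟩
  rw [lc_rd, hw, lc_map]
  exact congrArg f' (X.lc_gn (n + 1) ⟨u, hu⟩)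

instance projective_Row (n : ℤ) : Module.Projective S (X.Row S S n) :=
  Module.Projective.of_split (X.Row S S n).subtype
    ((X.prL S S n).codRestrict _ fun v => X.isRow_pr n v)
    (LinearMap.ext fun v => Subtype.ext v.2)

lemma exact_bd {n : ℤ} (h : X.RowExact S (n + 1)) :
    Function.Exact (Submodule.inclusion (Bd_le_Row (X := X) (B := S) (S' := S) (n + 1)))
      (X.toBd S S n) := by
  intro v
  constructor
  · intro hv
    exact ⟨⟨v.1, h v.1 v.2 (congrArg Subtype.val hv)⟩, rfl⟩
  · rintro ⟨b, rfl⟩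
    exact Subtype.ext (Bd_le_Cyc _ b.2).2

lemma toBd_surj (n : ℤ) : Function.Surjective (X.toBd S S n) := by
  rintro ⟨c, w, hw, rfl⟩
  exact ⟨⟨w, hw⟩, rfl⟩

theorem ext_eq_zero (a : ℤ) (hex : ∀ n, a + 1 ≤ n → X.RowExact S n)
    (hV : ∀ n, a + 2 ≤ n → X.Van Y n) (i : ℕ) : ∀ n, a ≤ n →
    ∀ e : Ext (ModuleCat.of S (X.Bd S S n)) (ModuleCat.of S Y) (i + 1), e = 0 := by
  have key : ∀ n, a ≤ n → (ModuleCat.shortComplexOfCompEqZero
      (Submodule.inclusion (Bd_le_Row (X := X) (B := S) (S' := S) (n + 1))) (X.toBd S S n)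
      (LinearMap.ext fun b => Subtype.ext (Bd_le_Cyc _ b.2).2)).ShortExact := fun n hn =>
    ModuleCat.shortComplex_shortExact _ (X.exact_bd (hex _ (by omega)))
      (Submodule.inclusion_injective (Bd_le_Row (n + 1))) (X.toBd_surj n)
  induction i with
  | zero =>
    intro n hn e
    obtain ⟨y, rfl⟩ := Ext.contravariant_sequence_exact₃ (key n hn) _ e
      (Ext.eq_zero_of_projective _) (n₀ := 0) rfl
    obtain ⟨f, rfl⟩ := (Ext.mk₀_bijective _ _).2 y
    obtain ⟨g, hg⟩ := X.exists_extend (hV (n + 1 + 1) (by omega)) f.hom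
    have : f = ModuleCat.ofHom (Submodule.inclusion (Bd_le_Row (n + 1))) ≫ ModuleCat.ofHom g :=
      ModuleCat.hom_ext hg.symm
    rw [this, ← Ext.mk₀_comp_mk₀]
    exact (key n hn).extClass_comp_assoc _
  | succ i ih =>
    intro n hn e
    obtain ⟨y, rfl⟩ := Ext.contravariant_sequence_exact₃ (key n hn) _ e
      (Ext.eq_zero_of_projective _) (n₀ := i + 1) (by omega)
    rw [ih (n + 1) (by omega) y, Ext.comp_zero]

lemma van_of_projective {n : ℤ} (h : X.Van S n) [Module.Finite S Y] [Module.Projective S Y] :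
    X.Van Y n := by
  obtain ⟨m, f, g, -, -, hfg⟩ := Module.Finite.exists_comp_eq_id_of_projective S Y
  exact (Van.pi (σ := Fin m) (Z := fun _ => S) fun _ => h).retract g f (LinearMap.congr_fun hfg)

lemma finite_Row {k : Type} [Field k] [Algebra k S] [FiniteDimensional k S] (h : X.FinDeg)
    (n : ℤ) : FiniteDimensional k (X.Row S S n) :=
  FiniteDimensional.of_injective
    ((LinearMap.pi fun i : h.fib n => Finsupp.lapply i.1) ∘ₗ
      ((X.Row S S n).subtype.restrictScalars k)) (by
      rw [injective_iff_map_eq_zero]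
      intro w hw
      refine Subtype.ext (Finsupp.ext fun i => ?_)
      by_cases hi : X.deg i = n
      · exact congrFun hw ⟨i, by simpa using hi⟩
      · exact IsRow.eq_zero w.2 hi)

lemma finite_Bd {k : Type} [Field k] [Algebra k S] [FiniteDimensional k S] (h : X.FinDeg)
    (n : ℤ) : FiniteDimensional k (X.Bd S S n) :=
  haveI := X.finite_Row (k := k) h n
  FiniteDimensional.of_injective
    ((Submodule.inclusion (Bd_le_Row (X := X) (B := S) (S' := S) n)).restrictScalars k)
    (Submodule.inclusion_injective (Bd_le_Row n))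

end Dat

section Endo

variable {S G B : Type} [Ring S] [AddCommGroup G] [Module S G] [AddCommGroup B] [Module S B]

lemma projective_hom {α : Type} [Fintype α] (u : α → G →ₗ[S] B) (s : α → B →ₗ[S] G)
    (h : ∑ l, u l ∘ₗ s l = LinearMap.id) : Module.Projective (Module.End S G) (B →ₗ[S] G) := by
  classical
  refine Module.Projective.of_split (M := α → Module.End S G)
    { toFun := fun f l => f ∘ₗ u l, map_add' := fun _ _ => rfl, map_smul' := fun _ _ => rfl }
    { toFun := fun γ => ∑ l, γ l ∘ₗ s l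
      map_add' := fun a b => by simp [LinearMap.add_comp, Finset.sum_add_distrib]
      map_smul' := fun a b => by rw [RingHom.id_apply, Finset.smul_sum]; rfl } ?_
  refine LinearMap.ext fun f => LinearMap.ext fun b => ?_
  have := congrArg f (LinearMap.congr_fun h b)
  simpa [map_sum] using this

/-- precomposition as a map of modules over the endomorphism ring -/
def preL {B' : Type} [AddCommGroup B'] [Module S B'] (f : B →ₗ[S] B') :
    (B' →ₗ[S] G) →ₗ[Module.End S G] (B →ₗ[S] G) where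
  toFun g := g ∘ₗ f
  map_add' _ _ := rfl
  map_smul' _ _ := rfl

lemma exists_ret {N0 N1 N2 : Type} [AddCommGroup N0] [Module S N0] [AddCommGroup N1] [Module S N1]
    [AddCommGroup N2] [Module S N2] {f : N0 →ₗ[S] N1} {g : N1 →ₗ[S] N2} (h : Function.Exact f g)
    (hf : Function.Injective f) (hg : Function.Surjective g) [Module.Projective S N2] :
    ∃ r : N1 →ₗ[S] N0, ∀ x, r (f x) = x := by
  have h1 := Module.projective_lifting_property g LinearMap.id hg
  obtain ⟨r, hr⟩ : ∃ l : N1 →ₗ[S] N0, l ∘ₗ f = LinearMap.id := ((h.split_tfae hf hg).out 0 1).1 h1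
  exact ⟨r, LinearMap.congr_fun hr⟩

end Endo

namespace Dat

variable {S : Type} [Ring S] {ι : Type} (X : Dat S ι)

variable {G : Type} [AddCommGroup G] [Module S G]

lemma exists_us (hfin : X.FinDeg) (i₀ : S →ₗ[S] G) (p₀ : G →ₗ[S] S) (h₀ : ∀ x, p₀ (i₀ x) = x)
    (n : ℤ) : ∃ (u : hfin.fib n → G →ₗ[S] X.Row S S n) (s : hfin.fib n → X.Row S S n →ₗ[S] G),
      ∑ l, u l ∘ₗ s l = LinearMap.id := by
  refine ⟨fun l => (X.prL S S n).codRestrict _ (fun v => X.isRow_pr n v) ∘ₗ
    Finsupp.lsingle l.1 ∘ₗ p₀, fun l => i₀ ∘ₗ Finsupp.lapply l.1 ∘ₗ (X.Row S S n).subtype, ?_⟩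
  refine LinearMap.ext fun v => Subtype.ext ?_
  rw [LinearMap.sum_apply, Submodule.coe_sum]
  show ∑ l : hfin.fib n, X.pr n (single l.1 (p₀ (i₀ (v.1 l.1)))) = v.1
  simp only [h₀]
  rw [← map_sum, Finset.sum_coe_sort (hfin.fib n) (fun i => single i (v.1 i)),
    ← IsRow.eq_sum hfin v.2]
  exact v.2

variable (G) in
/-- restriction along the differential -/
noncomputable def preD (n : ℤ) :
    (X.Bd S S n →ₗ[S] G) →ₗ[Module.End S G] (X.Row S S (n + 1) →ₗ[S] G) := preL (X.toBd S S n)

variable (G) in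
/-- restriction to boundaries -/
noncomputable def preI (n : ℤ) :
    (X.Row S S n →ₗ[S] G) →ₗ[Module.End S G] (X.Bd S S n →ₗ[S] G) :=
  preL (Submodule.inclusion (Bd_le_Row n))

lemma exact_pre {n : ℤ} (hex : X.RowExact S (n + 1)) :
    Function.Exact (X.preD G n) (X.preI G (n + 1)) := by
  intro f
  constructor
  · intro hf
    have hk : LinearMap.ker (X.toBd S S n) ≤ LinearMap.ker f := by
      intro v hv
      obtain ⟨b, rfl⟩ := (X.exact_bd hex v).1 hv
      exact LinearMap.congr_fun hf b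
    refine ⟨((LinearMap.ker (X.toBd S S n)).liftQ f hk) ∘ₗ
      ((X.toBd S S n).quotKerEquivOfSurjective (X.toBd_surj n)).symm.toLinearMap,
      LinearMap.ext fun v => ?_⟩
    have : ((X.toBd S S n).quotKerEquivOfSurjective (X.toBd_surj n)).symm (X.toBd S S n v) =
        Submodule.Quotient.mk v := by
      rw [LinearEquiv.symm_apply_eq]; rfl
    show (LinearMap.ker (X.toBd S S n)).liftQ f hk
      (((X.toBd S S n).quotKerEquivOfSurjective (X.toBd_surj n)).symm (X.toBd S S n v)) = f v
    rw [this]; rfl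
  · rintro ⟨g, rfl⟩
    refine LinearMap.ext fun b => ?_
    show g (X.toBd S S n (Submodule.inclusion _ b)) = 0
    rw [(X.exact_bd hex).apply_apply_eq_zero, map_zero]

lemma preD_inj (n : ℤ) : Function.Injective (X.preD G n) := by
  intro f g h
  refine LinearMap.ext fun b => ?_
  obtain ⟨v, rfl⟩ := X.toBd_surj n b
  exact LinearMap.congr_fun h v

lemma preI_surj {n : ℤ} (h : X.Van G (n + 1)) : Function.Surjective (X.preI G n) :=
  fun f => X.exists_extend h f

lemma projective_of_hom (hfin : X.FinDeg) (i₀ : S →ₗ[S] G) (p₀ : G →ₗ[S] S)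
    (h₀ : ∀ x, p₀ (i₀ x) = x) {a : ℤ} (j : X.Bd S S a →ₗ[S] G) (hj : Function.Injective j)
    (ret : (X.Row S S (a + 1) →ₗ[S] G) →ₗ[Module.End S G] (X.Bd S S a →ₗ[S] G))
    (hret : ∀ x, ret (X.preD G a x) = x) : Module.Projective S (X.Bd S S a) := by
  obtain ⟨u, s, hus⟩ := X.exists_us hfin i₀ p₀ h₀ (a + 1)
  refine Module.Projective.of_split (∑ l, u l ∘ₗ ret (s l)) (X.toBd S S a) ?_
  let γ : hfin.fib (a + 1) → Module.End S G := fun l => j ∘ₗ X.toBd S S a ∘ₗ u l
  have h2 : ∑ l, γ l • s l = X.preD G a j := by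
    refine LinearMap.ext fun v => ?_
    have := congrArg (fun w => j (X.toBd S S a w)) (LinearMap.congr_fun hus v)
    simp only [LinearMap.sum_apply, map_sum] at this ⊢
    exact this
  have h3 : ∑ l, γ l • ret (s l) = j := by
    rw [← hret j, ← h2, map_sum]
    exact Finset.sum_congr rfl fun l _ => (ret.map_smul _ _).symm
  refine LinearMap.ext fun z => hj ?_
  have := LinearMap.congr_fun h3 z
  simp only [LinearMap.sum_apply, LinearMap.comp_apply, map_sum] at this ⊢
  exact this

lemma pd_main (hfin : X.FinDeg) (i₀ : S →ₗ[S] G) (p₀ : G →ₗ[S] S)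
    (h₀ : ∀ x, p₀ (i₀ x) = x) {a : ℤ} (j : X.Bd S S a →ₗ[S] G) (p : G →ₗ[S] X.Bd S S a)
    (hj : ∀ x, p (j x) = x) (hex : ∀ n, a + 1 ≤ n → X.RowExact S n)
    (hG : ∀ n, a + 2 ≤ n → X.Van G n) (hnp : ¬ Module.Projective S (X.Bd S S a)) (t : ℕ) :
    ∀ n : ℤ, n = a + 1 + t →
      HasProjectiveDimensionLT (ModuleCat.of (Module.End S G) (X.Bd S S n →ₗ[S] G)) (t + 2) ∧
      ¬ HasProjectiveDimensionLT (ModuleCat.of (Module.End S G) (X.Bd S S n →ₗ[S] G)) (t + 1) := by
  have hP : ∀ n, Module.Projective (Module.End S G) (X.Row S S n →ₗ[S] G) := fun n => by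
    obtain ⟨u, s, hus⟩ := X.exists_us hfin i₀ p₀ h₀ n
    exact projective_hom u s hus
  have hP0 : Module.Projective (Module.End S G) (X.Bd S S a →ₗ[S] G) :=
    projective_hom (α := Unit) (fun _ => p) (fun _ => j)
      (by rw [Fintype.sum_unique]; exact LinearMap.ext hj)
  have key : ∀ n (hn : a ≤ n), (ModuleCat.shortComplexOfCompEqZero _ _
      (X.exact_pre (G := G) (hex (n + 1) (by omega))).linearMap_comp_eq_zero).ShortExact :=
    fun n hn => ModuleCat.shortComplex_shortExact _ (X.exact_pre (hex (n + 1) (by omega)))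
      (X.preD_inj n) (X.preI_surj (hG _ (by omega)))
  induction t with
  | zero =>
    intro n hn
    obtain rfl : n = a + 1 := by simpa using hn
    refine ⟨((key a le_rfl).hasProjectiveDimensionLT_X₃_iff 0
      ((IsProjective.iff_projective _).1 (hP _))).2 ?_, fun h => hnp ?_⟩
    · exact projective_iff_hasProjectiveDimensionLT_one.1 ((IsProjective.iff_projective _).1 hP0)
    · haveI := (IsProjective.iff_projective _).2 (projective_iff_hasProjectiveDimensionLT_one.2 h)
      obtain ⟨ret, hret⟩ := exists_ret (S := Module.End S G) (N0 := X.Bd S S a →ₗ[S] G)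
        (N1 := X.Row S S (a + 1) →ₗ[S] G) (N2 := X.Bd S S (a + 1) →ₗ[S] G)
        (X.exact_pre (hex (a + 1) le_rfl)) (X.preD_inj a) (X.preI_surj (hG _ (by omega)))
      exact X.projective_of_hom hfin i₀ p₀ h₀ j (Function.LeftInverse.injective hj) ret hret
  | succ t ih =>
    intro n hn
    obtain rfl : n = a + 1 + t + 1 := by push_cast at hn; omega
    obtain ⟨h1, h2⟩ := ih _ rfl
    have h3 := fun m => (key (a + 1 + t) (by omega)).hasProjectiveDimensionLT_X₃_iff m
      ((IsProjective.iff_projective _).1 (hP _))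
    exact ⟨(h3 (t + 1)).2 h1, fun h => h2 ((h3 t).1 h)⟩

theorem pd_unbounded {k : Type} [Field k] [Algebra k S] [FiniteDimensional k S] (hfin : X.FinDeg)
    (a : ℤ) (hex : ∀ n, a + 1 ≤ n → X.RowExact S n) (hS : ∀ n, a + 2 ≤ n → X.Van S n)
    (hZ : ∀ n, a + 2 ≤ n → X.Van (X.Bd S S a) n) (hnp : ¬ Module.Projective S (X.Bd S S a))
    (t : ℕ) : ∃ N : ModuleCat.{0} (Module.End S (S × X.Bd S S a)),
      Module.Finite (Module.End S (S × X.Bd S S a)) N ∧ projectiveDimension N = (t + 1 : ℕ) := by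
  obtain ⟨h1, h2⟩ := X.pd_main hfin (LinearMap.inl S S _) (LinearMap.fst S S _) (fun _ => rfl)
    (LinearMap.inr S S (X.Bd S S a)) (LinearMap.snd S S _) (fun _ => rfl) hex
    (fun n hn => (hS n hn).prod (hZ n hn)) hnp t _ rfl
  refine ⟨_, ?_, le_antisymm
    ((projectiveDimension_le_iff _ _).2 h1) ((projectiveDimension_ge_iff _ _).2 h2)⟩
  haveI := X.finite_Bd (k := k) hfin a
  haveI := X.finite_Bd (k := k) hfin (a + 1 + t)
  haveI : FiniteDimensional k (X.Bd S S (a + 1 + t) →ₗ[S] (S × X.Bd S S a)) := inferInstance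
  exact Module.Finite.of_restrictScalars_finite k _ _

end Dat

end Vale.Agent.P195
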