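import Vale.Agent.P195.BigCoh
import Vale.Agent.P195.ExtB
import Vale.Agent.P195.Alg

/-! Assembling the counterexamples. -/

namespace Vale.Agent.P195

open CategoryTheory Abelian

namespace Setup

variable {k R ι : Type} [Field k] [Ring R] [Algebra k R] [FiniteDimensional k R]
  (σ : Setup k R ι)

instance : FiniteDimensional k σ.Z := σ.PP.finite_Bd σ.PP_fin 6

instance : Module.Finite σ.Λ σ.Z := Module.Finite.of_restrictScalars_finite k _ _

theorem not_projective : ¬ Module.Projective σ.Λ σ.Z := fun _ =>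
  σ.not_van_PP_Z (σ.PP.van_of_projective (σ.van_PP_Λ le_rfl))

theorem ext_vanish {Y : Type} [AddCommGroup Y] [Module σ.Λ Y] (h : ∀ n, 8 ≤ n → σ.PP.Van Y n)
    (i : ℕ) (hi : 1 ≤ i) :
    Subsingleton (Ext (ModuleCat.of σ.Λ σ.Z) (ModuleCat.of σ.Λ Y) i) := by
  obtain ⟨i, rfl⟩ : ∃ j, i = j + 1 := ⟨i - 1, by omega⟩
  exact subsingleton_of_forall_eq 0 (σ.PP.ext_eq_zero 6 (fun n hn => σ.rowExact_PP (by omega))
    (fun n hn => h n (by omega)) i 6 le_rfl)

include σ in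
theorem ar : ∃ (A : Type) (_ : Ring A) (_ : Algebra k A) (M : ModuleCat.{0} A),
    FiniteDimensional k A ∧ Module.Finite A M ∧
    (∀ i : ℕ, 1 ≤ i → Subsingleton (Ext M M i) ∧ Subsingleton (Ext M (ModuleCat.of A A) i) ∧
      Subsingleton (Ext M (ModuleCat.of A (M × A)) i)) ∧ ¬ Module.Projective A M :=
  ⟨σ.Λ, inferInstance, inferInstance, ModuleCat.of σ.Λ σ.Z, inferInstance, inferInstance,
    fun i hi => ⟨σ.ext_vanish (fun _ hn => σ.van_PP_Z hn) i hi,
      σ.ext_vanish (fun _ hn => σ.van_PP_Λ (by omega)) i hi,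
      σ.ext_vanish (fun _ hn => (σ.van_PP_Z hn).prod (σ.van_PP_Λ (by omega))) i hi⟩,
    σ.not_projective⟩

include σ in
theorem findim : ∃ (A : Type) (_ : Ring A) (_ : Algebra k A), FiniteDimensional k A ∧
    ∀ n : ℕ, 1 ≤ n → ∃ N : ModuleCat.{0} A, Module.Finite A N ∧ projectiveDimension N = n := by
  refine ⟨Module.End σ.Λ (σ.Λ × σ.Z), inferInstance, inferInstance, ?_, fun n hn => ?_⟩
  · exact inferInstanceAs (FiniteDimensional k ((σ.Λ × σ.Z) →ₗ[σ.Λ] (σ.Λ × σ.Z)))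
  · obtain ⟨n, rfl⟩ : ∃ j, n = j + 1 := ⟨n - 1, by omega⟩
    exact σ.PP.pd_unbounded (k := k) σ.PP_fin 6 (fun n hn => σ.rowExact_PP (by omega))
      (fun n hn => σ.van_PP_Λ (by omega)) (fun n hn => σ.van_PP_Z (by omega)) σ.not_projective n

end Setup

end Vale.Agent.P195
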