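import Vale.Agent.P195.Setup

/-! The tensor square of an algebra with a rank one resolution. -/

namespace Vale.Agent.P195

open Finsupp MulOpposite Dat TensorProduct

attribute [-simp] Finsupp.single_mul

section Kun

variable {k V : Type} [Field k] [AddCommGroup V] [Module k V]

/-- raising operator on double sequences -/
noncomputable def opU (up α : ℕ → V →ₗ[k] V) (w : ℕ × ℕ → V ⊗[k] V) : ℕ × ℕ → V ⊗[k] V :=
  fun x => (Nat.casesOn x.1 0 fun i => map (up i) LinearMap.id (w (i, x.2))) +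
    (Nat.casesOn x.2 0 fun j => map (α x.1) (up j) (w (x.1, j)))

/-- lowering operator on double sequences -/
noncomputable def opD (dn β : ℕ → V →ₗ[k] V) (w : ℕ × ℕ → V ⊗[k] V) : ℕ × ℕ → V ⊗[k] V :=
  fun x => map (dn x.1) LinearMap.id (w (x.1 + 1, x.2)) + map (β x.1) (dn x.2) (w (x.1, x.2 + 1))

lemma kun {up dn α β E π : ℕ → V →ₗ[k] V} (h0 : dn 0 ∘ₗ up 0 = E 0 - π 0)
    (hS : ∀ i, up i ∘ₗ dn i + dn (i + 1) ∘ₗ up (i + 1) = E (i + 1) - π (i + 1))
    (h1 : ∀ i, α i ∘ₗ β i = π i) (h2 : ∀ i, β i ∘ₗ α i = π i)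
    (h3 : ∀ i, up i ∘ₗ β i + β (i + 1) ∘ₗ up i = 0) (h4 : ∀ i, α i ∘ₗ dn i + dn i ∘ₗ α (i + 1) = 0)
    (w : ℕ × ℕ → V ⊗[k] V) (i j : ℕ) :
    opU up α (opD dn β w) (i, j) + opD dn β (opU up α w) (i, j) =
      map (E i - π i) LinearMap.id (w (i, j)) + map (π i) (E j - π j) (w (i, j)) := by
  have e3 : ∀ i (g : V →ₗ[k] V) t, map (up i ∘ₗ β i) g t + map (β (i + 1) ∘ₗ up i) g t = 0 := by
    intro i g t
    rw [← LinearMap.add_apply, ← map_add_left, h3, map_zero_left, LinearMap.zero_apply]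
  have e4 : ∀ i (g : V →ₗ[k] V) t, map (α i ∘ₗ dn i) g t + map (dn i ∘ₗ α (i + 1)) g t = 0 := by
    intro i g t
    rw [← LinearMap.add_apply, ← map_add_left, h4, map_zero_left, LinearMap.zero_apply]
  rcases i with _ | i <;> rcases j with _ | j <;>
    simp only [opU, opD, map_add, map_map, LinearMap.comp_id, LinearMap.id_comp, h1, h2, ← h0,
      ← hS, map_add_left, map_add_right, LinearMap.add_apply, map_zero, zero_add, add_zero,
      Nat.rec_zero]
  · linear_combination (norm := abel) e4 0 (up j) (w (1, j))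
  · linear_combination (norm := abel) e3 i (dn 0) (w (i, 1))
  · linear_combination (norm := abel) e4 (i + 1) (up j) (w (i + 1 + 1, j)) +
      e3 i (dn (j + 1)) (w (i, j + 1 + 1))

end Kun

/-- an algebra with a resolution of rank one and explicit contractions -/
structure Base (k C : Type) [Field k] [Ring C] [Algebra k C] where
  ε : ℕ → C
  d : ℕ → C
  idem : ∀ i, ε i * ε i = ε i
  d_left : ∀ i, ε (i + 1) * d i = d i
  d_right : ∀ i, d i * ε i = d i
  dd : ∀ i, d (i + 1) * d i = 0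
  χ : C →ₐ[k] k
  χ_zero : χ (ε 0) = 1
  χ_succ : ∀ i, χ (ε (i + 1)) = 0
  h : ℕ → C →ₗ[k] C
  h0 : ∀ c, h 0 c * d 0 = c * ε 0 - χ c • ε 0
  hS : ∀ i c, h i (c * d i) + h (i + 1) c * d (i + 1) = c * ε (i + 1)
  g : ℕ → C →ₗ[k] C
  lam : C →ₗ[k] k
  v : C
  g0 : ∀ c, g 0 (d 0 * c) = ε 0 * c
  gS : ∀ i c, d i * g i c + g (i + 1) (d (i + 1) * c) =
    ε (i + 1) * c - if i = 1 then lam c • v else 0
  ε_v : ε 2 * v = v
  d_v : d 2 * v = 0
  lam_d : ∀ c, lam (d 1 * c) = 0
  lam_v : ∀ c, lam (v * c) = χ c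
  tr : ∀ c, LinearMap.trace k C (LinearMap.mulLeft k c) = 0
  two : (2 : k) = 0

namespace Base

variable {k C : Type} [Field k] [Ring C] [Algebra k C] (b : Base k C)

include b in
lemma add_self {Y : Type} [AddCommGroup Y] [Module k Y] (x : Y) : x + x = 0 := by
  rw [← two_smul k x, b.two, zero_smul]

/-- the tensor differential -/
noncomputable def D (x : ℕ × ℕ) : ℕ × ℕ →₀ C ⊗[k] C :=
  (Nat.casesOn x.1 0 fun i => single (i, x.2) (b.d i ⊗ₜ b.ε x.2)) +
    (Nat.casesOn x.2 0 fun j => single (x.1, j) (b.ε x.1 ⊗ₜ b.d j))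

lemma D_apply (x : ℕ × ℕ) (i j : ℕ) : b.D x (i, j) =
    (if x = (i + 1, j) then b.d i ⊗ₜ b.ε j else 0) +
      (if x = (i, j + 1) then b.ε i ⊗ₜ b.d j else 0) := by
  obtain ⟨i', j'⟩ := x
  rw [D, Finsupp.add_apply]
  congr 1
  · rcases i' with _ | i'
    · simp
    · simp only [single_apply, Prod.mk.injEq, add_left_inj]
      split_ifs with h
      · rw [h.1, h.2]
      · rfl
  · rcases j' with _ | j'
    · simp
    · simp only [single_apply, Prod.mk.injEq, add_left_inj]
      split_ifs with h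
      · rw [h.1, h.2]
      · rfl

lemma lc_D (v : ℕ × ℕ →₀ C ⊗[k] C) (i j : ℕ) : linearCombination (C ⊗[k] C) b.D v (i, j) =
    v (i + 1, j) * (b.d i ⊗ₜ b.ε j) + v (i, j + 1) * (b.ε i ⊗ₜ b.d j) := by
  induction v using Finsupp.induction_linear with
  | zero => simp
  | add x y hx hy => simp only [map_add, Finsupp.add_apply, hx, hy, add_mul]; abel
  | single x t =>
    simp only [linearCombination_single, Finsupp.smul_apply, D_apply, smul_eq_mul, mul_add,
      single_apply, mul_ite, ite_mul, mul_zero, zero_mul]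

/-- the resolution over the tensor square -/
noncomputable def P : Dat (C ⊗[k] C) (ℕ × ℕ) where
  deg x := x.1 + x.2
  ε x := b.ε x.1 ⊗ₜ b.ε x.2
  D := b.D
  idem x := by simp [b.idem]
  D_deg := by
    rintro x ⟨i, j⟩ h
    rw [D_apply] at h
    split_ifs at h with h1 h2 h2
    · subst h1; push_cast; ring
    · subst h1; push_cast; ring
    · subst h2; push_cast; ring
    · simp at h
  D_left := by
    rintro x ⟨i, j⟩
    rw [D_apply, mul_add]
    congr 1 <;> split_ifs with h <;> simp [h, b.idem, b.d_left]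
  D_right := by
    rintro x ⟨i, j⟩
    rw [D_apply, add_mul]
    congr 1 <;> split_ifs with h <;> simp [b.idem, b.d_right]
  DD x := by
    ext ⟨i, j⟩
    rw [lc_D, D_apply, D_apply]
    simp only [add_mul, ite_mul, zero_mul, Algebra.TensorProduct.tmul_mul_tmul, b.dd, b.idem,
      b.d_left, b.d_right, zero_tmul, tmul_zero, ite_self, zero_add, add_zero, b.add_self,
      Finsupp.coe_zero, Pi.zero_apply]

@[simp] lemma P_deg (x : ℕ × ℕ) : b.P.deg x = x.1 + x.2 := rfl
@[simp] lemma P_ε (x : ℕ × ℕ) : b.P.ε x = b.ε x.1 ⊗ₜ b.ε x.2 := rfl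

lemma P_fin : b.P.FinDeg := fun n =>
  ((Set.finite_le_nat n.toNat).prod (Set.finite_le_nat n.toNat)).subset (by
    rintro ⟨i, j⟩ h
    simp only [Set.mem_setOf_eq, P_deg] at h
    simp only [Set.mem_prod, Set.mem_setOf_eq]; omega)

/-- the character of the tensor square -/
noncomputable def χ2 : C ⊗[k] C →ₐ[k] k :=
  Algebra.TensorProduct.lift b.χ b.χ fun _ _ => Commute.all _ _

@[simp] lemma χ2_tmul (x y : C) : b.χ2 (x ⊗ₜ y) = b.χ x * b.χ y := by simp [χ2]

lemma map_mulRight (x y : C) (t : C ⊗[k] C) :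
    map (LinearMap.mulRight k x) (LinearMap.mulRight k y) t = t * (x ⊗ₜ y) := by
  induction t using TensorProduct.induction_on with
  | zero => simp
  | tmul => simp
  | add s t hs ht => simp [hs, ht, add_mul]

lemma map_mulLeft (x y : C) (t : C ⊗[k] C) :
    map (LinearMap.mulLeft k x) (LinearMap.mulLeft k y) t = (x ⊗ₜ y) * t := by
  induction t using TensorProduct.induction_on with
  | zero => simp
  | tmul => simp
  | add s t hs ht => simp [hs, ht, mul_add]

lemma map_mulLeft_id (x : C) (t : C ⊗[k] C) :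
    map (LinearMap.mulLeft k x) LinearMap.id t = (x ⊗ₜ 1) * t := by
  rw [← map_mulLeft, LinearMap.mulLeft_one]

lemma map_id_mulLeft (x : C) (t : C ⊗[k] C) :
    map LinearMap.id (LinearMap.mulLeft k x) t = (1 ⊗ₜ x) * t := by
  rw [← map_mulLeft, LinearMap.mulLeft_one]

lemma χ_d (i : ℕ) : b.χ (b.d i) = 0 := by rw [← b.d_left, map_mul, b.χ_succ, zero_mul]

/-- projection onto homology -/
noncomputable def π (i : ℕ) : C →ₗ[k] C :=
  if i = 0 then b.χ.toLinearMap.smulRight (b.ε 0) else 0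

/-- projection onto cohomology -/
noncomputable def π' (i : ℕ) : C →ₗ[k] C := if i = 2 then b.lam.smulRight b.v else 0

lemma fixed {E π : ℕ → C →ₗ[k] C} (hE : ∀ i, E i ∘ₗ E i = E i) {i j : ℕ} {t : C ⊗[k] C}
    (ht : map (E i) (E j) t = t) :
    map (E i - π i) LinearMap.id t + map (π i) (E j - π j) t = t - map (π i) (π j) t := by
  have h1 : map (E i) LinearMap.id t = t := by
    conv_lhs => rw [← ht, map_map, hE, LinearMap.id_comp, ht]
  have h2 : map (π i) (E j) t = map (π i) LinearMap.id t := by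
    conv_lhs => rw [← ht, map_map, hE]
    conv_rhs => rw [← ht, map_map, LinearMap.id_comp]
  have h3 : ∀ f f' g : C →ₗ[k] C, map (f - f') g t = map f g t - map f' g t := fun f f' g => by
    rw [eq_sub_iff_add_eq, ← LinearMap.add_apply, ← map_add_left, sub_add_cancel]
  have h4 : ∀ f g g' : C →ₗ[k] C, map f (g - g') t = map f g t - map f g' t := fun f g g' => by
    rw [eq_sub_iff_add_eq, ← LinearMap.add_apply, ← map_add_right, sub_add_cancel]
  rw [h3, h4, h1, h2]; abel

lemma row_core {n : ℤ} {v : ℕ × ℕ →₀ C ⊗[k] C} (hv : b.P.IsRow n v) (hd : b.P.rd v = 0)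
    (h0 : b.χ2 (v (0, 0)) = 0) : ∃ w, b.P.IsRow (n + 1) w ∧ b.P.rd w = v := by
  let dn : ℕ → C →ₗ[k] C := fun i => LinearMap.mulRight k (b.d i)
  let E : ℕ → C →ₗ[k] C := fun i => LinearMap.mulRight k (b.ε i)
  have hD : ∀ (u : ℕ × ℕ → C ⊗[k] C) i j, opD dn (fun _ => LinearMap.id) u (i, j) =
      u (i + 1, j) * (b.d i ⊗ₜ 1) + u (i, j + 1) * (1 ⊗ₜ b.d j) := by
    intro u i j
    rw [← map_mulRight, ← map_mulRight, LinearMap.mulRight_one]; rfl
  have hv' : ∀ x, v x * (b.ε x.1 ⊗ₜ b.ε x.2) = v x := hv.ε_smul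
  have h1 : opD dn (fun _ => LinearMap.id) v = 0 := by
    funext ⟨i, j⟩
    have := DFunLike.congr_fun hd (i, j)
    rw [rd_eq_lc] at this
    rw [hD, ← hv' (i + 1, j), ← hv' (i, j + 1), mul_assoc, mul_assoc]
    simp only [Algebra.TensorProduct.tmul_mul_tmul, b.d_left, mul_one]
    exact (b.lc_D v i j).symm.trans this
  let u := opU b.h b.π v
  have h2 : ∀ i j, opD dn (fun _ => LinearMap.id) u (i, j) = v (i, j) := by
    intro i j
    have := kun (up := b.h) (dn := dn) (α := b.π) (β := fun _ => LinearMap.id) (E := E) (π := b.π)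
      (LinearMap.ext fun c => by simp [dn, E, π, b.h0])
      (fun i => LinearMap.ext fun c => by simp [dn, E, π, b.hS]) (fun _ => rfl) (fun _ => rfl)
      (fun i => b.add_self _) (fun i => LinearMap.ext fun c => by
        simp only [π]; split_ifs <;> simp_all [dn, χ_d]) v i j
    rw [h1, fixed (E := E) (π := b.π) (fun i => LinearMap.ext fun c => by simp [E, mul_assoc, b.idem])
      ((map_mulRight (b.ε i) (b.ε j) _).trans (hv' (i, j)))] at this
    have h3 : map (b.π i) (b.π j) (v (i, j)) = 0 := by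
      by_cases hi : i = 0
      · by_cases hj : j = 0
        · subst hi hj
          have : ∀ t, map (b.π 0) (b.π 0) t = b.χ2 t • (b.ε 0 ⊗ₜ b.ε 0) := by
            intro t
            induction t using TensorProduct.induction_on with
            | zero => simp
            | tmul => simp [π, ← smul_tmul', smul_smul, mul_comm]
            | add s t hs ht => simp [hs, ht, add_smul]
          rw [this, h0, zero_smul]
        · simp [π, hj]
      · simp [π, hi]
    rw [h3, sub_zero] at this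
    rw [← this]
    rcases i with _ | i <;> rcases j with _ | j <;> simp [opU, u]
  let w : ℕ × ℕ →₀ C ⊗[k] C := Finsupp.onFinset (b.P_fin.fib (n + 1))
    (fun x => u x * b.P.e (n + 1) x) fun x hx => by
      by_contra h
      exact hx (by rw [b.P.e_of_ne (by simpa using h), mul_zero])
  refine ⟨w, b.P.isRow_iff.2 fun x => by simp [w, mul_assoc, b.P.e_idem], ?_⟩
  ext1 ⟨i, j⟩
  rw [rd_eq_lc]
  refine (b.lc_D w i j).trans ?_
  simp only [w, onFinset_apply]
  by_cases hn : (i : ℤ) + j = n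
  · rw [b.P.e_of_eq (by simp; omega), b.P.e_of_eq (by simp; omega), ← hv' (i, j), ← h2, hD]
    simp [mul_assoc, add_mul, b.d_left, b.d_right, b.idem]
  · rw [b.P.e_of_ne (by simp; omega), b.P.e_of_ne (by simp; omega), hv.eq_zero (i := (i, j)) hn]; simp

lemma δ_eq (w : ℕ × ℕ → C ⊗[k] C) (x : ℕ × ℕ) : b.P.δ w x =
    b.P.ε x * opU (fun i => LinearMap.mulLeft k (b.d i)) (fun _ => LinearMap.id) w x := by
  have e1 := map_mulLeft_id (k := k) (C := C)
  have e2 := map_id_mulLeft (k := k) (C := C)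
  show linearCombination _ w (b.D x) = _
  obtain ⟨_ | i, _ | j⟩ := x <;> simp [D, opU, e1, e2, mul_add, ← mul_assoc, b.d_left]

/-- the functional detecting the cohomology class -/
noncomputable def lam2 : C ⊗[k] C →ₗ[k] k :=
  TensorProduct.lift ((LinearMap.mul k k).compl₁₂ b.lam b.lam)

@[simp] lemma lam2_tmul (x y : C) : b.lam2 (x ⊗ₜ y) = b.lam x * b.lam y := by simp [lam2]

/-- the cohomology class -/
noncomputable def γ : ℕ × ℕ → C ⊗[k] C := fun x => if x = (2, 2) then b.v ⊗ₜ b.v else 0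

lemma isCol_γ : b.P.IsCol 4 b.γ := by
  intro x
  unfold γ
  split_ifs with h
  · subst h
    rw [b.P.e_of_eq (by simp)]; simp [b.ε_v]
  · simp

lemma col_core {n : ℤ} {w : ℕ × ℕ → C ⊗[k] C} (hw : b.P.IsCol n w) (hd : b.P.δ w = 0) :
    ∃ w', b.P.IsCol (n - 1) w' ∧ w = b.lam2 (w (2, 2)) • b.γ + b.P.δ w' := by
  let up : ℕ → C →ₗ[k] C := fun i => LinearMap.mulLeft k (b.d i)
  let E : ℕ → C →ₗ[k] C := fun i => LinearMap.mulLeft k (b.ε i)
  have hw' : ∀ x, (b.ε x.1 ⊗ₜ b.ε x.2) * w x = w x := hw.ε_smul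
  have e1 := map_mulLeft_id (k := k) (C := C)
  have e2 := map_id_mulLeft (k := k) (C := C)
  have e3 : ∀ i j, (b.ε (i + 1) ⊗ₜ[k] b.ε j) * ((b.d i ⊗ₜ 1) * w (i, j)) =
      (b.d i ⊗ₜ 1) * w (i, j) := by
    intro i j
    rw [← hw' (i, j)]; simp [← mul_assoc, b.d_left, b.d_right, b.idem]
  have e4 : ∀ i j, (b.ε i ⊗ₜ[k] b.ε (j + 1)) * ((1 ⊗ₜ b.d j) * w (i, j)) =
      (1 ⊗ₜ b.d j) * w (i, j) := by
    intro i j
    rw [← hw' (i, j)]; simp [← mul_assoc, b.d_left, b.d_right, b.idem]
  have h1 : opU up (fun _ => LinearMap.id) w = 0 := by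
    funext x
    rw [← congrFun hd x, δ_eq]
    obtain ⟨_ | i, _ | j⟩ := x <;> simp [opU, up, e1, e2, e3, e4, mul_add]
  let u := opD b.g b.π' w
  have h2 : ∀ i j, opU up (fun _ => LinearMap.id) u (i, j) =
      w (i, j) - b.lam2 (w (2, 2)) • b.γ (i, j) := by
    intro i j
    have := kun (up := up) (dn := b.g) (α := fun _ => LinearMap.id) (β := b.π') (E := E)
      (π := b.π') (LinearMap.ext fun c => by simp [up, E, π', b.g0])
      (fun i => LinearMap.ext fun c => by
        simp only [π', LinearMap.add_apply, LinearMap.comp_apply, up, E, LinearMap.mulLeft_apply,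
          b.gS, LinearMap.sub_apply]
        split_ifs <;> first | rfl | omega) (fun _ => rfl) (fun _ => rfl)
      (fun i => LinearMap.ext fun c => by
        simp only [π']
        split_ifs with h h'
        · omega
        · simp [up, h, b.d_v]
        · simp [up, show i = 1 by omega, b.lam_d]
        · simp) (fun i => b.add_self _) w i j
    rw [h1, fixed (E := E) (π := b.π')
      (fun i => LinearMap.ext fun c => by simp [E, ← mul_assoc, b.idem])
      ((map_mulLeft (b.ε i) (b.ε j) _).trans (hw' (i, j)))] at this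
    have h3 : map (b.π' i) (b.π' j) (w (i, j)) = b.lam2 (w (2, 2)) • b.γ (i, j) := by
      by_cases hi : i = 2
      · by_cases hj : j = 2
        · subst hi hj
          have : ∀ t, map (b.π' 2) (b.π' 2) t = b.lam2 t • (b.v ⊗ₜ b.v) := by
            intro t
            induction t using TensorProduct.induction_on with
            | zero => simp
            | tmul => simp [π', ← smul_tmul', smul_smul, mul_comm]
            | add s t hs ht => simp [hs, ht, add_smul]
          rw [this]; simp [γ]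
        · simp [π', γ, hj]
      · simp [π', γ, hi]
    rw [← h3, ← this]; simp [opD, u]
  refine ⟨_, isCol_proj (n - 1) u, ?_⟩
  funext ⟨i, j⟩
  rw [Pi.add_apply, ← e_smul_δ, sub_add_cancel, δ_eq, h2, smul_eq_mul, ← mul_assoc, b.P.e_mul_ε,
    mul_sub, mul_smul_comm]
  have h4 := hw (i, j)
  rw [smul_eq_mul] at h4
  rw [h4]
  by_cases hn : n = 4
  · subst hn
    have h5 := b.isCol_γ (i, j)
    rw [smul_eq_mul] at h5
    rw [h5]; simp
  · rw [hw.eq_zero (i := (2, 2)) (by simp; omega)]; simp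

lemma δ_γ : b.P.δ b.γ = 0 := by
  funext x
  show linearCombination _ b.γ (b.D x) = 0
  obtain ⟨_ | i, _ | j⟩ := x <;> simp [D, γ] <;> split_ifs <;> simp_all [b.d_v]

lemma lam2_δ (w : ℕ × ℕ → C ⊗[k] C) : b.lam2 (b.P.δ w (2, 2)) = 0 := by
  have e1 : ∀ t, b.lam2 ((b.d 1 ⊗ₜ b.ε 2) * t) = 0 := by
    intro t
    induction t using TensorProduct.induction_on with
    | zero => simp
    | tmul => simp [b.lam_d]
    | add s t hs ht => simp [hs, ht, mul_add]
  have e2 : ∀ t, b.lam2 ((b.ε 2 ⊗ₜ b.d 1) * t) = 0 := by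
    intro t
    induction t using TensorProduct.induction_on with
    | zero => simp
    | tmul => simp [b.lam_d]
    | add s t hs ht => simp [hs, ht, mul_add]
  show b.lam2 (linearCombination _ w (single (1, 2) (b.d 1 ⊗ₜ b.ε 2) +
    single (2, 1) (b.ε 2 ⊗ₜ b.d 1))) = 0
  simp [e1, e2]

lemma lam2_v (r : C ⊗[k] C) : b.lam2 ((b.v ⊗ₜ b.v) * r) = b.χ2 r := by
  induction r using TensorProduct.induction_on with
  | zero => simp
  | tmul => simp [b.lam_v]
  | add s t hs ht => simp [hs, ht, mul_add]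

/-- the tensor square as an input of the construction -/
noncomputable def setup [FiniteDimensional k C] (H : k) (h1 : H ≠ 0)
    (h2 : ∀ n : ℕ, 1 ≤ n → H ^ n ≠ 1) : Setup k (C ⊗[k] C) (ℕ × ℕ) where
  P := b.P
  fin := b.P_fin
  nonneg i := by simp only [P_deg]; omega
  χ := b.χ2
  i₀ := (0, 0)
  deg_i₀ := rfl
  eq_i₀ := by
    rintro ⟨i, j⟩ h
    simp only [P_deg] at h
    exact Prod.ext (by omega) (by omega)
  χ_i₀ := by simp [b.χ_zero]
  χ_ne := by
    rintro ⟨_ | i, _ | j⟩ h
    · exact absurd rfl h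
    all_goals simp [b.χ_succ]
  rowExact n hn v hv hd := b.row_core hv hd (by rw [hv.eq_zero (by simp; omega), map_zero])
  rowExact₀ v hv h := by
    have := b.row_core hv
      (hv.rd'.eq_zero_of_neg (fun i => by simp only [P_deg]; omega) (by norm_num)) h
    rwa [zero_add] at this
  van n hn w hw hd := by
    obtain ⟨w', h1, h2⟩ := b.col_core hw hd
    refine ⟨w', h1, ?_⟩
    rw [hw.eq_zero (i := (2, 2)) (by simp; omega)] at h2
    simpa using h2.symm
  γ := b.γ
  gen := ⟨b.isCol_γ, b.δ_γ, fun w hw hd => ⟨b.lam2 (w (2, 2)), b.col_core hw hd⟩⟩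
  ncob := by
    rintro ⟨w, -, hw⟩
    have h1 := b.lam2_δ w
    have h2 := b.lam2_v 1
    rw [hw] at h1
    simp only [γ, if_true, mul_one, map_one] at h1 h2
    exact one_ne_zero (h2.symm.trans h1)
  γ_mul r := by
    have h1 : b.P.IsCol 4 (fun i => b.γ i * r - b.χ2 r • b.γ i) :=
      (b.isCol_γ.map (LinearMap.toSpanSingleton _ _ r)).sub (b.isCol_γ.smul (b.χ2 r))
    have h2 : b.P.δ (fun i => b.γ i * r - b.χ2 r • b.γ i) = 0 := by
      have := b.P.δ_sub (fun i => LinearMap.toSpanSingleton _ _ r (b.γ i)) (b.χ2 r • b.γ)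
      rw [δ_map, δ_smul, b.δ_γ] at this
      exact this.trans (by funext i; simp)
    obtain ⟨w', h3, h4⟩ := b.col_core h1 h2
    refine ⟨w', h3, ?_⟩
    have h5 := b.lam2_v 1
    rw [mul_one, map_one] at h5
    rw [h4]
    simp [γ, lam2_v, h5]
  tr r := by
    induction r using TensorProduct.induction_on with
    | zero => simp
    | tmul x y =>
      have : LinearMap.mulLeft k (x ⊗ₜ[k] y) =
          map (LinearMap.mulLeft k x) (LinearMap.mulLeft k y) :=
        LinearMap.ext fun t => (map_mulLeft x y t).symm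
      rw [this, LinearMap.trace_tensorProduct', b.tr, zero_mul]
    | add s t hs ht =>
      have : LinearMap.mulLeft k (s + t) = LinearMap.mulLeft k s + LinearMap.mulLeft k t :=
        LinearMap.ext fun x => add_mul s t x
      rw [this, map_add, hs, ht, add_zero]
  two := b.two
  H := H
  H_ne := h1
  H_pow := h2

end Base

end Vale.Agent.P195
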