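import Vale.Agent.P195.Setup
import Vale.Agent.P195.Cone

/-! The bimodule of endomorphisms killed by all traces. -/

namespace Vale.Agent.P195

open Finsupp MulOpposite Dat

attribute [-simp] Finsupp.single_mul

section LL

variable (k R : Type) [Field k] [Ring R] [Algebra k R]

/-- `F ↦ (x ↦ tr (L_x F))` -/
noncomputable def μk : Hm k R R →ₗ[k] Hm k R k where
  toFun F := ⟨LinearMap.trace k R ∘ₗ LinearMap.lcomp k R F.lin ∘ₗ LinearMap.mul k R⟩
  map_add' F G := by
    ext x
    simp only [Hm.lin_add, LinearMap.comp_apply, LinearMap.add_apply, LinearMap.lcomp_apply',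
      LinearMap.comp_add, map_add]
  map_smul' c F := by
    ext x
    simp only [Hm.lin_smul, LinearMap.comp_apply, LinearMap.smul_apply, LinearMap.lcomp_apply',
      LinearMap.comp_smul, map_smul, RingHom.id_apply]

variable {k R}

lemma μk_apply (F : Hm k R R) (x : R) :
    (μk k R F).lin x = LinearMap.trace k R (LinearMap.mulLeft k x ∘ₗ F.lin) := rfl

lemma μk_smul (r : R) (F : Hm k R R) : μk k R (r • F) = r • μk k R F := by
  ext x
  rw [Hm.lin_smul_dual, μk_apply, μk_apply]
  congr 1; ext y; simp [mul_assoc]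

lemma μk_op_smul (r : Rᵐᵒᵖ) (F : Hm k R R) : μk k R (r • F) = r • μk k R F := by
  ext x
  rw [Hm.lin_op_smul, μk_apply, μk_apply]
  have h1 : LinearMap.mulLeft k x ∘ₗ (r • F).lin =
      (LinearMap.mulLeft k x ∘ₗ F.lin) * LinearMap.mulLeft k r.unop := by ext; simp
  have h2 : LinearMap.mulLeft k (r.unop * x) ∘ₗ F.lin =
      LinearMap.mulLeft k r.unop * (LinearMap.mulLeft k x ∘ₗ F.lin) := by ext; simp [mul_assoc]
  rw [h1, h2, LinearMap.trace_mul_comm]

variable (k R)
/-- the kernel of the trace map -/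
def LL : Type := LinearMap.ker (μk k R)

noncomputable instance : AddCommGroup (LL k R) :=
  inferInstanceAs (AddCommGroup (LinearMap.ker (μk k R)))
noncomputable instance : Module k (LL k R) := inferInstanceAs (Module k (LinearMap.ker (μk k R)))
instance [FiniteDimensional k R] : FiniteDimensional k (LL k R) :=
  inferInstanceAs (FiniteDimensional k (LinearMap.ker (μk k R)))

variable {k R}
namespace LL

/-- the inclusion -/
noncomputable def val : LL k R →ₗ[k] Hm k R R := (LinearMap.ker (μk k R)).subtype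

lemma val_inj : Function.Injective (val (k := k) (R := R)) := Subtype.val_injective
lemma μ_val (l : LL k R) : μk k R (val l) = 0 := l.2
/-- constructor -/
def mk (F : Hm k R R) (h : μk k R F = 0) : LL k R := ⟨F, h⟩
@[simp] lemma val_mk (F : Hm k R R) (h : μk k R F = 0) : val (mk F h) = F := rfl

noncomputable instance : SMul R (LL k R) :=
  ⟨fun r l => mk (r • val l) (by rw [μk_smul, μ_val, smul_zero])⟩
noncomputable instance : SMul Rᵐᵒᵖ (LL k R) :=
  ⟨fun r l => mk (r • val l) (by rw [μk_op_smul, μ_val, smul_zero])⟩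
@[simp] lemma val_smul (r : R) (l : LL k R) : val (r • l) = r • val l := rfl
@[simp] lemma val_op_smul (r : Rᵐᵒᵖ) (l : LL k R) : val (r • l) = r • val l := rfl
noncomputable instance : Module R (LL k R) :=
  Function.Injective.module R val.toAddMonoidHom val_inj val_smul
noncomputable instance : Module Rᵐᵒᵖ (LL k R) :=
  Function.Injective.module Rᵐᵒᵖ val.toAddMonoidHom val_inj val_op_smul
instance : SMulCommClass R Rᵐᵒᵖ (LL k R) := ⟨fun a b l => val_inj (by simp [smul_comm a])⟩
instance : SMulCommClass k Rᵐᵒᵖ (LL k R) := ⟨fun a b l => val_inj (by simp [smul_comm a])⟩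
instance : SMulCommClass k R (LL k R) := ⟨fun a b l => val_inj (by simp [smul_comm a])⟩
instance : IsScalarTower k R (LL k R) := ⟨fun a b l => val_inj (by simp)⟩
instance : IsScalarTower k Rᵐᵒᵖ (LL k R) := ⟨fun a b l => val_inj (by simp)⟩

/-- the inclusion as a map of left modules -/
noncomputable def valR : LL k R →ₗ[R] Hm k R R where
  toFun := val
  map_add' := map_add _
  map_smul' := val_smul

@[simp] lemma valR_apply (l : LL k R) : valR l = val l := rfl
lemma valR_op (s : R) (l : LL k R) : valR (op s • l) = op s • valR l := rfl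

end LL

/-- the trace map as a map of left modules -/
noncomputable def μR : Hm k R R →ₗ[R] Hm k R k where
  toFun := μk k R
  map_add' := map_add _
  map_smul' := μk_smul

@[simp] lemma μR_apply (l : Hm k R R) : μR l = μk k R l := rfl
lemma μR_op (s : R) (l : Hm k R R) : μR (op s • l) = op s • μR l := μk_op_smul _ _

/-- a section of the trace map, linear for the right action -/
noncomputable def sec : Hm k R k →ₗ[k] Hm k R R where
  toFun φ := ⟨φ.lin.smulRight 1⟩
  map_add' a b := by ext; simp [add_smul]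
  map_smul' a b := by ext; simp [mul_smul]

lemma sec_op_smul (r : Rᵐᵒᵖ) (φ : Hm k R k) : sec (r • φ) = r • sec φ := by
  ext; simp [sec]

variable [FiniteDimensional k R]

lemma μ_sec (φ : Hm k R k) : μk k R (sec φ) = φ := by
  ext x
  have : LinearMap.mulLeft k x ∘ₗ (sec φ).lin = φ.lin.smulRight x := by ext; simp [sec]
  rw [μk_apply, this, LinearMap.trace_smulRight]

/-- a retraction onto the kernel, linear for the right action -/
noncomputable def ret : Hm k R R →+ LL k R where
  toFun F := LL.mk (F - sec (μk k R F)) (by rw [map_sub, μ_sec, sub_self])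
  map_zero' := LL.val_inj (by simp)
  map_add' a b := LL.val_inj (by simp; abel)

lemma val_ret (F : Hm k R R) : LL.val (ret F) = F - sec (μk k R F) := rfl

lemma ret_op_smul (r : Rᵐᵒᵖ) (F : Hm k R R) : ret (r • F) = r • ret F :=
  LL.val_inj (by simp [val_ret, μk_op_smul, sec_op_smul, smul_sub])

lemma ret_val (l : LL k R) : ret (LL.val l) = l := LL.val_inj (by simp [val_ret, LL.μ_val])

end LL

namespace Dat

variable {S : Type} [Ring S] {ι : Type} (X : Dat S ι)
variable {B B' : Type} [AddCommGroup B] [Module Sᵐᵒᵖ B] [AddCommGroup B'] [Module Sᵐᵒᵖ B']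
variable {S' : Type} [Semiring S'] [Module S' B] [SMulCommClass S' Sᵐᵒᵖ B] [Module S' B']
  [SMulCommClass S' Sᵐᵒᵖ B']

/-- the map on cycles induced by a bimodule map -/
noncomputable def cycMap (f : B →ₗ[S'] B') (hf : ∀ (s : S) b, f (op s • b) = op s • f b) (n : ℤ) :
    X.Cyc B S' n →ₗ[S'] X.Cyc B' S' n :=
  ((Finsupp.mapRange.linearMap f).domRestrict _).codRestrict _ fun v =>
    ⟨v.2.1.mapRange f hf, by
      show X.rd (v.1.mapRange f (map_zero f)) = 0
      rw [X.rd_mapRange f hf, v.2.2]; simp⟩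

@[simp] lemma cycMap_apply (f : B →ₗ[S'] B') (hf : ∀ (s : S) b, f (op s • b) = op s • f b) (n : ℤ)
    (v : X.Cyc B S' n) (i : ι) : (X.cycMap f hf n v).1 i = f (v.1 i) := rfl

end Dat

lemma trace_isProj {k V : Type} [Field k] [AddCommGroup V] [Module k V] [FiniteDimensional k V]
    {W : Submodule k V} {f : V →ₗ[k] V} (h : LinearMap.IsProj W f) :
    LinearMap.trace k V f = Module.finrank k W := h.trace

namespace Setup

variable {k R ι : Type} [Field k] [Ring R] [Algebra k R] [FiniteDimensional k R]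
  (σ : Setup k R ι)

/-- left multiplications -/
noncomputable def κL : R →ₗ[R] LL k R where
  toFun r := LL.mk ⟨LinearMap.mulLeft k r⟩ (by
    ext x
    rw [μk_apply, ← LinearMap.mulLeft_mul, σ.tr]; rfl)
  map_add' a b := LL.val_inj (by ext; simp [add_mul])
  map_smul' a b := LL.val_inj (by ext; simp [mul_assoc])

@[simp] lemma κL_apply (r x : R) : (LL.val (σ.κL r)).lin x = r * x := rfl

lemma κL_op_smul (s r : R) : σ.κL (op s • r) = op s • σ.κL r :=
  LL.val_inj (by ext; simp [mul_assoc])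

lemma κL_k (c : k) (r : R) : σ.κL (c • r) = c • σ.κL r := LL.val_inj (by ext; simp)

lemma exact_L {n : ℤ} (hn : n ≠ 4) : σ.P.RowExact (LL k R) n := by
  intro v hv hd
  obtain ⟨w, hw, hw'⟩ := σ.P.rowExact_Hm σ.fin (σ.van n hn) (v.mapRange LL.val (map_zero _))
    (hv.mapRange _ fun _ _ => rfl) (by rw [σ.P.rd_mapRange _ (fun _ _ => rfl), hd]; simp)
  refine ⟨w.mapRange ret (map_zero _), hw.mapRange _ fun _ _ => ret_op_smul _ _, ?_⟩
  rw [σ.P.rd_mapRange _ (fun _ _ => ret_op_smul _ _), hw']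
  ext i; simp [ret_val]

lemma van_E {n : ℤ} (hn : n ≠ 4) : σ.P.Van (Hm k R R) n :=
  (σ.P.van_linearMap (k := k) (σ.van n hn) R).retract
    { toFun := Hm.lin, map_add' := fun _ _ => rfl, map_smul' := fun _ _ => rfl }
    { toFun := Hm.mk, map_add' := fun _ _ => rfl, map_smul' := fun _ _ => rfl } fun _ => rfl

lemma van_LL {n : ℤ} (hn : n ≠ 4) (hn' : n ≠ 1) : σ.P.Van (LL k R) n := by
  have : σ.P.SES (LL.valR (k := k) (R := R)) μR :=
    ⟨LL.val_inj, LL.μ_val, fun _ b _ h => ⟨LL.mk b h, rfl⟩, fun _ c _ => ⟨sec c, μ_sec c⟩⟩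
  exact this.van₁ (σ.van_E hn) (σ.van_DR (by omega))

omit [FiniteDimensional k R] in
lemma van_YG (a : ℤ) {n : ℤ} (hn : n ≠ 4) : σ.P.Van (σ.P.Cyc (Hm k R R) R a) n := by
  let W := LinearMap.range (σ.P.δL k ∘ₗ σ.P.cpr k (a - 1))
  obtain ⟨s, hs⟩ := W.mkQ.exists_rightInverse_of_surjective W.range_mkQ
  let Pr : (ι → R) →ₗ[k] (ι → R) := s ∘ₗ W.mkQ ∘ₗ σ.P.cpr k a
  have hP : ∀ w, σ.P.IsCol a w → w - Pr w ∈ W := by
    intro w hw
    have h2 : σ.P.cpr k a w = w := funext hw
    rw [← Submodule.ker_mkQ W, LinearMap.mem_ker, map_sub]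
    simp only [Pr, LinearMap.comp_apply, h2]
    rw [← LinearMap.comp_apply W.mkQ s, hs]; simp
  refine (σ.P.van_linearMap (k := k) (σ.van n hn) (ι → R)).sub_retract _
    { toFun := fun v => pair v, map_add' := map_add _
      map_smul' := fun r v => LinearMap.ext fun w => pair_smul_end r v w }
    { toFun := fun Ψ => σ.P.rowOf σ.fin a (Ψ ∘ₗ Pr)
      map_add' := fun a b => by rw [LinearMap.add_comp, map_add]
      map_smul' := fun r Ψ => by ext i x; simp [rowOf_apply] } ?_ ?_
  · intro Ψ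
    refine ⟨σ.P.isRow_rowOf _ _ _, ?_⟩
    refine IsRow.eq_of_pair σ.fin (IsRow.rd' (σ.P.isRow_rowOf _ _ _)) (IsRow.zero _) ?_
    intro w hw
    simp only [LinearMap.coe_mk, AddHom.coe_mk]
    rw [pair_rd, pair_rowOf, funext hw.δ']
    have h2 : σ.P.cpr k a (σ.P.δ w) = σ.P.δ w := funext hw.δ'
    have h3 : σ.P.cpr k (a - 1) w = w := funext hw
    have h4 : W.mkQ (σ.P.δ w) = 0 := by
      rw [← LinearMap.mem_ker, Submodule.ker_mkQ]
      exact ⟨w, by rw [LinearMap.comp_apply, h3]; rfl⟩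
    simp [Pr, h2, h4]
  · intro v hv
    refine IsRow.eq_of_pair σ.fin (σ.P.isRow_rowOf _ _ _) hv.1 ?_
    intro w hw
    simp only [LinearMap.coe_mk, AddHom.coe_mk]
    rw [pair_rowOf, funext hw, LinearMap.comp_apply]
    obtain ⟨w', hw'⟩ := hP w hw
    have : pair v (w - Pr w) = 0 := by
      rw [← hw']; exact (σ.P.pair_rd v _).symm.trans (by rw [hv.2]; simp)
    rw [map_sub] at this
    exact (sub_eq_zero.1 this).symm

lemma ses_Y (a : ℤ) : σ.P.SES (σ.P.cycMap (LL.valR (k := k) (R := R)) LL.valR_op a)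
    (σ.P.cycMap μR μR_op a) where
  inj v w h := Subtype.ext (Finsupp.ext fun i => LL.val_inj
    (congrArg (fun z : σ.P.Cyc (Hm k R R) R a => z.1 i) h))
  comp v := Subtype.ext (Finsupp.ext fun i => LL.μ_val _)
  ex _ b _ h := by
    refine ⟨⟨b.1.mapRange ret (map_zero _), b.2.1.mapRange _ fun _ _ => ret_op_smul _ _, ?_⟩, ?_⟩
    · rw [σ.P.rd_mapRange _ (fun _ _ => ret_op_smul _ _), b.2.2]; simp
    · refine Subtype.ext (Finsupp.ext fun i => ?_)
      have : μk k R (b.1 i) = 0 := congrArg (fun z : σ.P.Cyc (Hm k R k) R a => z.1 i) h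
      show LL.val (ret (b.1 i)) = b.1 i
      simp [val_ret, this]
  surj _ c _ := by
    refine ⟨⟨c.1.mapRange sec (map_zero _), c.2.1.mapRange _ fun _ _ => sec_op_smul _ _, ?_⟩, ?_⟩
    · rw [σ.P.rd_mapRange _ (fun _ _ => sec_op_smul _ _), c.2.2]; simp
    · exact Subtype.ext (Finsupp.ext fun i => μ_sec _)

lemma van_YL {n : ℤ} (h4 : n ≠ 4) (h7 : n ≠ 7) : σ.P.Van (σ.P.Cyc (LL k R) R 6) n :=
  (σ.ses_Y 6).van₁ (σ.van_YG 6 h4) (σ.cycU6.1 _ (by omega) (by omega))

lemma exists_gen_YL : ∃ c : ι → σ.P.Cyc (LL k R) R 6, σ.P.Gen k 7 c := by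
  refine (σ.ses_Y 6).exists_gen₁ (fun a x => ?_) (fun a x => ?_)
    (σ.van_YG 6 (by norm_num)) σ.cycU6.2
  · refine Subtype.ext (Finsupp.ext fun i => ?_)
    show LL.val (a • x.1 i) = a • LL.val (x.1 i)
    exact map_smul _ _ _
  · refine Subtype.ext (Finsupp.ext fun i => ?_)
    show μk k R (a • x.1 i) = a • μk k R (x.1 i)
    exact map_smul _ _ _

/-! ### the trace argument -/

/-- cochains of degree `n` with values in `R` -/
def V (n : ℤ) : Submodule k (ι → R) where
  carrier := {w | σ.P.IsCol n w}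
  add_mem' := IsCol.add
  zero_mem' := IsCol.zero n
  smul_mem' c _ h := IsCol.smul h c

instance (n : ℤ) : FiniteDimensional k (σ.V n) :=
  FiniteDimensional.of_injective
    ((LinearMap.pi fun i : σ.fin.fib n => LinearMap.proj i.1) ∘ₗ (σ.V n).subtype) (by
      rw [injective_iff_map_eq_zero]
      intro w hw
      refine Subtype.ext (funext fun i => ?_)
      by_cases hi : σ.P.deg i = n
      · exact congrFun hw ⟨i, by simpa using hi⟩
      · exact IsCol.eq_zero w.2 hi)

/-- the coboundary -/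
noncomputable def dV (n : ℤ) : σ.V n →ₗ[k] σ.V (n + 1) :=
  ((σ.P.δL k).domRestrict _).codRestrict _ fun w => IsCol.δ w.2

/-- endomorphism of cochains given by a matrix of endomorphisms of `R` -/
noncomputable def ψ (n : ℤ) (g : ι → ι →₀ LL k R) : σ.V n →ₗ[k] σ.V n :=
  (σ.P.cpr k n ∘ₗ (LinearMap.pi fun j => pair ((g j).mapRange LL.val (map_zero _))) ∘ₗ
    (σ.V n).subtype).codRestrict _ fun _ => isCol_proj n _

omit [FiniteDimensional k R] in
lemma ψ_apply (n : ℤ) (g : ι → ι →₀ LL k R) (w : σ.V n) (j : ι) :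
    (σ.ψ n g w).1 j = σ.P.e n j * pair ((g j).mapRange LL.val (map_zero _)) w.1 := rfl

omit [FiniteDimensional k R] in
lemma pair_pi_single [DecidableEq ι] (v : ι →₀ Hm k R R) (j : ι) (x : R) :
    pair v (Pi.single j x) = (v j).lin x := by
  induction v using Finsupp.induction_linear with
  | zero => simp
  | add a b ha hb => simp [ha, hb]
  | single i b =>
    by_cases hij : i = j
    · subst hij; simp
    · simp [hij]

lemma trace_ψ (n : ℤ) (g : ι → ι →₀ LL k R) : LinearMap.trace k _ (σ.ψ n g) = 0 := by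
  classical
  let inc : ι → R →ₗ[k] σ.V n := fun j =>
    (σ.P.cpr k n ∘ₗ LinearMap.single k (fun _ => R) j).codRestrict _ fun _ => isCol_proj n _
  have hinc : ∀ j x, (inc j x).1 = Pi.single j (σ.P.e n j * x) := by
    intro j x
    funext i
    show σ.P.e n i * (Pi.single j x : ι → R) i = _
    by_cases hij : i = j
    · subst hij; simp
    · simp [hij]
  have : σ.ψ n g = ∑ j ∈ σ.fin.fib n,
      inc j ∘ₗ (pair ((g j).mapRange LL.val (map_zero _)) ∘ₗ (σ.V n).subtype) := by
    ext w i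
    rw [ψ_apply]
    simp only [LinearMap.sum_apply, LinearMap.comp_apply, Submodule.coe_sum, Finset.sum_apply,
      hinc, Pi.single_apply]
    rw [Finset.sum_ite_eq]
    split_ifs with hi
    · rfl
    · rw [σ.P.e_of_ne (by simpa using hi), zero_mul]
  rw [this, map_sum]
  refine Finset.sum_eq_zero fun j _ => ?_
  rw [LinearMap.trace_comp_comm']
  have h2 := congrArg (fun φ : Hm k R k => φ.lin 1) (LL.μ_val (op (σ.P.e n j) • g j j))
  simp only [μk_apply, Hm.lin_zero, LinearMap.zero_apply] at h2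
  rw [← h2]
  congr 1
  ext x
  simp [hinc, pair_pi_single]

/-- the identity matrix -/
noncomputable def gid : ι → ι →₀ LL k R := fun j => single j (σ.κL 1)

lemma mapRange_gid (j : ι) :
    (σ.gid j).mapRange LL.val (map_zero _) = single j (LL.val (σ.κL 1)) := by
  simp [gid]

lemma finrank_V (n : ℤ) : (Module.finrank k (σ.V n) : k) = 0 := by
  rw [← LinearMap.trace_id, ← σ.trace_ψ n σ.gid]
  congr 1
  ext w j
  rw [ψ_apply, mapRange_gid, pair_single, κL_apply, one_mul]
  exact (w.2 j).symm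

/-- dimension of the coboundaries -/
noncomputable def bb (n : ℤ) : k := Module.finrank k (LinearMap.range (σ.dV n))

omit [FiniteDimensional k R] in
lemma range_le_ker (n : ℤ) : LinearMap.range (σ.dV n) ≤ LinearMap.ker (σ.dV (n + 1)) := by
  rintro _ ⟨w, rfl⟩
  exact Subtype.ext (σ.P.δδ w.1)

lemma bb_ker (n : ℤ) : σ.bb n + Module.finrank k (LinearMap.ker (σ.dV n)) = 0 := by
  rw [← σ.finrank_V n, ← LinearMap.finrank_range_add_finrank_ker (σ.dV n), bb]; push_cast; rfl

omit [FiniteDimensional k R] in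
lemma ker_eq_range {n : ℤ} (hn : n + 1 ≠ 4) :
    LinearMap.ker (σ.dV (n + 1)) = LinearMap.range (σ.dV n) := by
  refine le_antisymm (fun w hw => ?_) (σ.range_le_ker n)
  obtain ⟨w', hw', h⟩ := σ.van _ hn w.1 w.2 (congrArg Subtype.val hw)
  rw [add_sub_cancel_right] at hw'
  exact ⟨⟨w', hw'⟩, Subtype.ext h⟩

lemma bb_succ {n : ℤ} (hn : n + 1 ≠ 4) : σ.bb (n + 1) + σ.bb n = 0 := by
  have := σ.bb_ker (n + 1)
  rwa [σ.ker_eq_range hn] at this

lemma bb_four : σ.bb (3 + 1) + (σ.bb 3 + 1) = 0 := by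
  have := σ.bb_ker (3 + 1)
  let γ : σ.V (3 + 1) := ⟨σ.γ, σ.gen.1⟩
  have h : LinearMap.ker (σ.dV (3 + 1)) = LinearMap.range (σ.dV 3) ⊔ Submodule.span k {γ} := by
    refine le_antisymm (fun w hw => ?_) (sup_le (σ.range_le_ker 3) ?_)
    · obtain ⟨a, w', hw', h⟩ := σ.gen.2.2 w.1 w.2 (congrArg Subtype.val hw)
      have : w = σ.dV 3 ⟨w', hw'⟩ + a • γ := Subtype.ext (h.trans (add_comm _ _))
      rw [this]
      exact Submodule.add_mem_sup ⟨_, rfl⟩ (Submodule.smul_mem _ _ (Submodule.mem_span_singleton_self _))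
    · rw [Submodule.span_singleton_le_iff_mem]
      exact Subtype.ext σ.gen.2.1
  rw [h, Submodule.finrank_sup_span_singleton] at this
  · rw [← this, bb, bb]; push_cast; rfl
  · rintro ⟨w, hw⟩
    exact σ.ncob ⟨w.1, w.2, congrArg Subtype.val hw⟩

lemma bb_five : σ.bb 5 = 1 := by
  have h : σ.bb (-1) = 0 := by
    have : LinearMap.range (σ.dV (-1)) = ⊥ := by
      rw [LinearMap.range_eq_bot]
      refine LinearMap.ext fun w => ?_
      have : w = 0 := Subtype.ext (funext fun i =>
        IsCol.eq_zero w.2 (by have := σ.nonneg i; omega))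
      rw [this]; simp
    rw [bb, this]; simp
  have h0 := σ.bb_succ (n := -1) (by norm_num)
  have h1 := σ.bb_succ (n := 0) (by norm_num)
  have h2 := σ.bb_succ (n := 1) (by norm_num)
  have h3 := σ.bb_succ (n := 2) (by norm_num)
  have h4 := σ.bb_four
  have h5 := σ.bb_succ (n := 4) (by norm_num)
  norm_num at h0 h1 h2 h3 h4 h5
  linear_combination h5 - h4 + h3 - h2 + h1 - h0 + h

/-- the tautological cocycle -/
noncomputable def taut (a : ℤ) (i : ι) : σ.P.Cyc R R a :=
  ⟨σ.P.rd (single i (σ.P.e (a + 1) i)), IsRow.rd (by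
    rw [IsRow, pr_single, op_smul_eq_mul, σ.P.e_idem]), σ.P.rd_rd _⟩

omit [FiniteDimensional k R] in
lemma taut_coe (a : ℤ) (i : ι) : (σ.taut a i).1 = σ.P.e (a + 1) i • σ.P.D i := by
  simp [taut, rrow_self]

/-- the image of the tautological cocycle -/
noncomputable def κu (i : ι) : σ.P.Cyc (LL k R) R 6 :=
  σ.P.cycMap σ.κL σ.κL_op_smul 6 (σ.taut 6 i)

omit [FiniteDimensional k R] in
lemma isCol_taut (a : ℤ) : σ.P.IsCol (a + 1) (σ.taut a) := fun i => Subtype.ext (by
  rw [Submodule.coe_smul, taut_coe, smul_smul, σ.P.e_idem])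

omit [FiniteDimensional k R] in
lemma δ_taut (a : ℤ) : σ.P.δ (σ.taut a) = 0 := by
  funext i
  apply Subtype.ext
  have := congrFun (σ.P.δ_map (σ.P.Cyc R R a).subtype (σ.taut a)) i
  simp only [Submodule.subtype_apply, taut_coe] at this
  rw [← this, ← e_smul_δ]
  have h2 : σ.P.δ σ.P.D i = 0 := σ.P.DD i
  rw [h2]; simp

lemma pair_κL (x : ι →₀ R) (w : ι → R) :
    pair ((x.mapRange σ.κL (map_zero _)).mapRange LL.val (map_zero _)) w =
      linearCombination R w x := by
  induction x using Finsupp.induction_linear with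
  | zero => simp
  | add a b ha hb =>
    rw [mapRange_add (map_add _), mapRange_add (map_add _), map_add, LinearMap.add_apply, ha, hb,
      map_add]
  | single i b => simp

lemma not_cob_κu : ¬ σ.P.IsCob 7 σ.κu := by
  rintro ⟨g, hg, hδ⟩
  let g' : ι → ι →₀ LL k R := fun j => σ.gid j - (g j).1
  let ev : (ι → R) → σ.P.Cyc (LL k R) R 6 →ₗ[R] R := fun w =>
    { toFun := fun v => pair (v.1.mapRange LL.val (map_zero _)) w
      map_add' := fun a b => by
        rw [Submodule.coe_add, mapRange_add (map_add _), map_add, LinearMap.add_apply]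
      map_smul' := fun r v => by
        rw [RingHom.id_apply, smul_eq_mul, ← pair_smul_end]; congr 2; ext; simp }
  have hψ : ∀ w : σ.V (5 + 1), (σ.ψ (5 + 1) g' w).1 = w.1 - fun j => ev w.1 (g j) := by
    intro w
    funext j
    have h1 : (g' j).mapRange LL.val (map_zero _) =
        single j (LL.val (σ.κL 1)) - (g j).1.mapRange LL.val (map_zero _) := by
      rw [← mapRange_gid]; ext1; simp [g']
    rw [ψ_apply, h1, map_sub, LinearMap.sub_apply, pair_single, κL_apply, one_mul, mul_sub]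
    have h2 := w.2 j
    have h3 := (hg.map (ev w.1)) j
    exact congrArg₂ (· - ·) h2 h3
  have hproj : LinearMap.IsProj (LinearMap.range (σ.dV 5)) (σ.ψ (5 + 1) g') := by
    constructor
    · intro w
      rw [← σ.ker_eq_range (by norm_num), LinearMap.mem_ker]
      apply Subtype.ext
      show σ.P.δ (σ.ψ (5 + 1) g' w).1 = 0
      rw [hψ, δ_sub, δ_map, hδ]
      funext i
      have : ev w.1 (σ.κu i) = linearCombination R w.1 (σ.taut 6 i).1 := σ.pair_κL _ _
      simp only [Pi.sub_apply, this, taut_coe, map_smul]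
      exact sub_eq_zero.2 (IsCol.δ w.2 i).symm
    · rintro _ ⟨w, rfl⟩
      apply Subtype.ext
      rw [hψ, sub_eq_self]
      funext j
      show pair ((g j).1.mapRange LL.val (map_zero _)) (σ.P.δ w.1) = 0
      rw [← pair_rd, σ.P.rd_mapRange _ (fun _ _ => rfl), (g j).2.2]; simp
  have := trace_isProj hproj
  rw [σ.trace_ψ] at this
  exact zero_ne_one (this.trans σ.bb_five)

lemma gen_κu : σ.P.Gen k 7 σ.κu := by
  obtain ⟨c, hc⟩ := σ.exists_gen_YL
  refine hc.of_not_cob ((σ.isCol_taut 6).map _) ?_ σ.not_cob_κu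
  show σ.P.δ (fun i => σ.P.cycMap σ.κL σ.κL_op_smul 6 (σ.taut 6 i)) = 0
  rw [δ_map, δ_taut]; funext i; simp

end Setup

end Vale.Agent.P195
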