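import Vale.Agent.P195.Dat

/-! Row complexes, push-forward along ring maps, cones. -/

namespace Vale.Agent.P195

open Finsupp MulOpposite

namespace Dat

variable {S : Type} [Ring S] {ι : Type} (X : Dat S ι)

section Row

variable {B : Type} [AddCommGroup B] [Module Sᵐᵒᵖ B]

/-- `b ↦ (b x_j)_j` -/
noncomputable def rrow {ι' : Type} (x : ι' →₀ S) : B →+ (ι' →₀ B) where
  toFun b := x.mapRange (fun s => op s • b) (by simp)
  map_zero' := by ext; simp
  map_add' a b := by ext; simp

@[simp] lemma rrow_apply {ι' : Type} (x : ι' →₀ S) (b : B) (j : ι') :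
    rrow x b j = op (x j) • b := rfl

/-- the differential on rows with entries in a right module -/
noncomputable def rd : (ι →₀ B) →+ (ι →₀ B) := liftAddHom fun i => rrow (X.D i)

@[simp] lemma rd_single (i : ι) (b : B) : X.rd (single i b) = rrow (X.D i) b := by simp [rd]

lemma rd_apply (v : ι →₀ B) (j : ι) : X.rd v j = v.sum fun i b => op (X.D i j) • b := by
  induction v using Finsupp.induction_linear with
  | zero => simp
  | add a b ha hb => rw [map_add, Finsupp.add_apply, ha, hb, sum_add_index'] <;> simp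
  | single i b => simp

/-- the projection onto degree `n` -/
noncomputable def pr (n : ℤ) : (ι →₀ B) →+ (ι →₀ B) :=
  liftAddHom fun i => (singleAddHom i).comp (DistribSMul.toAddMonoidHom B (op (X.e n i)))

@[simp] lemma pr_single (n : ℤ) (i : ι) (b : B) :
    X.pr n (single i b) = single i (op (X.e n i) • b) := by simp [pr]

lemma pr_apply (n : ℤ) (v : ι →₀ B) (i : ι) : X.pr n v i = op (X.e n i) • v i := by
  classical
  induction v using Finsupp.induction_linear with
  | zero => simp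
  | add a b ha hb => simp [ha, hb]
  | single j b => simp only [pr_single, single_apply]; split_ifs with h <;> simp [h]

/-- rows of degree `n` -/
def IsRow (n : ℤ) (v : ι →₀ B) : Prop := X.pr n v = v

lemma isRow_iff {n : ℤ} {v : ι →₀ B} : X.IsRow n v ↔ ∀ i, op (X.e n i) • v i = v i := by
  simp [IsRow, Finsupp.ext_iff, pr_apply]

lemma pr_pr (n : ℤ) (v : ι →₀ B) : X.pr n (X.pr n v) = X.pr n v := by
  ext i; simp [pr_apply, smul_smul, ← op_mul, X.e_idem]

lemma isRow_pr (n : ℤ) (v : ι →₀ B) : X.IsRow n (X.pr n v) := X.pr_pr n v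

lemma rd_pr (n : ℤ) (v : ι →₀ B) : X.rd (X.pr (n + 1) v) = X.pr n (X.rd v) := by
  induction v using Finsupp.induction_linear with
  | zero => simp
  | add a b ha hb => simp [ha, hb]
  | single j b => ext i; simp [pr_apply, smul_smul, ← op_mul, X.e_mul_D]

lemma rd_rrow (x : ι →₀ S) (b : B) : X.rd (rrow x b) = rrow (linearCombination S X.D x) b := by
  induction x using Finsupp.induction_linear with
  | zero => have : rrow (0 : ι →₀ S) b = 0 := by ext; simp
            simp [this]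
  | add x y hx hy =>
    have : ∀ x y : ι →₀ S, rrow (x + y) b = rrow x b + rrow y b := by
      intro x y; ext; simp [add_smul]
    simp [this, hx, hy]
  | single j s =>
    have : rrow (single j s) b = single j (op s • b) := by
      classical
      ext i; simp only [rrow_apply, single_apply]; split_ifs <;> simp
    rw [this]; ext i; simp [smul_smul]

lemma rd_rd (v : ι →₀ B) : X.rd (X.rd v) = 0 := by
  induction v using Finsupp.induction_linear with
  | zero => simp
  | add a b ha hb => simp [ha, hb]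
  | single j b => rw [rd_single, rd_rrow, X.DD]; ext; simp

variable {X}
lemma IsRow.rd {n : ℤ} {v : ι →₀ B} (h : X.IsRow (n + 1) v) : X.IsRow n (X.rd v) := by
  rw [IsRow, ← rd_pr, h]
lemma IsRow.rd' {n : ℤ} {v : ι →₀ B} (h : X.IsRow n v) : X.IsRow (n - 1) (X.rd v) := by
  apply IsRow.rd; rwa [sub_add_cancel]
lemma IsRow.zero (n : ℤ) : X.IsRow n (0 : ι →₀ B) := by simp [IsRow]
lemma IsRow.add {n : ℤ} {v w : ι →₀ B} (h : X.IsRow n v) (h' : X.IsRow n w) :
    X.IsRow n (v + w) := by rw [IsRow, map_add, h, h']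
lemma IsRow.neg {n : ℤ} {v : ι →₀ B} (h : X.IsRow n v) : X.IsRow n (-v) := by
  rw [IsRow, map_neg, h]
lemma IsRow.sub {n : ℤ} {v w : ι →₀ B} (h : X.IsRow n v) (h' : X.IsRow n w) :
    X.IsRow n (v - w) := by rw [IsRow, map_sub, h, h']
lemma IsRow.eq_zero {n : ℤ} {v : ι →₀ B} (h : X.IsRow n v) {i : ι} (hi : X.deg i ≠ n) :
    v i = 0 := by rw [← X.isRow_iff.1 h i, X.e_of_ne hi]; simp
lemma IsRow.ε_smul {n : ℤ} {v : ι →₀ B} (h : X.IsRow n v) (i : ι) : op (X.ε i) • v i = v i := by
  rw [← X.isRow_iff.1 h i, smul_smul, ← op_mul, X.e_mul_ε]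
lemma isRow_of {n : ℤ} {v : ι →₀ B} (h1 : ∀ i, op (X.ε i) • v i = v i)
    (h2 : ∀ i, X.deg i ≠ n → v i = 0) : X.IsRow n v := X.isRow_iff.2 fun i => by
  by_cases h : X.deg i = n
  · rw [X.e_of_eq h, h1]
  · rw [h2 i h, smul_zero]
lemma isRow_single {n : ℤ} {i : ι} (hi : X.deg i = n) {b : B} (hb : op (X.ε i) • b = b) :
    X.IsRow n (single i b) := by rw [IsRow, pr_single, X.e_of_eq hi, hb]
lemma IsRow.sum {n : ℤ} {α : Type} {s : Finset α} {f : α → ι →₀ B}
    (h : ∀ a ∈ s, X.IsRow n (f a)) : X.IsRow n (∑ a ∈ s, f a) := by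
  rw [IsRow, map_sum]; exact Finset.sum_congr rfl h

variable (X)
variable {S' : Type} [Semiring S'] [Module S' B] [SMulCommClass S' Sᵐᵒᵖ B]

lemma rd_smul (s : S') (v : ι →₀ B) : X.rd (s • v) = s • X.rd v := by
  induction v using Finsupp.induction_linear with
  | zero => simp
  | add a b ha hb => simp [ha, hb]
  | single j b => ext i; simp [smul_comm s]

lemma pr_smul (n : ℤ) (s : S') (v : ι →₀ B) : X.pr n (s • v) = s • X.pr n v := by
  ext i; simp [pr_apply, smul_comm s]

variable {X} in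
lemma IsRow.smul {n : ℤ} {v : ι →₀ B} (h : X.IsRow n v) (s : S') : X.IsRow n (s • v) := by
  rw [IsRow, pr_smul, h]

variable (S' B)

/-- differential as a linear map -/
noncomputable def rdL : (ι →₀ B) →ₗ[S'] (ι →₀ B) where
  toFun := X.rd
  map_add' := map_add _
  map_smul' := X.rd_smul

@[simp] lemma rdL_apply (v : ι →₀ B) : X.rdL B S' v = X.rd v := rfl

/-- projection as a linear map -/
noncomputable def prL (n : ℤ) : (ι →₀ B) →ₗ[S'] (ι →₀ B) where
  toFun := X.pr n
  map_add' := map_add _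
  map_smul' := X.pr_smul n

@[simp] lemma prL_apply (n : ℤ) (v : ι →₀ B) : X.prL B S' n v = X.pr n v := rfl

/-- rows of degree `n` -/
def Row (n : ℤ) : Submodule S' (ι →₀ B) where
  carrier := {v | X.IsRow n v}
  add_mem' := IsRow.add
  zero_mem' := IsRow.zero n
  smul_mem' s _ h := IsRow.smul h s

/-- cycles of degree `n` -/
def Cyc (n : ℤ) : Submodule S' (ι →₀ B) where
  carrier := {v | X.IsRow n v ∧ X.rd v = 0}
  add_mem' h h' := ⟨h.1.add h'.1, by rw [map_add, h.2, h'.2, add_zero]⟩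
  zero_mem' := ⟨IsRow.zero n, map_zero _⟩
  smul_mem' s _ h := ⟨IsRow.smul h.1 s, by rw [rd_smul, h.2, smul_zero]⟩

/-- boundaries of degree `n` -/
def Bd (n : ℤ) : Submodule S' (ι →₀ B) where
  carrier := {v | ∃ w, X.IsRow (n + 1) w ∧ X.rd w = v}
  add_mem' := by
    rintro _ _ ⟨a, ha, rfl⟩ ⟨b, hb, rfl⟩; exact ⟨a + b, ha.add hb, map_add _ _ _⟩
  zero_mem' := ⟨0, IsRow.zero _, map_zero _⟩
  smul_mem' s := by rintro _ ⟨a, ha, rfl⟩; exact ⟨s • a, ha.smul s, X.rd_smul s a⟩

variable {S' B X}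
lemma mem_Row {n : ℤ} {v : ι →₀ B} : v ∈ X.Row B S' n ↔ X.IsRow n v := Iff.rfl
lemma mem_Cyc {n : ℤ} {v : ι →₀ B} : v ∈ X.Cyc B S' n ↔ X.IsRow n v ∧ X.rd v = 0 := Iff.rfl
lemma mem_Bd {n : ℤ} {v : ι →₀ B} :
    v ∈ X.Bd B S' n ↔ ∃ w, X.IsRow (n + 1) w ∧ X.rd w = v := Iff.rfl
lemma Bd_le_Cyc (n : ℤ) : X.Bd B S' n ≤ X.Cyc B S' n := by
  rintro _ ⟨a, ha, rfl⟩; exact ⟨ha.rd, X.rd_rd a⟩
lemma Cyc_le_Row (n : ℤ) : X.Cyc B S' n ≤ X.Row B S' n := fun _ h => h.1
lemma Bd_le_Row (n : ℤ) : X.Bd B S' n ≤ X.Row B S' n := (Bd_le_Cyc n).trans (Cyc_le_Row n)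

variable (X B)
/-- exactness of the row complex in degree `n` -/
def RowExact (n : ℤ) : Prop :=
  ∀ v : ι →₀ B, X.IsRow n v → X.rd v = 0 → ∃ w, X.IsRow (n + 1) w ∧ X.rd w = v

variable (S')
/-- the differential onto boundaries -/
noncomputable def toBd (n : ℤ) : X.Row B S' (n + 1) →ₗ[S'] X.Bd B S' n :=
  ((X.rdL B S').domRestrict _).codRestrict _ fun v => ⟨v.1, v.2, rfl⟩

@[simp] lemma toBd_coe (n : ℤ) (v : X.Row B S' (n + 1)) :
    (X.toBd B S' n v : ι →₀ B) = X.rd v := rfl

/-- finiteness of every degree -/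
def FinDeg : Prop := ∀ n, {i | X.deg i = n}.Finite

variable {X}
/-- indices of degree `n` -/
noncomputable def FinDeg.fib (h : X.FinDeg) (n : ℤ) : Finset ι := (h n).toFinset

@[simp] lemma FinDeg.mem_fib (h : X.FinDeg) {n : ℤ} {i : ι} : i ∈ h.fib n ↔ X.deg i = n := by
  simp [FinDeg.fib]

variable {B S'}
lemma IsRow.eq_sum (h : X.FinDeg) {n : ℤ} {v : ι →₀ B} (hv : X.IsRow n v) :
    v = ∑ i ∈ h.fib n, single i (v i) := by
  classical
  ext j
  simp only [Finsupp.finset_sum_apply, single_apply]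
  rw [Finset.sum_ite_eq']
  split_ifs with hj
  · rfl
  · exact hv.eq_zero (by simpa using hj)

/-- rows are a retract of a finite power -/
lemma van_Row {S' : Type} [Ring S'] [Module S' B] [SMulCommClass S' Sᵐᵒᵖ B] {ι' : Type}
    {X' : Dat S' ι'} (h : X.FinDeg) (n : ℤ) {m : ℤ} (hB : X'.Van B m) :
    X'.Van (X.Row B S' n) m := by
  refine (Van.pi (σ := h.fib n) (Z := fun _ => B) fun _ => hB).sub_retract _
    (LinearMap.pi fun i => Finsupp.lapply i.1)
    ((X.prL B S' n).comp (∑ i : h.fib n, (Finsupp.lsingle i.1).comp (LinearMap.proj i)))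
    (fun v => X.isRow_pr n _) ?_
  intro v hv
  simp only [LinearMap.comp_apply, prL_apply, LinearMap.sum_apply,
    LinearMap.proj_apply, LinearMap.pi_apply, lsingle_apply, lapply_apply]
  rw [Finset.sum_coe_sort (h.fib n) (fun i => single i (v i)), ← IsRow.eq_sum h hv]
  exact hv

end Row

section Self

lemma rrow_self {ι' : Type} (x : ι' →₀ S) (s : S) : rrow x s = s • x := by ext; simp

lemma rd_eq_lc (v : ι →₀ S) : X.rd v = linearCombination S X.D v := by
  induction v using Finsupp.induction_linear with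
  | zero => simp
  | add a b ha hb => simp [ha, hb]
  | single j b => simp [rrow_self]

lemma rd_D (i : ι) : X.rd (X.D i) = 0 := by rw [rd_eq_lc, X.DD]

lemma ε_smul_D (i : ι) : X.ε i • X.D i = X.D i := by ext j; simp [X.D_left]

lemma rd_gen (i : ι) : X.rd (single i (X.ε i)) = X.D i := by simp [rrow_self, ε_smul_D]

lemma isRow_D (i : ι) : X.IsRow (X.deg i - 1) (X.D i) := by
  rw [← rd_gen]; exact IsRow.rd' (isRow_single rfl (by simp [X.idem]))

variable {Y : Type} [AddCommGroup Y] [Module S Y]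

lemma lc_rd (w : ι → Y) (v : ι →₀ S) :
    linearCombination S w (X.rd v) = linearCombination S (X.δ w) v := by
  induction v using Finsupp.induction_linear with
  | zero => simp
  | add a b ha hb => simp [ha, hb]
  | single j b => simp [rrow_self, δ]

lemma lc_pr (n : ℤ) (w : ι → Y) (v : ι →₀ S) :
    linearCombination S w (X.pr n v) = linearCombination S (fun i => X.e n i • w i) v := by
  induction v using Finsupp.induction_linear with
  | zero => simp
  | add a b ha hb => simp [ha, hb]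
  | single j b =>
    rw [pr_single, linearCombination_single, linearCombination_single, smul_smul, op_smul_eq_mul]

end Self

section Map

variable {S₂ : Type} [Ring S₂] (φ : S →ₙ+* S₂)

/-- push-forward along a non-unital ring map -/
noncomputable def map : Dat S₂ ι where
  deg := X.deg
  ε i := φ (X.ε i)
  D i := (X.D i).mapRange φ (map_zero φ)
  idem i := by rw [← map_mul, X.idem]
  D_deg i j h := X.D_deg i j fun h' => h (by simp [h'])
  D_left i j := by simp [← map_mul, X.D_left]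
  D_right i j := by simp [← map_mul, X.D_right]
  DD i := by
    have : ∀ x : ι →₀ S, linearCombination S₂ (fun i => (X.D i).mapRange φ (map_zero φ))
        (x.mapRange φ (map_zero φ)) = (linearCombination S X.D x).mapRange φ (map_zero φ) := by
      intro x
      induction x using Finsupp.induction_linear with
      | zero => simp
      | add a b ha hb => rw [mapRange_add (map_add φ), map_add, ha, hb, map_add,
          mapRange_add (map_add φ)]
      | single j b => ext; simp
    rw [this, X.DD]; simp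

@[simp] lemma map_deg (i : ι) : (X.map φ).deg i = X.deg i := rfl
@[simp] lemma map_ε (i : ι) : (X.map φ).ε i = φ (X.ε i) := rfl
@[simp] lemma map_D (i j : ι) : (X.map φ).D i j = φ (X.D i j) := rfl
lemma map_e (n : ℤ) (i : ι) : (X.map φ).e n i = φ (X.e n i) := by
  by_cases h : X.deg i = n
  · rw [X.e_of_eq h, (X.map φ).e_of_eq h]; rfl
  · rw [X.e_of_ne h, (X.map φ).e_of_ne h, map_zero]

variable {Y : Type} [AddCommGroup Y] [Module S₂ Y]

lemma map_δ (w : ι → Y) (i : ι) : (X.map φ).δ w i = (X.D i).sum fun j s => φ s • w j := by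
  rw [δ_apply]; exact sum_mapRange_index (hf := map_zero φ) (by simp)

variable {Y' : Type} [AddCommGroup Y'] [Module S Y']

lemma δ_enc (enc : Y' →+ Y) (henc : ∀ s y, enc (s • y) = φ s • enc y) (w : ι → Y') :
    (X.map φ).δ (fun i => enc (w i)) = fun i => enc (X.δ w i) := by
  funext i; rw [map_δ]; simp [δ_apply, Finsupp.sum, map_sum, henc]

lemma δ_dec (dec : Y →+ Y') (hdec : ∀ s y, dec (φ s • y) = s • dec y) (w : ι → Y) :
    X.δ (fun i => dec (w i)) = fun i => dec ((X.map φ).δ w i) := by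
  funext i; rw [map_δ]; simp [δ_apply, Finsupp.sum, map_sum, hdec]

variable {X φ}
lemma IsCol.enc {n : ℤ} {w : ι → Y'} (h : X.IsCol n w) (enc : Y' →+ Y)
    (henc : ∀ s y, enc (s • y) = φ s • enc y) : (X.map φ).IsCol n (fun i => enc (w i)) :=
  fun i => by rw [map_e, ← henc, h i]

lemma IsCol.dec {n : ℤ} {w : ι → Y} (h : (X.map φ).IsCol n w) (dec : Y →+ Y')
    (hdec : ∀ s y, dec (φ s • y) = s • dec y) : X.IsCol n (fun i => dec (w i)) :=
  fun i => by rw [← hdec, ← map_e, h i]

lemma Van.transfer {n : ℤ} (h : X.Van Y' n) (enc : Y' →+ Y) (dec : Y →+ Y')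
    (henc : ∀ s y, enc (s • y) = φ s • enc y) (hdec : ∀ s y, dec (φ s • y) = s • dec y)
    (hed : ∀ s y, enc (dec (φ s • y)) = φ s • y) : (X.map φ).Van Y n := by
  intro w hw hδ
  obtain ⟨w', hw', h'⟩ := h _ (hw.dec dec hdec) (by rw [δ_dec X φ dec hdec, hδ]; funext i; simp)
  refine ⟨_, hw'.enc enc henc, ?_⟩
  rw [δ_enc X φ enc henc, h']
  funext i
  show enc (dec (w i)) = w i
  rw [← hw i, map_e, hed]

lemma Gen.transfer {k : Type} [SMul k Y] [SMul k Y'] {n : ℤ} {c : ι → Y'} (h : X.Gen k n c)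
    (enc : Y' →+ Y) (dec : Y →+ Y') (hk : ∀ (a : k) y, enc (a • y) = a • enc y)
    (henc : ∀ s y, enc (s • y) = φ s • enc y) (hdec : ∀ s y, dec (φ s • y) = s • dec y)
    (hed : ∀ s y, enc (dec (φ s • y)) = φ s • y) :
    (X.map φ).Gen k n (fun i => enc (c i)) := by
  refine ⟨h.1.enc enc henc, by rw [δ_enc X φ enc henc, h.2.1]; funext i; simp, fun w hw hδ => ?_⟩
  obtain ⟨a, w', hw', h'⟩ := h.2.2 _ (hw.dec dec hdec)
    (by rw [δ_dec X φ dec hdec, hδ]; funext i; simp)
  refine ⟨a, _, hw'.enc enc henc, ?_⟩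
  rw [δ_enc X φ enc henc]
  funext i
  have := congrFun h' i
  simp only [Pi.add_apply, Pi.smul_apply] at this ⊢
  rw [← hk, ← map_add, ← this, ← hw i, map_e, hed]

lemma IsCob.dec {n : ℤ} {c : ι → Y} (h : (X.map φ).IsCob n c) (dec : Y →+ Y')
    (hdec : ∀ s y, dec (φ s • y) = s • dec y) : X.IsCob n (fun i => dec (c i)) := by
  obtain ⟨w, hw, rfl⟩ := h
  exact ⟨_, hw.dec dec hdec, δ_dec X φ dec hdec w⟩

end Map

end Dat

end Vale.Agent.P195

namespace Vale.Agent.P195.Dat

open Finsupp MulOpposite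

variable {S : Type} [Ring S] {ι : Type} (X : Dat S ι)
variable {B B' : Type} [AddCommGroup B] [Module Sᵐᵒᵖ B] [AddCommGroup B'] [Module Sᵐᵒᵖ B']

lemma rd_mapRange {F : Type} [FunLike F B B'] [AddMonoidHomClass F B B'] (f : F)
    (hf : ∀ (s : S) b, f (op s • b) = op s • f b) (v : ι →₀ B) :
    X.rd (v.mapRange f (map_zero f)) = (X.rd v).mapRange f (map_zero f) := by
  induction v using Finsupp.induction_linear with
  | zero => simp
  | add a b ha hb => rw [mapRange_add (map_add f), map_add, ha, hb, map_add,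
      mapRange_add (map_add f)]
  | single j b => ext; simp [hf]

variable {X} in
lemma IsRow.mapRange {F : Type} [FunLike F B B'] [AddMonoidHomClass F B B'] (f : F)
    (hf : ∀ (s : S) b, f (op s • b) = op s • f b) {n : ℤ} {v : ι →₀ B} (h : X.IsRow n v) :
    X.IsRow n (v.mapRange f (map_zero f)) :=
  X.isRow_iff.2 fun i => by rw [mapRange_apply, ← hf, X.isRow_iff.1 h i]

variable {S' : Type} [Ring S'] [Module S' B] [SMulCommClass S' Sᵐᵒᵖ B] {ι' : Type}
  {X' : Dat S' ι'}

lemma ses_bd (n : ℤ) (hex : ∀ i (v : ι →₀ B), X'.ε i • v = v → X.IsRow (n + 1) v → X.rd v = 0 →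
      ∃ w, X.IsRow (n + 1 + 1) w ∧ X.rd w = v) :
    X'.SES (Submodule.inclusion (Bd_le_Row (X := X) (B := B) (S' := S') (n + 1)))
      (X.toBd B S' n) where
  inj := Submodule.inclusion_injective _
  comp a := Subtype.ext (Bd_le_Cyc _ a.2).2
  ex i b hb h := ⟨⟨b.1, hex i b.1 (congrArg Subtype.val hb) b.2 (congrArg Subtype.val h)⟩, rfl⟩
  surj i c _ := by
    obtain ⟨c, w, hw, rfl⟩ := c
    exact ⟨⟨w, hw⟩, rfl⟩

variable (B S') in
/-- the differential onto cycles -/
noncomputable def toCyc (n : ℤ) : X.Row B S' (n + 1) →ₗ[S'] X.Cyc B S' n :=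
  ((X.rdL B S').domRestrict _).codRestrict _ fun v => ⟨IsRow.rd v.2, X.rd_rd _⟩

lemma ses_cyc (n : ℤ) (hex : X.RowExact B n) :
    X'.SES (Submodule.inclusion (Cyc_le_Row (X := X) (B := B) (S' := S') (n + 1)))
      (X.toCyc B S' n) where
  inj := Submodule.inclusion_injective _
  comp a := Subtype.ext a.2.2
  ex i b _ h := ⟨⟨b.1, b.2, congrArg Subtype.val h⟩, rfl⟩
  surj i c _ := by
    obtain ⟨w, hw, h⟩ := hex c.1 c.2.1 c.2.2
    exact ⟨⟨w, hw⟩, Subtype.ext h⟩

lemma Bd_eq_Cyc {n : ℤ} (hex : X.RowExact B n) : X.Bd B S' n = X.Cyc B S' n :=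
  le_antisymm (Bd_le_Cyc n) fun v hv => hex v hv.1 hv.2

lemma isRow_lc {n : ℤ} {w : ι' → ι →₀ B} (hw : ∀ i, X.IsRow n (w i)) (x : ι' →₀ S') :
    X.IsRow n (linearCombination S' w x) := by
  rw [linearCombination_apply, Finsupp.sum]
  exact IsRow.sum fun i _ => (hw i).smul _

lemma rd_lc (w : ι' → ι →₀ B) (x : ι' →₀ S') :
    X.rd (linearCombination S' w x) = linearCombination S' (fun i => X.rd (w i)) x := by
  induction x using Finsupp.induction_linear with
  | zero => simp
  | add a b ha hb => simp [ha, hb]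
  | single j b => simp [rd_smul]

lemma van_of_neg {Y : Type} [AddCommGroup Y] [Module S Y] (h : ∀ i, 0 ≤ X.deg i) {n : ℤ}
    (hn : n < 0) : X.Van Y n := by
  intro w hw _
  refine ⟨0, IsCol.zero _, ?_⟩
  funext i
  rw [δ_zero, hw.eq_zero (by have := h i; omega)]; rfl

variable {X} in
lemma IsRow.eq_zero_of_neg (h : ∀ i, 0 ≤ X.deg i) {n : ℤ} (hn : n < 0) {v : ι →₀ B}
    (hv : X.IsRow n v) : v = 0 := by
  ext i; exact hv.eq_zero (by have := h i; omega)

lemma δ_congr {Y : Type} [AddCommGroup Y] [Module S Y] {w w' : ι → Y} {i : ι}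
    (h : ∀ j, X.deg i = X.deg j + 1 → w j = w' j) : X.δ w i = X.δ w' i := by
  rw [δ_apply, δ_apply]
  refine Finsupp.sum_congr fun j hj => ?_
  rw [h j (X.D_deg i j (Finsupp.mem_support_iff.1 hj))]

end Vale.Agent.P195.Dat
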