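import Vale.Agent.P195.Dual

/-! The abstract input of the construction and its first consequences. -/

namespace Vale.Agent.P195

open Finsupp MulOpposite Dat

attribute [-simp] Finsupp.single_mul

/-- An algebra with an exceptional one-dimensional module whose `Ext` into the algebra is
one-dimensional and sits in degree four. -/
structure Setup (k R ι : Type) [Field k] [Ring R] [Algebra k R] where
  P : Dat R ι
  fin : P.FinDeg
  nonneg : ∀ i, 0 ≤ P.deg i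
  χ : R →ₐ[k] k
  i₀ : ι
  deg_i₀ : P.deg i₀ = 0
  eq_i₀ : ∀ i, P.deg i = 0 → i = i₀
  χ_i₀ : χ (P.ε i₀) = 1
  χ_ne : ∀ i, i ≠ i₀ → χ (P.ε i) = 0
  rowExact : ∀ n, 1 ≤ n → P.RowExact R n
  rowExact₀ : ∀ v : ι →₀ R, P.IsRow 0 v → χ (v i₀) = 0 → ∃ w, P.IsRow 1 w ∧ P.rd w = v
  van : ∀ n, n ≠ 4 → P.Van R n
  γ : ι → R
  gen : P.Gen k 4 γ
  ncob : ¬ P.IsCob 4 γ
  γ_mul : ∀ r, P.IsCob 4 (fun i => γ i * r - χ r • γ i)
  tr : ∀ r, LinearMap.trace k R (LinearMap.mulLeft k r) = 0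
  two : (2 : k) = 0
  H : k
  H_ne : H ≠ 0
  H_pow : ∀ n : ℕ, 1 ≤ n → H ^ n ≠ 1

/-- the one-dimensional module of a character -/
def Sim {k R : Type} [Field k] [Ring R] [Algebra k R] (_ : R →ₐ[k] k) : Type := k

namespace Sim
variable {k R : Type} [Field k] [Ring R] [Algebra k R] (χ : R →ₐ[k] k)
instance : AddCommGroup (Sim χ) := inferInstanceAs (AddCommGroup k)
instance : Module k (Sim χ) := inferInstanceAs (Module k k)
instance : Module R (Sim χ) := Module.compHom (Sim χ) χ.toRingHom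
lemma smul_def (r : R) (x : Sim χ) : r • x = χ r • x := rfl
instance : SMulCommClass k R (Sim χ) := ⟨fun a r x => by rw [smul_def, smul_def, smul_comm]⟩
/-- the identification with the field -/
def mk : k ≃ₗ[k] Sim χ := LinearEquiv.refl k k
end Sim

namespace Setup

variable {k R ι : Type} [Field k] [Ring R] [Algebra k R] (σ : Setup k R ι)

include σ in
lemma add_self {Y : Type} [AddCommGroup Y] [Module k Y] (x : Y) : x + x = 0 := by
  rw [← two_smul k x, σ.two, zero_smul]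

lemma χ_e {n : ℤ} {i : ι} (h : n ≠ 0 ∨ i ≠ σ.i₀) : σ.χ (σ.P.e n i) = 0 := by
  by_cases hi : σ.P.deg i = n
  · rw [σ.P.e_of_eq hi]
    refine σ.χ_ne i ?_
    rintro rfl
    rcases h with h | h
    · exact h (by rw [← hi, σ.deg_i₀])
    · exact h rfl
  · rw [σ.P.e_of_ne hi, map_zero]

lemma χ_D (i j : ι) : σ.χ (σ.P.D i j) = 0 := by
  by_cases h : σ.P.D i j = 0
  · rw [h, map_zero]
  · have h1 := σ.P.D_deg i j h
    have h2 := σ.nonneg j
    rw [← σ.P.D_left, map_mul, σ.χ_ne i, zero_mul]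
    rintro rfl
    rw [σ.deg_i₀] at h1; omega

lemma D_i₀ : σ.P.D σ.i₀ = 0 := by
  ext j
  by_contra h
  have h1 := σ.P.D_deg _ j h
  have h2 := σ.nonneg j
  rw [σ.deg_i₀] at h1; omega

lemma e_zero_i₀ : σ.P.e 0 σ.i₀ = σ.P.ε σ.i₀ := σ.P.e_of_eq σ.deg_i₀

lemma van_sim {n : ℤ} (hn : n ≠ 0) : σ.P.Van (Sim σ.χ) n := by
  intro w hw _
  refine ⟨0, IsCol.zero _, ?_⟩
  funext i
  rw [δ_zero, ← hw i, Sim.smul_def, σ.χ_e (Or.inl hn), zero_smul]; rfl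

lemma van_DR {n : ℤ} (hn : n ≠ 0) : σ.P.Van (Hm k R k) n := by
  rcases lt_or_gt_of_ne hn with h | h
  · exact σ.P.van_of_neg σ.nonneg h
  · exact σ.P.van_dual (σ.rowExact n h)

lemma exact_U {n : ℤ} (hn : n ≠ 4) : σ.P.RowExact (Hm k R k) n :=
  σ.P.rowExact_Hm σ.fin (σ.van n hn)

lemma hom_sim {Y : Type} [AddCommGroup Y] [Module R Y] [Module k Y] [IsScalarTower k R Y]
    {w : ι → Y} (hw : σ.P.IsCol 0 w) (hδ : σ.P.δ w = 0) (x : R) :
    x • w σ.i₀ = σ.χ x • w σ.i₀ := by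
  obtain ⟨u, -, hu⟩ := σ.rowExact₀ (single σ.i₀ ((x - algebraMap k R (σ.χ x)) * σ.P.ε σ.i₀))
    (isRow_single σ.deg_i₀ (by simp [mul_assoc, σ.P.idem])) (by simp)
  have := σ.P.lc_rd w u
  rw [hu, hδ, linearCombination_single, mul_smul, hw.ε_smul, sub_smul, algebraMap_smul] at this
  exact sub_eq_zero.1 (by simpa using this)

lemma hom_U {b : ℤ} {w : ι → σ.P.Row (Hm k R k) R b} (hw : σ.P.IsCol 0 w) (hδ : σ.P.δ w = 0)
    (j : ι) (x : R) : ((w σ.i₀).1 j).lin x = σ.χ x * (σ.χ (σ.P.e b j) * ((w σ.i₀).1 j).lin 1) := by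
  have h : ∀ x, ((w σ.i₀).1 j).lin x = σ.χ x * ((w σ.i₀).1 j).lin 1 := by
    intro x
    have := congrArg (fun y : σ.P.Row (Hm k R k) R b => (y.1 j).lin 1) (σ.hom_sim hw hδ x)
    simpa using this
  have h2 := congrArg (fun y : Hm k R k => y.lin 1) (σ.P.isRow_iff.1 (w σ.i₀).2 j)
  simp only [Hm.lin_op_smul, unop_op, mul_one] at h2
  rw [h x, ← h (σ.P.e b j), h2]

lemma van_rowU {b n : ℤ} (h : b ≠ 0 ∨ n ≠ 0) : σ.P.Van (σ.P.Row (Hm k R k) R b) n := by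
  by_cases hn : n = 0
  · subst hn
    have hb : b ≠ 0 := h.resolve_right (by simp)
    intro w hw hδ
    refine ⟨0, IsCol.zero _, ?_⟩
    funext i
    rw [δ_zero]
    by_cases hi : i = σ.i₀
    · subst hi
      apply Subtype.ext
      ext j x
      rw [σ.hom_U hw hδ, σ.χ_e (Or.inl hb)]; simp
    · rw [hw.eq_zero (fun h => hi (σ.eq_i₀ i h))]; rfl
  · exact van_Row σ.fin b (σ.van_DR hn)

lemma gen_rowU : ∃ c : ι → σ.P.Row (Hm k R k) R 0, σ.P.Gen k 0 c := by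
  classical
  let c₀ : σ.P.Row (Hm k R k) R 0 := ⟨single σ.i₀ ⟨σ.χ.toLinearMap⟩,
    isRow_single σ.deg_i₀ (by ext; simp [σ.χ_i₀])⟩
  have hc₀ : ∀ r : R, r • c₀ = σ.χ r • c₀ := by
    intro r; apply Subtype.ext; ext j x
    simp only [c₀, Submodule.coe_smul, Submodule.coe_smul_of_tower, Finsupp.smul_apply,
      single_apply]
    split_ifs <;> simp [mul_comm]
  refine ⟨fun i => σ.P.e 0 i • c₀, isCol_proj 0 _, ?_, fun w hw hδ => ?_⟩
  · funext i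
    rw [δ_apply, Finsupp.sum]
    refine Finset.sum_eq_zero fun j _ => ?_
    rw [smul_smul, hc₀, map_mul, σ.χ_D, zero_mul, zero_smul]
  · refine ⟨((w σ.i₀).1 σ.i₀).lin 1, 0, IsCol.zero _, ?_⟩
    funext i
    rw [δ_zero, add_zero]
    by_cases hi : i = σ.i₀
    · subst hi
      apply Subtype.ext
      ext j x
      rw [σ.hom_U hw hδ]
      simp only [Pi.smul_apply, hc₀, σ.e_zero_i₀, σ.χ_i₀, one_smul, c₀,
        Submodule.coe_smul_of_tower, Finsupp.smul_apply, single_apply]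
      split_ifs with hj
      · subst hj; simp [σ.e_zero_i₀, σ.χ_i₀, mul_comm]
      · rw [σ.χ_e (Or.inr (Ne.symm hj))]; simp
    · rw [hw.eq_zero (fun h => hi (σ.eq_i₀ i h))]
      simp [σ.P.e_of_ne (fun h => hi (σ.eq_i₀ i h))]

lemma cycU (t : ℕ) : ∀ b : ℤ, b = t → b ≤ 4 →
    (∀ n : ℤ, n ≠ b → σ.P.Van (σ.P.Cyc (Hm k R k) R b) n) ∧
      ∃ c : ι → σ.P.Cyc (Hm k R k) R b, σ.P.Gen k b c := by
  induction t with
  | zero =>
    intro b hb _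
    obtain rfl : b = 0 := by simpa using hb
    have h : σ.P.Cyc (Hm k R k) R 0 = σ.P.Row (Hm k R k) R 0 :=
      le_antisymm (Cyc_le_Row 0) fun v hv =>
        ⟨hv, IsRow.eq_zero_of_neg σ.nonneg (by norm_num) (IsRow.rd' hv)⟩
    rw [h]
    exact ⟨fun n hn => σ.van_rowU (Or.inr hn), σ.gen_rowU⟩
  | succ t ih =>
    intro b hb hb4
    obtain rfl : b = (t : ℤ) + 1 := by simpa using hb
    obtain ⟨h1, h2⟩ := ih t rfl (by omega)
    have hs := σ.P.ses_cyc (X' := σ.P) (S' := R) (t : ℤ) (σ.exact_U (n := t) (by omega))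
    refine ⟨fun n hn => hs.van₁ (σ.van_rowU (Or.inl (by omega))) (h1 _ (by omega)), ?_⟩
    refine hs.exists_gen₁ (fun _ _ => rfl) (fun a x => Subtype.ext ?_)
      (σ.van_rowU (Or.inl (by omega))) ?_
    · show σ.P.rd (a • x.1) = a • σ.P.rd x.1
      exact σ.P.rd_smul a x.1
    · rwa [add_sub_cancel_right]

lemma pair_cob {n : ℤ} {u : ι →₀ Hm k R k} (hu : σ.P.rd u = 0) {c : ι → R}
    (hc : σ.P.IsCob n c) : pair u c = 0 := by
  obtain ⟨w, -, rfl⟩ := hc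
  rw [← pair_rd, hu]; simp

lemma ev_smul {u : ι →₀ Hm k R k} (hu : σ.P.rd u = 0) (r : R) :
    pair (r • u) σ.γ = σ.χ r * pair u σ.γ := by
  have := σ.pair_cob hu (σ.γ_mul r)
  rw [pair_smul_dual, ← smul_eq_mul, ← map_smul, ← sub_eq_zero, ← map_sub]
  exact this

lemma bd_of_ev {u : ι →₀ Hm k R k} (hu : σ.P.IsRow 4 u) (hd : σ.P.rd u = 0)
    (h : pair u σ.γ = 0) : ∃ u', σ.P.IsRow (4 + 1) u' ∧ σ.P.rd u' = u := by
  refine σ.P.exists_rd_of_pair σ.fin hu fun w hw hδ => ?_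
  obtain ⟨a, w', hw', rfl⟩ := σ.gen.2.2 w hw hδ
  rw [map_add, map_smul, h, σ.pair_cob hd ⟨w', hw', rfl⟩]; simp

lemma exists_ev_one : ∃ u : ι →₀ Hm k R k, σ.P.IsRow 4 u ∧ σ.P.rd u = 0 ∧ pair u σ.γ = 1 := by
  have hγ : σ.γ ∉ LinearMap.range (σ.P.δL k ∘ₗ σ.P.cpr k 3) := by
    rintro ⟨w, hw⟩
    exact σ.ncob ⟨_, isCol_proj 3 w, hw⟩
  obtain ⟨f, hf, hf'⟩ := Submodule.exists_dual_map_eq_bot_of_notMem hγ inferInstance
  refine ⟨σ.P.rowOf σ.fin 4 ((f σ.γ)⁻¹ • f), σ.P.isRow_rowOf _ _ _, ?_, ?_⟩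
  · refine IsRow.eq_of_pair σ.fin (IsRow.rd' (σ.P.isRow_rowOf _ _ _)) (IsRow.zero _) ?_
    intro w hw
    rw [pair_rd, pair_rowOf, funext hw.δ']
    have : f (σ.P.δ w) = 0 := by
      have h2 : σ.P.cpr k 3 w = w := funext hw
      have : f (σ.P.δ w) ∈ (⊥ : Submodule k k) := by
        rw [← hf']
        exact ⟨σ.P.δ w, ⟨w, by rw [LinearMap.comp_apply, h2]; rfl⟩, rfl⟩
      simpa using this
    simp [this]
  · rw [pair_rowOf, funext σ.gen.1]; simp [hf]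

/-- evaluation of cycles of degree four at the class `γ` -/
noncomputable def evU : σ.P.Cyc (Hm k R k) R 4 →ₗ[R] Sim σ.χ where
  toFun u := Sim.mk σ.χ (pair u.1 σ.γ)
  map_add' a b := by simp
  map_smul' r u := by
    rw [Submodule.coe_smul, σ.ev_smul u.2.2, RingHom.id_apply, Sim.smul_def, ← map_smul,
      smul_eq_mul]

lemma ses_evU : σ.P.SES (Submodule.inclusion (Bd_le_Cyc (X := σ.P) (B := Hm k R k) (S' := R) 4))
    σ.evU where
  inj := Submodule.inclusion_injective _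
  comp a := by
    obtain ⟨a, w, hw, rfl⟩ := a
    show Sim.mk σ.χ (pair (σ.P.rd w) σ.γ) = 0
    rw [pair_rd, σ.gen.2.1]; simp
  ex i b _ h := ⟨⟨b.1, σ.bd_of_ev b.2.1 b.2.2 ((Sim.mk σ.χ).map_eq_zero_iff.1 h)⟩, rfl⟩
  surj i c _ := by
    obtain ⟨u, hu, hd, h⟩ := σ.exists_ev_one
    refine ⟨((Sim.mk σ.χ).symm c) • ⟨u, hu, hd⟩, ?_⟩
    show Sim.mk σ.χ (pair (((Sim.mk σ.χ).symm c) • u) σ.γ) = c
    rw [map_smul, LinearMap.smul_apply, h]; simp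

lemma bdU (t : ℕ) : ∀ b : ℤ, b = 4 + t →
    (∀ n : ℤ, n ≠ b → n ≠ b - 3 → σ.P.Van (σ.P.Bd (Hm k R k) R b) n) ∧
      ∃ c : ι → σ.P.Bd (Hm k R k) R b, σ.P.Gen k b c := by
  induction t with
  | zero =>
    intro b hb
    obtain rfl : b = 4 := by simpa using hb
    obtain ⟨h1, h2⟩ := σ.cycU 4 4 rfl le_rfl
    exact ⟨fun n hn hn' => σ.ses_evU.van₁ (h1 n hn) (σ.van_sim (by omega)),
      σ.ses_evU.exists_gen_sub (fun _ _ => rfl) (σ.van_sim (by norm_num)) h2⟩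
  | succ t ih =>
    intro b hb
    obtain rfl : b = 4 + (t : ℤ) + 1 := by push_cast at hb; omega
    obtain ⟨h1, h2⟩ := ih _ rfl
    have hs := σ.P.ses_bd (X' := σ.P) (S' := R) (B := Hm k R k) (4 + t : ℤ)
      (fun _ v _ => σ.exact_U (n := 4 + t + 1) (by omega) v)
    refine ⟨fun n hn hn' => hs.van₁ (σ.van_rowU (Or.inl (by omega)))
      (h1 _ (by omega) (by omega)), ?_⟩
    refine hs.exists_gen₁ (fun _ _ => rfl) (fun a x => Subtype.ext ?_)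
      (σ.van_rowU (Or.inl (by omega))) ?_
    · show σ.P.rd (a • x.1) = a • σ.P.rd x.1
      exact σ.P.rd_smul a x.1
    · rwa [add_sub_cancel_right]

lemma cycU6 : (∀ n : ℤ, n ≠ 6 → n ≠ 3 → σ.P.Van (σ.P.Cyc (Hm k R k) R 6) n) ∧
      ∃ c : ι → σ.P.Cyc (Hm k R k) R 6, σ.P.Gen k 6 c := by
  have := σ.bdU 2 6 (by norm_num)
  rw [σ.P.Bd_eq_Cyc (σ.exact_U (by norm_num))] at this
  exact this

/-! ### the comparison map `ρ` -/

lemma exists_ρ : ∃ ρ : ι → ι →₀ Hm k R k, (∀ i, σ.P.ε i • ρ i = ρ i) ∧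
    (∀ i, σ.P.IsRow (σ.P.deg i + 4) (ρ i)) ∧ (∀ i, σ.P.rd (ρ i) = σ.P.δ ρ i) ∧
    pair (ρ σ.i₀) σ.γ = 1 := by
  let Inv : ℕ → (ι → ι →₀ Hm k R k) → Prop := fun n w =>
    σ.P.IsCol n w ∧ (∀ i, σ.P.IsRow (n + 4) (w i)) ∧
      ∀ i, ∃ u, σ.P.IsRow (n + 4 + 1) u ∧ σ.P.rd u = σ.P.δ w i
  obtain ⟨u₀, hu₀, hd₀, hev₀⟩ := σ.exists_ev_one
  have h0 : Inv 0 (fun i => σ.P.e 0 i • u₀) := by
    refine ⟨isCol_proj 0 _, fun i => hu₀.smul _, fun i => ?_⟩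
    have : σ.P.δ (fun i => σ.P.e 0 i • u₀) i = ((σ.P.D i).sum fun j s => s * σ.P.e 0 j) • u₀ := by
      simp [δ_apply, Finsupp.sum, Finset.sum_smul, smul_smul]
    rw [this]
    refine σ.bd_of_ev (hu₀.smul _) (by rw [rd_smul, hd₀, smul_zero]) ?_
    rw [σ.ev_smul hd₀]; simp [Finsupp.sum, map_sum, σ.χ_D]
  have hstep : ∀ n w, Inv n w → ∃ w', Inv (n + 1) w' ∧ ∀ i, σ.P.rd (w' i) = σ.P.δ w i := by
    rintro n w ⟨h1, h2, h3⟩
    choose u hu hu' using h3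
    have hrd : ∀ i, σ.P.rd (σ.P.e (n + 1) i • u i) = σ.P.δ w i := fun i => by
      rw [rd_smul, hu', h1.δ i]
    have hrow : ∀ i, σ.P.IsRow (n + 4 + 1) (σ.P.e (n + 1) i • u i) := fun i => (hu i).smul _
    refine ⟨fun i => σ.P.e (n + 1) i • u i, ⟨by push_cast; exact isCol_proj _ _, fun i => ?_,
      fun i => ?_⟩, hrd⟩
    · have := hrow i; push_cast; rwa [show (n : ℤ) + 1 + 4 = n + 4 + 1 by ring]
    · push_cast
      rw [show (n : ℤ) + 1 + 4 = n + 4 + 1 by ring]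
      refine σ.exact_U (by omega) _ (σ.P.isRow_lc hrow _) ?_
      rw [δ, rd_lc, funext hrd]
      exact congrFun (σ.P.δδ w) i
  choose st hst hst' using hstep
  let W : (n : ℕ) → {w // Inv n w} := fun n =>
    Nat.rec ⟨_, h0⟩ (fun n w => ⟨st n w.1 w.2, hst n w.1 w.2⟩) n
  have hW : ∀ n i, σ.P.rd ((W (n + 1)).1 i) = σ.P.δ (W n).1 i := fun n i =>
    hst' n (W n).1 (W n).2 i
  have hdeg : ∀ i, (((σ.P.deg i).toNat : ℕ) : ℤ) = σ.P.deg i := fun i =>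
    Int.toNat_of_nonneg (σ.nonneg i)
  have h00 : (W (σ.P.deg σ.i₀).toNat).1 σ.i₀ = σ.P.ε σ.i₀ • u₀ := by
    rw [σ.deg_i₀]; show σ.P.e 0 σ.i₀ • u₀ = _; rw [σ.e_zero_i₀]
  refine ⟨fun i => (W (σ.P.deg i).toNat).1 i, fun i => (W _).2.1.ε_smul i, fun i => ?_,
    fun i => ?_, ?_⟩
  · have := (W (σ.P.deg i).toNat).2.2.1 i
    rwa [hdeg] at this
  · by_cases hi : i = σ.i₀
    · subst hi
      beta_reduce
      rw [h00, rd_smul, hd₀, δ, σ.D_i₀]; simp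
    · obtain ⟨n, hn⟩ : ∃ n : ℕ, (σ.P.deg i).toNat = n + 1 := by
        refine ⟨(σ.P.deg i).toNat - 1, ?_⟩
        have h1 := σ.nonneg i
        have h2 : σ.P.deg i ≠ 0 := fun h => hi (σ.eq_i₀ i h)
        omega
      simp only []
      rw [hn, hW]
      refine σ.P.δ_congr fun j hj => ?_
      have : (σ.P.deg j).toNat = n := by have := hdeg i; have := hdeg j; omega
      rw [this]
  · simp only []
    rw [h00, σ.ev_smul hd₀, σ.χ_i₀, hev₀, one_mul]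

/-- the comparison map from the resolution to its dual shifted by four -/
noncomputable def ρ : ι → ι →₀ Hm k R k := σ.exists_ρ.choose

lemma ε_ρ (i : ι) : σ.P.ε i • σ.ρ i = σ.ρ i := σ.exists_ρ.choose_spec.1 i
lemma isRow_ρ (i : ι) : σ.P.IsRow (σ.P.deg i + 4) (σ.ρ i) := σ.exists_ρ.choose_spec.2.1 i
lemma rd_ρ (i : ι) : σ.P.rd (σ.ρ i) = σ.P.δ σ.ρ i := σ.exists_ρ.choose_spec.2.2.1 i
lemma ev_ρ : pair (σ.ρ σ.i₀) σ.γ = 1 := σ.exists_ρ.choose_spec.2.2.2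

/-- `ρ` on rows -/
noncomputable def ρL : (ι →₀ R) →ₗ[R] (ι →₀ Hm k R k) := linearCombination R σ.ρ

lemma rd_ρL (p : ι →₀ R) : σ.P.rd (σ.ρL p) = σ.ρL (σ.P.rd p) := by
  rw [ρL, rd_lc, lc_rd, funext σ.rd_ρ]

lemma pr_ρL (n : ℤ) (p : ι →₀ R) : σ.P.pr (n + 4) (σ.ρL p) = σ.ρL (σ.P.pr n p) := by
  induction p using Finsupp.induction_linear with
  | zero => simp
  | add a b ha hb => simp [ha, hb]
  | single j b =>
    simp only [ρL, linearCombination_single, pr_single, pr_smul, op_smul_eq_mul, mul_smul]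
    congr 1
    by_cases h : σ.P.deg j = n
    · rw [σ.P.e_of_eq h, σ.ε_ρ, ← h]; exact σ.isRow_ρ j
    · rw [σ.P.e_of_ne h, zero_smul]
      ext1 i
      rw [pr_apply]
      by_cases h2 : σ.P.deg i = n + 4
      · rw [(σ.isRow_ρ j).eq_zero (by omega)]; simp
      · rw [σ.P.e_of_ne h2]; simp

variable {σ} in
lemma _root_.Vale.Agent.P195.Dat.IsRow.ρL {n : ℤ} {p : ι →₀ R} (h : σ.P.IsRow n p) :
    σ.P.IsRow (n + 4) (σ.ρL p) := by rw [IsRow, pr_ρL, h]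

lemma rd_ρ_i₀ : σ.P.rd (σ.ρ σ.i₀) = 0 := by rw [rd_ρ, δ, σ.D_i₀, map_zero]

lemma ev_ρL {p : ι →₀ R} (h : σ.P.IsRow 0 p) : pair (σ.ρL p) σ.γ = σ.χ (p σ.i₀) := by
  have : p = single σ.i₀ (p σ.i₀) := by
    classical
    ext j
    rw [single_apply]; split_ifs with hj
    · rw [hj]
    · exact h.eq_zero fun h' => hj (σ.eq_i₀ j h').symm
  rw [this, ρL, linearCombination_single, σ.ev_smul σ.rd_ρ_i₀, σ.ev_ρ]; simp

/-- the cone of `ρ` is acyclic -/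
lemma cone_exact {n : ℤ} {u : ι →₀ Hm k R k} {p : ι →₀ R} (hu : σ.P.IsRow n u)
    (hp : σ.P.IsRow (n - 5) p) (h1 : σ.P.rd p = 0) (h2 : σ.P.rd u = σ.ρL p) :
    ∃ u' p', σ.P.IsRow (n + 1) u' ∧ σ.P.IsRow (n - 4) p' ∧ σ.P.rd p' = p ∧
      σ.P.rd u' + σ.ρL p' = u := by
  by_cases hn : n = 4
  · subst hn
    have hp0 : p = 0 := hp.eq_zero_of_neg σ.nonneg (by norm_num)
    subst hp0
    rw [map_zero] at h2
    let p' : ι →₀ R := pair u σ.γ • single σ.i₀ (σ.P.ε σ.i₀)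
    have hp' : σ.P.IsRow 0 p' := (isRow_single σ.deg_i₀ (by simp [σ.P.idem])).smul _
    have hd : σ.P.rd p' = 0 := hp'.rd'.eq_zero_of_neg σ.nonneg (by norm_num)
    obtain ⟨u', hu', hu''⟩ := σ.bd_of_ev (hu.sub hp'.ρL) (by
      rw [map_sub, h2, rd_ρL, hd]; simp) (by
      rw [map_sub, LinearMap.sub_apply, σ.ev_ρL hp']; simp [p', σ.χ_i₀])
    exact ⟨u', p', hu', hp', hd, by rw [hu'']; simp⟩
  · obtain ⟨p', hp', hp''⟩ : ∃ p', σ.P.IsRow (n - 4) p' ∧ σ.P.rd p' = p := by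
      rcases lt_trichotomy n 5 with h | h | h
      · exact ⟨0, IsRow.zero _, by rw [hp.eq_zero_of_neg σ.nonneg (by omega), map_zero]⟩
      · subst h
        refine σ.rowExact₀ p hp ?_
        rw [← σ.ev_ρL hp, ← h2, pair_rd, σ.gen.2.1, map_zero]
      · have := σ.rowExact (n - 5) (by omega) p hp h1
        rwa [show n - 5 + 1 = n - 4 by ring] at this
    have h3 := hp'.ρL
    rw [sub_add_cancel] at h3
    obtain ⟨u', hu', hu''⟩ := σ.exact_U hn _ (hu.sub h3) (by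
      rw [map_sub, h2, rd_ρL, hp'', sub_self])
    exact ⟨u', p', hu', hp', hp'', by rw [hu'']; simp⟩

end Setup

end Vale.Agent.P195
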