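import Vale.Agent.P195.LL

/-! The trivial extension and the resolution of the simple module over it. -/

namespace Vale.Agent.P195

open Finsupp MulOpposite Dat

attribute [-simp] Finsupp.single_mul

/-- the trivial extension algebra -/
@[ext] structure TT (k R : Type) [Field k] [Ring R] [Algebra k R] : Type where
  fst : R
  snd : Hm k R k

namespace TT

variable {k R : Type} [Field k] [Ring R] [Algebra k R]

/-- the tautological equivalence -/
def equiv : TT k R ≃ R × Hm k R k :=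
  ⟨fun t => (t.fst, t.snd), fun p => ⟨p.1, p.2⟩, fun _ => rfl, fun _ => rfl⟩

/-- the additive structure -/
abbrev acg : AddCommGroup (TT k R) := equiv.addCommGroup

section
attribute [local instance] acg
instance : Ring (TT k R) :=
  letI : Mul (TT k R) := ⟨fun a b => ⟨a.fst * b.fst, a.fst • b.snd + op b.fst • a.snd⟩⟩
  letI : One (TT k R) := ⟨⟨1, 0⟩⟩
  { acg (k := k) (R := R) with
    mul := (· * ·)
    one := 1
    mul_assoc := fun a b c => TT.ext (mul_assoc _ _ _) (by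
      show (a.fst * b.fst) • c.snd + op c.fst • (a.fst • b.snd + op b.fst • a.snd) =
        a.fst • (b.fst • c.snd + op c.fst • b.snd) + op (b.fst * c.fst) • a.snd
      simp only [smul_add, mul_smul, op_mul, smul_comm a.fst (op c.fst), add_assoc])
    one_mul := fun a => TT.ext (one_mul _) (by
      show (1 : R) • a.snd + op a.fst • (0 : Hm k R k) = a.snd
      simp)
    mul_one := fun a => TT.ext (mul_one _) (by
      show a.fst • (0 : Hm k R k) + op (1 : R) • a.snd = a.snd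
      simp)
    zero_mul := fun a => TT.ext (zero_mul _) (by
      show (0 : R) • a.snd + op a.fst • (0 : Hm k R k) = 0
      simp)
    mul_zero := fun a => TT.ext (mul_zero _) (by
      show a.fst • (0 : Hm k R k) + op (0 : R) • a.snd = 0
      simp)
    left_distrib := fun a b c => TT.ext (mul_add _ _ _) (by
      show a.fst • (b.snd + c.snd) + op (b.fst + c.fst) • a.snd =
        (a.fst • b.snd + op b.fst • a.snd) + (a.fst • c.snd + op c.fst • a.snd)
      simp only [smul_add, op_add, add_smul]; abel)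
    right_distrib := fun a b c => TT.ext (add_mul _ _ _) (by
      show (a.fst + b.fst) • c.snd + op c.fst • (a.snd + b.snd) =
        (a.fst • c.snd + op c.fst • a.snd) + (b.fst • c.snd + op c.fst • b.snd)
      simp only [smul_add, add_smul]; abel) }
end

@[simp] lemma fst_add (a b : TT k R) : (a + b).fst = a.fst + b.fst := rfl
@[simp] lemma snd_add (a b : TT k R) : (a + b).snd = a.snd + b.snd := rfl
@[simp] lemma fst_sub (a b : TT k R) : (a - b).fst = a.fst - b.fst := rfl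
@[simp] lemma snd_sub (a b : TT k R) : (a - b).snd = a.snd - b.snd := rfl
@[simp] lemma fst_neg (a : TT k R) : (-a).fst = -a.fst := rfl
@[simp] lemma snd_neg (a : TT k R) : (-a).snd = -a.snd := rfl
@[simp] lemma fst_zero : (0 : TT k R).fst = 0 := rfl
@[simp] lemma snd_zero : (0 : TT k R).snd = 0 := rfl
@[simp] lemma fst_one : (1 : TT k R).fst = 1 := rfl
@[simp] lemma snd_one : (1 : TT k R).snd = 0 := rfl
@[simp] lemma fst_mul (a b : TT k R) : (a * b).fst = a.fst * b.fst := rfl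
@[simp] lemma snd_mul (a b : TT k R) : (a * b).snd = a.fst • b.snd + op b.fst • a.snd := rfl

instance : SMul k (TT k R) := ⟨fun c t => ⟨c • t.fst, c • t.snd⟩⟩
@[simp] lemma fst_smul (c : k) (a : TT k R) : (c • a).fst = c • a.fst := rfl
@[simp] lemma snd_smul (c : k) (a : TT k R) : (c • a).snd = c • a.snd := rfl
instance : SMul R (TT k R) := ⟨fun c t => ⟨c * t.fst, c • t.snd⟩⟩
@[simp] lemma fst_smulR (c : R) (a : TT k R) : (c • a).fst = c * a.fst := rfl
@[simp] lemma snd_smulR (c : R) (a : TT k R) : (c • a).snd = c • a.snd := rfl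

instance : Module R (TT k R) where
  one_smul a := by ext1 <;> simp
  mul_smul a b c := by ext1 <;> simp [mul_smul, mul_assoc]
  smul_zero a := by ext1 <;> simp
  smul_add a b c := by ext1 <;> simp [mul_add]
  add_smul a b c := by ext1 <;> simp [add_smul, add_mul]
  zero_smul a := by ext1 <;> simp

/-- the vector space structure -/
abbrev mod : Module k (TT k R) where
  one_smul a := by ext1 <;> simp
  mul_smul a b c := by ext1 <;> simp [mul_smul]
  smul_zero a := by ext1 <;> simp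
  smul_add a b c := by ext1 <;> simp
  add_smul a b c := by ext1 <;> simp [add_smul]
  zero_smul a := by ext1 <;> simp

instance : Algebra k (TT k R) :=
  letI := mod (k := k) (R := R)
  Algebra.ofModule (fun c a b => by ext1 <;> simp [smul_comm c])
    (fun c a b => by ext1 <;> simp [smul_comm c])

/-- first inclusion -/
def inl (r : R) : TT k R := ⟨r, 0⟩
/-- second inclusion -/
def inr (r : Hm k R k) : TT k R := ⟨0, r⟩
@[simp] lemma fst_inl (r : R) : (inl r : TT k R).fst = r := rfl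
@[simp] lemma snd_inl (r : R) : (inl r : TT k R).snd = 0 := rfl
@[simp] lemma fst_inr (r : Hm k R k) : (inr r).fst = 0 := rfl
@[simp] lemma snd_inr (r : Hm k R k) : (inr r).snd = r := rfl
@[simp] lemma inl_zero : (inl 0 : TT k R) = 0 := rfl
@[simp] lemma inr_zero : (inr 0 : TT k R) = 0 := rfl
lemma inl_mul_inl (a b : R) : (inl a * inl b : TT k R) = inl (a * b) := by ext1 <;> simp
lemma inl_mul_eq_smul (a : R) (t : TT k R) : inl a * t = a • t := by ext1 <;> simp

instance : SMulCommClass R (TT k R)ᵐᵒᵖ (TT k R) :=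
  ⟨fun r s t => by
    rw [← inl_mul_eq_smul, ← inl_mul_eq_smul, ← op_unop s, op_smul_eq_mul, op_smul_eq_mul,
      mul_assoc]⟩

instance : IsScalarTower k R (TT k R) := ⟨fun a b c => by ext1 <;> simp⟩

/-- comparison with the product -/
def toProd : TT k R ≃ₗ[R] R × Hm k R k :=
  { equiv with map_add' := fun _ _ => rfl, map_smul' := fun _ _ => rfl }

instance [FiniteDimensional k R] : FiniteDimensional k (TT k R) :=
  ({ equiv with map_add' := fun _ _ => rfl, map_smul' := fun _ _ => rfl } :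
    TT k R ≃ₗ[k] R × Hm k R k).symm.finiteDimensional

end TT

open TT

section T

variable {k R : Type} [Field k] [Ring R] [Algebra k R]

/-- first component -/
def fstA : TT k R →+ R := ⟨⟨fst, rfl⟩, fun _ _ => rfl⟩
/-- second component -/
def sndA : TT k R →+ Hm k R k := ⟨⟨snd, rfl⟩, fun _ _ => rfl⟩
/-- first inclusion -/
def inlA : R →+ TT k R := ⟨⟨inl, rfl⟩, fun _ _ => by ext1 <;> simp⟩
/-- second inclusion -/
def inrA : Hm k R k →+ TT k R := ⟨⟨inr, rfl⟩, fun _ _ => by ext1 <;> simp⟩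
@[simp] lemma fstA_apply (t : TT k R) : fstA t = t.fst := rfl
@[simp] lemma sndA_apply (t : TT k R) : sndA t = t.snd := rfl
@[simp] lemma inlA_apply (t : R) : (inlA t : TT k R) = inl t := rfl
@[simp] lemma inrA_apply (t : Hm k R k) : (inrA t : TT k R) = inr t := rfl

/-- scaling the dual part -/
def hA (c : k) : TT k R →ₐ[k] TT k R where
  toFun t := ⟨t.fst, c • t.snd⟩
  map_one' := by ext1 <;> simp
  map_mul' a b := by ext1 <;> simp [smul_comm c]
  map_zero' := by ext1 <;> simp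
  map_add' a b := by ext1 <;> simp
  commutes' a := by ext1 <;> simp [Algebra.algebraMap_eq_smul_one]

@[simp] lemma fst_hA (c : k) (t : TT k R) : (hA c t).fst = t.fst := rfl
@[simp] lemma snd_hA (c : k) (t : TT k R) : (hA c t).snd = c • t.snd := rfl
@[simp] lemma hA_inl (c : k) (r : R) : hA c (inl r : TT k R) = inl r := by ext1 <;> simp
lemma hA_hA (c c' : k) (h : c * c' = 1) (t : TT k R) : hA c (hA c' t) = t := by
  ext1 <;> simp [smul_smul, h]

/-- the symmetrizing isomorphism onto the dual -/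
noncomputable def toDual : TT k R →ₗ[TT k R] Hm k (TT k R) k where
  toFun t := ⟨{ toFun := fun x => (x * t).snd.lin 1
                map_add' := fun a b => by simp [add_mul]
                map_smul' := fun a b => by simp [mul_add] }⟩
  map_add' a b := by ext1; refine LinearMap.ext fun x => ?_; simp [mul_add]
  map_smul' a b := by
    ext1; refine LinearMap.ext fun x => ?_
    show (x * (a * b)).snd.lin 1 = (x * a * b).snd.lin 1
    rw [mul_assoc]

lemma toDual_apply (t x : TT k R) : (toDual t).lin x = (x * t).snd.lin 1 := rfl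

lemma toDual_bij [FiniteDimensional k R] : Function.Bijective (toDual (k := k) (R := R)) := by
  have hinj : Function.Injective (toDual (k := k) (R := R)) := by
    rw [injective_iff_map_eq_zero]
    intro t ht
    have h : ∀ x : TT k R, (x * t).snd.lin 1 = 0 := fun x => by rw [← toDual_apply, ht]; rfl
    ext1
    · rw [fst_zero, ← Module.forall_dual_apply_eq_zero_iff k]
      intro φ
      simpa using h (inr ⟨φ⟩)
    · ext y
      simpa using h (inl y)
  let f : TT k R →ₗ[k] Hm k (TT k R) k :=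
    { toFun := toDual, map_add' := map_add _
      map_smul' := fun c t => by
        ext1; refine LinearMap.ext fun x => ?_
        simp [toDual_apply] }
  refine ⟨hinj, (LinearMap.injective_iff_surjective_of_finrank_eq_finrank (f := f) ?_).1 hinj⟩
  rw [Hm.lequiv.finrank_eq]
  exact (Subspace.dual_finrank_eq).symm

variable {ι : Type}

/-- the `R`-part of the `j`-th copy -/
noncomputable def pc (j : ℕ) : (ℕ × ι →₀ TT k R) →+ (ι →₀ R) :=
  pull (Prod.mk j) (Prod.mk_right_injective j) fun _ => fstA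

/-- the dual part of the `j`-th copy -/
noncomputable def uc (j : ℕ) : (ℕ × ι →₀ TT k R) →+ (ι →₀ Hm k R k) :=
  pull (Prod.mk j) (Prod.mk_right_injective j) fun _ => sndA

@[simp] lemma pc_apply (j : ℕ) (v : ℕ × ι →₀ TT k R) (i : ι) : pc j v i = (v (j, i)).fst := rfl
@[simp] lemma uc_apply (j : ℕ) (v : ℕ × ι →₀ TT k R) (i : ι) : uc j v i = (v (j, i)).snd := rfl

lemma ext_pu {v w : ℕ × ι →₀ TT k R} (h1 : ∀ j, pc j v = pc j w) (h2 : ∀ j, uc j v = uc j w) :
    v = w := by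
  ext1 ⟨j, i⟩
  ext1
  · exact DFunLike.congr_fun (h1 j) i
  · exact DFunLike.congr_fun (h2 j) i

/-- inclusion of `R`-rows in the `j`-th copy -/
noncomputable def il (j : ℕ) : (ι →₀ R) →+ (ℕ × ι →₀ TT k R) := (cp j).comp (mapIdx fun _ => inlA)
/-- inclusion of dual rows in the `j`-th copy -/
noncomputable def ir (j : ℕ) : (ι →₀ Hm k R k) →+ (ℕ × ι →₀ TT k R) :=
  (cp j).comp (mapIdx fun _ => inrA)

lemma il_apply (j j' : ℕ) (p : ι →₀ R) (i : ι) :
    (il j p : ℕ × ι →₀ TT k R) (j', i) = if j = j' then inl (p i) else 0 := by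
  simp [il, cp_apply]
lemma ir_apply (j j' : ℕ) (p : ι →₀ Hm k R k) (i : ι) :
    (ir j p : ℕ × ι →₀ TT k R) (j', i) = if j = j' then inr (p i) else 0 := by
  simp [ir, cp_apply]

lemma pc_il (j j' : ℕ) (p : ι →₀ R) : pc (k := k) j' (il j p) = if j = j' then p else 0 := by
  ext1 i; rw [pc_apply, il_apply]; split_ifs <;> simp
@[simp] lemma uc_il (j j' : ℕ) (p : ι →₀ R) : uc (k := k) j' (il j p) = 0 := by
  ext1 i; rw [uc_apply, il_apply]; split_ifs <;> simp
@[simp] lemma pc_ir (j j' : ℕ) (p : ι →₀ Hm k R k) : pc j' (ir j p) = 0 := by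
  ext1 i; rw [pc_apply, ir_apply]; split_ifs <;> simp
lemma uc_ir (j j' : ℕ) (p : ι →₀ Hm k R k) : uc j' (ir j p) = if j = j' then p else 0 := by
  ext1 i; rw [uc_apply, ir_apply]; split_ifs <;> simp

lemma pc_single (j j' : ℕ) (i : ι) (t : TT k R) :
    pc j' (single (j, i) t) = if j = j' then single i t.fst else 0 := by
  split_ifs with h
  · subst h; exact pull_single _ _ _ _ _
  · exact pull_single_of_ne _ _ _ (fun _ h' => h (congrArg Prod.fst h').symm) _
lemma uc_single (j j' : ℕ) (i : ι) (t : TT k R) :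
    uc j' (single (j, i) t) = if j = j' then single i t.snd else 0 := by
  split_ifs with h
  · subst h; exact pull_single _ _ _ _ _
  · exact pull_single_of_ne _ _ _ (fun _ h' => h (congrArg Prod.fst h').symm) _

lemma pc_smul (j : ℕ) (t : TT k R) (v : ℕ × ι →₀ TT k R) : pc j (t • v) = t.fst • pc j v := by
  ext1; simp
lemma uc_smul (j : ℕ) (t : TT k R) (v : ℕ × ι →₀ TT k R) :
    uc j (t • v) = t.fst • uc j v + rrow (pc j v) t.snd := by
  ext1; simp
lemma pc_smulR (j : ℕ) (r : R) (v : ℕ × ι →₀ TT k R) : pc j (r • v) = r • pc j v := by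
  ext1; simp
lemma uc_smulR (j : ℕ) (r : R) (v : ℕ × ι →₀ TT k R) : uc j (r • v) = r • uc j v := by
  ext1; simp
lemma pc_smulk (j : ℕ) (r : k) (v : ℕ × ι →₀ TT k R) : pc j (r • v) = r • pc j v := by
  ext1; simp
lemma il_smulR (j : ℕ) (r : R) (p : ι →₀ R) :
    (il j (r • p) : ℕ × ι →₀ TT k R) = r • il j p :=
  ext_pu (fun j' => by rw [pc_smulR, pc_il, pc_il]; split_ifs <;> simp)
    fun j' => by simp [uc_smulR]
lemma ir_smulR (j : ℕ) (r : R) (p : ι →₀ Hm k R k) : ir j (r • p) = r • ir j p :=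
  ext_pu (fun j' => by simp [pc_smulR])
    fun j' => by rw [uc_smulR, uc_ir, uc_ir]; split_ifs <;> simp

end T

namespace Setup

variable {k R ι : Type} [Field k] [Ring R] [Algebra k R] (σ : Setup k R ι)

/-- the differential of the resolution over the trivial extension -/
noncomputable def DQ : ℕ × ι → ℕ × ι →₀ TT k R
  | (0, i) => il 0 (σ.P.D i)
  | (j + 1, i) => il (j + 1) (σ.P.D i) + ir j (σ.ρ i)

lemma pc_DQ (j j' : ℕ) (i : ι) : pc j' (σ.DQ (j, i)) = if j = j' then σ.P.D i else 0 := by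
  rcases j with _ | j <;> simp [DQ, pc_il]

lemma uc_DQ (j j' : ℕ) (i : ι) : uc j' (σ.DQ (j, i)) = if j = j' + 1 then σ.ρ i else 0 := by
  rcases j with _ | j <;> simp [DQ, uc_ir]

lemma fst_DQ (j j' : ℕ) (i i' : ι) :
    (σ.DQ (j, i) (j', i')).fst = if j = j' then σ.P.D i i' else 0 := by
  rw [← pc_apply, pc_DQ]; split_ifs <;> rfl

lemma snd_DQ (j j' : ℕ) (i i' : ι) :
    (σ.DQ (j, i) (j', i')).snd = if j = j' + 1 then σ.ρ i i' else 0 := by
  rw [← uc_apply, uc_DQ]; split_ifs <;> rfl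

lemma pc_lc (j : ℕ) (v : ℕ × ι →₀ TT k R) :
    pc j (linearCombination (TT k R) σ.DQ v) = σ.P.rd (pc j v) := by
  induction v using Finsupp.induction_linear with
  | zero => simp
  | add a b ha hb => simp [ha, hb]
  | single x t =>
    obtain ⟨j', i⟩ := x
    rw [linearCombination_single, pc_smul, pc_DQ, pc_single]
    split_ifs <;> simp [rrow_self]

lemma uc_lc (j : ℕ) (v : ℕ × ι →₀ TT k R) :
    uc j (linearCombination (TT k R) σ.DQ v) = σ.P.rd (uc j v) + σ.ρL (pc (j + 1) v) := by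
  induction v using Finsupp.induction_linear with
  | zero => simp
  | add a b ha hb => simp only [map_add, ha, hb]; abel
  | single x t =>
    obtain ⟨j', i⟩ := x
    rw [linearCombination_single, uc_smul, pc_DQ, uc_DQ, pc_single, uc_single, add_comm]
    congr 1
    · split_ifs
      · simp
      · ext1; simp
    · split_ifs <;> simp [ρL]

/-- the resolution over the trivial extension -/
noncomputable def Q : Dat (TT k R) (ℕ × ι) where
  deg x := σ.P.deg x.2 + 5 * x.1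
  ε x := inl (σ.P.ε x.2)
  D := σ.DQ
  idem x := by rw [inl_mul_inl, σ.P.idem]
  D_deg := by
    rintro ⟨j, i⟩ ⟨j', i'⟩ h
    by_contra h'
    apply h
    ext1
    · rw [fst_DQ]
      split_ifs with hj
      · subst hj
        by_contra h2
        have := σ.P.D_deg i i' h2
        simp only at h'; omega
      · rfl
    · rw [snd_DQ]
      split_ifs with hj
      · subst hj
        refine (σ.isRow_ρ i).eq_zero ?_
        simp only at h'; push_cast at h'; omega
      · rfl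
  D_left := by
    rintro ⟨j, i⟩ ⟨j', i'⟩
    ext1
    · simp only [fst_mul, fst_inl, fst_DQ]; split_ifs <;> simp [σ.P.D_left]
    · simp only [snd_mul, fst_inl, snd_inl, snd_DQ, smul_zero, add_zero]
      split_ifs
      · exact DFunLike.congr_fun (σ.ε_ρ i) i'
      · simp
  D_right := by
    rintro ⟨j, i⟩ ⟨j', i'⟩
    ext1
    · simp only [fst_mul, fst_inl, fst_DQ]; split_ifs <;> simp [σ.P.D_right]
    · simp only [snd_mul, fst_inl, snd_inl, snd_DQ, smul_zero, zero_add]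
      split_ifs
      · exact (σ.isRow_ρ i).ε_smul i'
      · simp
  DD := by
    rintro ⟨j, i⟩
    refine ext_pu (fun j' => ?_) fun j' => ?_
    · rw [pc_lc, pc_DQ]; split_ifs <;> simp [rd_D]
    · rw [uc_lc, pc_DQ, uc_DQ]
      split_ifs
      · rw [rd_ρ, map_zero]; exact σ.add_self _
      · simp

@[simp] lemma Q_deg (x : ℕ × ι) : σ.Q.deg x = σ.P.deg x.2 + 5 * x.1 := rfl
@[simp] lemma Q_ε (x : ℕ × ι) : σ.Q.ε x = inl (σ.P.ε x.2) := rfl
@[simp] lemma Q_D : σ.Q.D = σ.DQ := rfl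

lemma Q_e (n : ℤ) (j : ℕ) (i : ι) : σ.Q.e n (j, i) = inl (σ.P.e (n - 5 * j) i) := by
  by_cases h : σ.P.deg i = n - 5 * j
  · rw [σ.P.e_of_eq h, σ.Q.e_of_eq (by simp [h])]; rfl
  · rw [σ.P.e_of_ne h, σ.Q.e_of_ne (by simp; omega), inl_zero]

lemma Q_nonneg (x : ℕ × ι) : 0 ≤ σ.Q.deg x := by have := σ.nonneg x.2; simp only [Q_deg]; omega

lemma Q_fin : σ.Q.FinDeg := fun n =>
  (Set.Finite.biUnion (Set.finite_le_nat n.toNat)
    fun j _ => (σ.fin (n - 5 * j)).image (Prod.mk j)).subset (by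
      rintro ⟨j, i⟩ h
      have := σ.nonneg i
      simp only [Set.mem_setOf_eq, Q_deg] at h
      simp only [Set.mem_iUnion, Set.mem_setOf_eq]
      exact ⟨j, by omega, i, by simp only [Set.mem_setOf_eq]; omega, rfl⟩)

lemma pc_rd (j : ℕ) (v : ℕ × ι →₀ TT k R) : pc j (σ.Q.rd v) = σ.P.rd (pc j v) := by
  rw [rd_eq_lc]; exact σ.pc_lc j v

lemma uc_rd (j : ℕ) (v : ℕ × ι →₀ TT k R) :
    uc j (σ.Q.rd v) = σ.P.rd (uc j v) + σ.ρL (pc (j + 1) v) := by
  rw [rd_eq_lc]; exact σ.uc_lc j v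

lemma isRow_Q {n : ℤ} {v : ℕ × ι →₀ TT k R} : σ.Q.IsRow n v ↔
    (∀ j : ℕ, σ.P.IsRow (n - 5 * j) (pc j v)) ∧ ∀ j : ℕ, σ.P.IsRow (n - 5 * j) (uc j v) := by
  simp [isRow_iff, Q_e, TT.ext_iff, forall_and]

lemma exists_row (n : ℤ) (p : ℕ → ι →₀ R) (u : ℕ → ι →₀ Hm k R k)
    (hp : ∀ j : ℕ, σ.P.IsRow (n - 5 * j) (p j)) (hu : ∀ j : ℕ, σ.P.IsRow (n - 5 * j) (u j)) :
    ∃ v, σ.Q.IsRow n v ∧ (∀ j, pc j v = p j) ∧ ∀ j, uc j v = u j := by
  let v : ℕ × ι →₀ TT k R := ∑ j ∈ Finset.range (n.toNat + 1), (il j (p j) + ir j (u j))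
  have h1 : ∀ j, pc j v = p j := by
    intro j
    simp only [v, map_sum, map_add, pc_il, pc_ir, add_zero]
    rw [Finset.sum_ite_eq']
    split_ifs with h
    · rfl
    · exact ((hp j).eq_zero_of_neg σ.nonneg (by simp at h; omega)).symm
  have h2 : ∀ j, uc j v = u j := by
    intro j
    simp only [v, map_sum, map_add, uc_il, uc_ir, zero_add]
    rw [Finset.sum_ite_eq']
    split_ifs with h
    · rfl
    · exact ((hu j).eq_zero_of_neg σ.nonneg (by simp at h; omega)).symm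
  exact ⟨v, σ.isRow_Q.2 ⟨fun j => h1 j ▸ hp j, fun j => h2 j ▸ hu j⟩, h1, h2⟩

lemma isRow_il {n : ℤ} {p : ι →₀ R} (hp : σ.P.IsRow n p) : σ.Q.IsRow n (il (k := k) 0 p) :=
  σ.isRow_Q.2 ⟨fun j => by
    rw [pc_il]; split_ifs with h
    · subst h; simpa using hp
    · exact IsRow.zero _, fun j => by rw [uc_il]; exact IsRow.zero _⟩

lemma isRow_ir {n : ℤ} {p : ι →₀ Hm k R k} (hp : σ.P.IsRow n p) : σ.Q.IsRow n (ir 0 p) :=
  σ.isRow_Q.2 ⟨fun j => by rw [pc_ir]; exact IsRow.zero _, fun j => by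
    rw [uc_ir]; split_ifs with h
    · subst h; simpa using hp
    · exact IsRow.zero _⟩

variable {σ} in
lemma _root_.Vale.Agent.P195.Dat.IsRow.pc0 {n : ℤ} {v : ℕ × ι →₀ TT k R} (h : σ.Q.IsRow n v) :
    σ.P.IsRow n (pc 0 v) := by simpa using (σ.isRow_Q.1 h).1 0

variable {σ} in
lemma _root_.Vale.Agent.P195.Dat.IsRow.uc0 {n : ℤ} {v : ℕ × ι →₀ TT k R} (h : σ.Q.IsRow n v) :
    σ.P.IsRow n (uc 0 v) := by simpa using (σ.isRow_Q.1 h).2 0

lemma rd_il (p : ι →₀ R) : σ.Q.rd (il 0 p : ℕ × ι →₀ TT k R) = il 0 (σ.P.rd p) :=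
  ext_pu (fun j => by rw [pc_rd, pc_il, pc_il]; split_ifs <;> simp)
    fun j => by simp [uc_rd, pc_il]

lemma rd_ir (p : ι →₀ Hm k R k) : σ.Q.rd (ir 0 p) = ir 0 (σ.P.rd p) :=
  ext_pu (fun j => by simp [pc_rd])
    fun j => by rw [uc_rd, uc_ir, uc_ir]; split_ifs <;> simp

lemma exact_K {n : ℤ} {v : ℕ × ι →₀ TT k R} (hv : σ.Q.IsRow n v) (hd : σ.Q.rd v = 0) :
    ∃ w, σ.Q.IsRow (n + 1) w ∧ pc 0 w = 0 ∧ σ.Q.rd w = v - il 0 (pc 0 v) := by
  obtain ⟨h1, h2⟩ := σ.isRow_Q.1 hv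
  have := fun j : ℕ => σ.cone_exact (n := n - 5 * j) (h2 j)
    (p := pc (j + 1) v) (by have := h1 (j + 1); push_cast at this; convert this using 1; ring)
    (by rw [← pc_rd, hd, map_zero]) (by
      have := σ.uc_rd j v
      rw [hd, map_zero] at this
      rw [eq_neg_of_add_eq_zero_left this.symm, neg_eq_iff_add_eq_zero, σ.add_self])
  choose u' p' hu' hp' h3 h4 using this
  obtain ⟨w, hw, hw1, hw2⟩ := σ.exists_row (n + 1) (fun j => Nat.casesOn j 0 p') u'
    (by
      rintro (_ | j)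
      · exact IsRow.zero _
      · have := hp' j; push_cast; convert this using 1; ring)
    (fun j => by convert hu' j using 1; ring)
  refine ⟨w, hw, hw1 0, ext_pu (fun j => ?_) fun j => ?_⟩
  · rw [pc_rd, hw1, map_sub, pc_il]
    rcases j with _ | j
    · simp
    · simp [h3]
  · rw [uc_rd, hw1, hw2, map_sub, uc_il, sub_zero]; exact h4 j

lemma exact_K' {n : ℤ} {v : ℕ × ι →₀ TT k R} (hv : σ.Q.IsRow n v) (h0 : pc 0 v = 0)
    (hd : σ.Q.rd v = 0) : ∃ w, σ.Q.IsRow (n + 1) w ∧ pc 0 w = 0 ∧ σ.Q.rd w = v := by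
  simpa [h0] using σ.exact_K hv hd

lemma exact_Q {n : ℤ} (hn : 1 ≤ n) : σ.Q.RowExact (TT k R) n := by
  intro v hv hd
  obtain ⟨w, hw, -, hw'⟩ := σ.exact_K hv hd
  obtain ⟨p, hp, hp'⟩ := σ.rowExact n hn _ hv.pc0 (by rw [← pc_rd, hd, map_zero])
  exact ⟨w + il 0 p, hw.add (σ.isRow_il hp), by rw [map_add, hw', rd_il, hp']; simp⟩

lemma exact_Q₀ {v : ℕ × ι →₀ TT k R} (hv : σ.Q.IsRow 0 v) (h : σ.χ (v (0, σ.i₀)).fst = 0) :
    ∃ w, σ.Q.IsRow 1 w ∧ σ.Q.rd w = v := by
  obtain ⟨w, hw, -, hw'⟩ := σ.exact_K hv (hv.rd'.eq_zero_of_neg σ.Q_nonneg (by norm_num))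
  obtain ⟨p, hp, hp'⟩ := σ.rowExact₀ _ hv.pc0 h
  exact ⟨w + il 0 p, hw.add (σ.isRow_il hp), by rw [map_add, hw', rd_il, hp']; simp⟩

lemma van_Q [FiniteDimensional k R] {n : ℤ} (hn : 1 ≤ n) : σ.Q.Van (TT k R) n :=
  (σ.Q.van_dual (k := k) (σ.exact_Q hn)).retract toDual
    (LinearEquiv.ofBijective toDual toDual_bij).symm.toLinearMap
    (LinearEquiv.ofBijective toDual toDual_bij).symm_apply_apply

lemma van_T {n : ℤ} (h0 : n ≠ 0) (h4 : n ≠ 4) : σ.P.Van (TT k R) n :=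
  (Van.prod (σ.van n h4) (σ.van_DR h0)).retract toProd.toLinearMap toProd.symm.toLinearMap
    toProd.symm_apply_apply

/-! ### the acyclic part -/

/-- rows of positive weight -/
def KRow (n : ℤ) : Submodule R (ℕ × ι →₀ TT k R) where
  carrier := {v | σ.Q.IsRow n v ∧ pc 0 v = 0}
  add_mem' h h' := ⟨h.1.add h'.1, by rw [map_add, h.2, h'.2, add_zero]⟩
  zero_mem' := ⟨IsRow.zero n, map_zero _⟩
  smul_mem' s _ h := ⟨IsRow.smul h.1 s, by rw [pc_smulR, h.2, smul_zero]⟩

/-- cycles of positive weight -/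
def KCyc (n : ℤ) : Submodule R (ℕ × ι →₀ TT k R) where
  carrier := {v | (σ.Q.IsRow n v ∧ pc 0 v = 0) ∧ σ.Q.rd v = 0}
  add_mem' h h' := ⟨(σ.KRow n).add_mem h.1 h'.1, by rw [map_add, h.2, h'.2, add_zero]⟩
  zero_mem' := ⟨(σ.KRow n).zero_mem, map_zero _⟩
  smul_mem' s _ h := ⟨(σ.KRow n).smul_mem s h.1, by rw [rd_smul, h.2, smul_zero]⟩

/-- removing the part of weight zero -/
noncomputable def cut : (ℕ × ι →₀ TT k R) →ₗ[R] (ℕ × ι →₀ TT k R) where
  toFun v := v - il 0 (pc 0 v)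
  map_add' a b := by simp only [map_add]; abel
  map_smul' r v := by simp [pc_smulR, il_smulR, smul_sub]

lemma cut_apply (v : ℕ × ι →₀ TT k R) : cut v = v - il 0 (pc 0 v) := rfl
lemma pc_cut (v : ℕ × ι →₀ TT k R) : pc 0 (cut v) = 0 := by simp [cut_apply, pc_il]
lemma isRow_cut {n : ℤ} {v : ℕ × ι →₀ TT k R} (h : σ.Q.IsRow n v) : σ.Q.IsRow n (cut v) :=
  h.sub (σ.isRow_il h.pc0)
lemma rd_cut (v : ℕ × ι →₀ TT k R) : σ.Q.rd (cut v) = cut (σ.Q.rd v) := by
  rw [cut_apply, cut_apply, map_sub, rd_il, pc_rd]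

lemma van_KRow (b : ℤ) {n : ℤ} (h0 : n ≠ 0) (h4 : n ≠ 4) : σ.P.Van (σ.KRow b) n :=
  (van_Row (S' := R) σ.Q_fin b (σ.van_T h0 h4)).retract
    (Submodule.inclusion (show σ.KRow b ≤ σ.Q.Row (TT k R) R b from fun _ h => h.1))
    (((cut (k := k) (ι := ι)).domRestrict _).codRestrict _ fun v => ⟨σ.isRow_cut v.2, pc_cut _⟩)
    fun v => Subtype.ext (by
      show v.1 - il 0 (pc 0 v.1) = v.1
      rw [v.2.2]; simp)

/-- the differential onto cycles -/
noncomputable def toKCyc (n : ℤ) : σ.KRow (n + 1) →ₗ[R] σ.KCyc n :=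
  ((σ.Q.rdL _ R).domRestrict _).codRestrict _ fun v =>
    ⟨⟨IsRow.rd v.2.1, by
      show pc 0 (σ.Q.rd v.1) = 0
      rw [pc_rd, v.2.2, map_zero]⟩, σ.Q.rd_rd _⟩

lemma ses_K (n : ℤ) : σ.P.SES
    (Submodule.inclusion (show σ.KCyc (n + 1) ≤ σ.KRow (n + 1) from fun _ h => h.1))
    (σ.toKCyc n) where
  inj := Submodule.inclusion_injective _
  comp a := Subtype.ext a.2.2
  ex _ b _ h := ⟨⟨b.1, b.2, congrArg Subtype.val h⟩, rfl⟩
  surj _ c _ := by
    obtain ⟨w, h1, h2, h3⟩ := σ.exact_K' c.2.1.1 c.2.1.2 c.2.2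
    exact ⟨⟨w, h1, h2⟩, Subtype.ext h3⟩

lemma van_KCyc4 {n : ℤ} (hn : n ≠ 4) : σ.P.Van (σ.KCyc 4) n := by
  have key : ∀ v : σ.KCyc 4, ir 0 (uc 0 v.1) = v.1 := by
    intro v
    obtain ⟨h1, h2⟩ := σ.isRow_Q.1 v.2.1.1
    refine ext_pu (fun j => ?_) fun j => ?_
    · rcases j with _ | j
      · rw [pc_ir, v.2.1.2]
      · rw [pc_ir, (h1 (j + 1)).eq_zero_of_neg σ.nonneg (by push_cast; omega)]
    · rcases j with _ | j
      · simp [uc_ir]
      · rw [(h2 (j + 1)).eq_zero_of_neg σ.nonneg (by push_cast; omega)]; simp [uc_ir]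
  refine ((σ.cycU 4 4 rfl le_rfl).1 n hn).retract
    { toFun := fun v => ⟨uc 0 v.1, v.2.1.1.uc0, ?_⟩
      map_add' := fun a b => Subtype.ext (map_add _ _ _)
      map_smul' := fun r v => Subtype.ext (uc_smulR 0 r v.1) }
    { toFun := fun u => ⟨ir 0 u.1, ⟨σ.isRow_ir u.2.1, pc_ir _ _ _⟩, ?_⟩
      map_add' := fun a b => Subtype.ext (map_add _ _ _)
      map_smul' := fun r v => Subtype.ext (ir_smulR 0 r v.1) } fun v => Subtype.ext (key v)
  · have := σ.uc_rd 0 v.1
    rw [v.2.2, ((σ.isRow_Q.1 v.2.1.1).1 (0 + 1)).eq_zero_of_neg σ.nonneg (by norm_num)] at this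
    simpa using this.symm
  · rw [rd_ir, u.2.2, map_zero]

lemma van_KCyc6 {n : ℤ} (hn : 7 ≤ n) : σ.P.Van (σ.KCyc 6) n :=
  (σ.ses_K 5).van₁ (σ.van_KRow _ (by omega) (by omega))
    ((σ.ses_K 4).van₁ (σ.van_KRow _ (by omega) (by omega)) (σ.van_KCyc4 (by omega)))

/-! ### the weight operator -/

/-- the weight operator on entries -/
noncomputable def θ (j : ℕ) : TT k R →+ TT k R :=
  (σ.H ^ j • (hA σ.H).toLinearMap : TT k R →ₗ[k] TT k R).toAddMonoidHom

lemma θ_apply (j : ℕ) (t : TT k R) : σ.θ j t = σ.H ^ j • hA σ.H t := rfl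

/-- the weight operator -/
noncomputable def Θ : (ℕ × ι →₀ TT k R) →+ (ℕ × ι →₀ TT k R) := mapIdx fun x => σ.θ x.1

lemma Θ_apply (v : ℕ × ι →₀ TT k R) (x : ℕ × ι) : σ.Θ v x = σ.H ^ x.1 • hA σ.H (v x) := rfl

lemma h_DQ (x y : ℕ × ι) : σ.H ^ y.1 • hA σ.H (σ.DQ x y) = σ.H ^ x.1 • σ.DQ x y := by
  obtain ⟨j, i⟩ := x
  obtain ⟨j', i'⟩ := y
  ext1
  · simp only [fst_smul, fst_hA, fst_DQ]; split_ifs with h <;> simp [h]
  · simp only [snd_smul, snd_hA, snd_DQ]; split_ifs with h <;> simp [h, smul_smul, pow_succ]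

lemma rd_Θ (v : ℕ × ι →₀ TT k R) : σ.Q.rd (σ.Θ v) = σ.Θ (σ.Q.rd v) :=
  (σ.Q.rd_mapIdx σ.Q _ (fun x y b => by
    simp only [op_smul_eq_mul, θ_apply, map_mul, Q_D]
    rw [← mul_smul_comm, h_DQ, mul_smul_comm, smul_mul_assoc]) v).symm

lemma isRow_Θ {n : ℤ} {v : ℕ × ι →₀ TT k R} (h : σ.Q.IsRow n v) : σ.Q.IsRow n (σ.Θ v) :=
  h.mapIdx _ (fun x b => by simp [θ_apply]) fun _ => rfl

lemma pc_Θ (j : ℕ) (v : ℕ × ι →₀ TT k R) : pc j (σ.Θ v) = σ.H ^ j • pc j v := by
  ext1; simp [Θ_apply]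
lemma uc_Θ (j : ℕ) (v : ℕ × ι →₀ TT k R) : uc j (σ.Θ v) = σ.H ^ (j + 1) • uc j v := by
  ext1; simp [Θ_apply, smul_smul, pow_succ]

lemma one_add_ne (j : ℕ) : 1 + σ.H ^ (j + 1) ≠ 0 := by
  intro h
  apply σ.H_pow (j + 1) (by omega)
  linear_combination h - σ.two

lemma one_add_smul' {Y : Type} [AddCommGroup Y] [Module k Y] (c : k) (x : Y) :
    (1 + c) • x = x + c • x := by rw [add_smul, one_smul]

lemma Θ_il (p : ι →₀ R) : σ.Θ (il 0 p) = il 0 p :=
  ext_pu (fun j => by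
    rw [pc_Θ, pc_il]; split_ifs with h
    · simp [← h]
    · simp) fun j => by simp [uc_Θ]

lemma Θ_inj {v : ℕ × ι →₀ TT k R} (h : σ.Θ v = 0) : v = 0 :=
  ext_pu (fun j => by
    have := σ.pc_Θ j v
    rw [h, map_zero] at this
    rw [map_zero]; exact (smul_eq_zero.1 this.symm).resolve_left (pow_ne_zero _ σ.H_ne))
  fun j => by
    have := σ.uc_Θ j v
    rw [h, map_zero] at this
    rw [map_zero]; exact (smul_eq_zero.1 this.symm).resolve_left (pow_ne_zero _ σ.H_ne)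

lemma one_add_Θ_inj {v : ℕ × ι →₀ TT k R} (h0 : pc 0 v = 0) (h : v + σ.Θ v = 0) : v = 0 :=
  ext_pu (fun j => by
    rcases j with _ | j
    · rw [h0, map_zero]
    · have := congrArg (pc (j + 1)) h
      rw [map_add, pc_Θ, map_zero] at this
      rw [map_zero]
      have h2 := one_add_smul' (σ.H ^ (j + 1)) (pc (j + 1) v)
      exact (smul_eq_zero.1 (h2.trans this)).resolve_left (σ.one_add_ne j))
  fun j => by
    have := congrArg (uc j) h
    rw [map_add, uc_Θ, map_zero, ← one_add_smul'] at this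
    rw [map_zero]; exact (smul_eq_zero.1 this).resolve_left (σ.one_add_ne j)

lemma one_add_Θ_surj {n : ℤ} {v : ℕ × ι →₀ TT k R} (hv : σ.Q.IsRow n v) (h0 : pc 0 v = 0) :
    ∃ w, σ.Q.IsRow n w ∧ pc 0 w = 0 ∧ w + σ.Θ w = v := by
  obtain ⟨h1, h2⟩ := σ.isRow_Q.1 hv
  obtain ⟨w, hw, hw1, hw2⟩ := σ.exists_row n (fun j => (1 + σ.H ^ j)⁻¹ • pc j v)
    (fun j => (1 + σ.H ^ (j + 1))⁻¹ • uc j v) (fun j => (h1 j).smul _) fun j => (h2 j).smul _
  refine ⟨w, hw, by rw [hw1, h0, smul_zero], ext_pu (fun j => ?_) fun j => ?_⟩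
  · rw [map_add, pc_Θ]
    refine (one_add_smul' (σ.H ^ j) (pc j w)).symm.trans ?_
    rw [hw1, smul_smul]
    rcases j with _ | j
    · simp [h0]
    · rw [mul_inv_cancel₀ (σ.one_add_ne j), one_smul]
  · rw [map_add, uc_Θ, ← one_add_smul', hw2, smul_smul, mul_inv_cancel₀ (σ.one_add_ne j), one_smul]

lemma pc_one_add_Θ (v : ℕ × ι →₀ TT k R) : pc 0 (v + σ.Θ v) = 0 := by
  rw [map_add, pc_Θ, pow_zero, one_smul, σ.add_self]

end Setup

end Vale.Agent.P195
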